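import Mathlib

/-! Smooth dependence of the solutions of an ordinary differential equation on the initial data. -/

open scoped ContDiff Topology
open Filter Set Metric

noncomputable section

namespace Vale.Agent.P234

universe u

/-- Pointwise application of a continuous family of linear maps. -/
def flowApp (K : Type) [TopologicalSpace K] [CompactSpace K] (F G : Type u) [NormedAddCommGroup F]
    [NormedSpace ℝ F] [NormedAddCommGroup G] [NormedSpace ℝ G] :
    C(K, F →L[ℝ] G) →L[ℝ] C(K, F) →L[ℝ] C(K, G) :=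
  LinearMap.mkContinuous₂
    (LinearMap.mk₂ ℝ (fun (A : C(K, F →L[ℝ] G)) (h : C(K, F)) =>
        (⟨fun t => A t (h t), A.continuous.clm_apply h.continuous⟩ : C(K, G)))
      (fun _ _ _ => by ext; simp) (fun _ _ _ => by ext; simp) (fun _ _ _ => by ext; simp)
      (fun _ _ _ => by ext; simp)) 1 fun A h => by
    rw [ContinuousMap.norm_le _ (by positivity), one_mul]
    exact fun t => (A t).le_of_opNorm_le_of_le (A.norm_coe_le_norm t) (h.norm_coe_le_norm t)

theorem flowApp_apply {K : Type} [TopologicalSpace K] [CompactSpace K] {F G : Type u}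
    [NormedAddCommGroup F] [NormedSpace ℝ F] [NormedAddCommGroup G] [NormedSpace ℝ G]
    (A : C(K, F →L[ℝ] G)) (h : C(K, F)) (t : K) : flowApp K F G A h t = A t (h t) := rfl

theorem flow_hasFDerivAt {K : Type} [TopologicalSpace K] [CompactSpace K] {F G : Type u}
    [NormedAddCommGroup F] [NormedSpace ℝ F] [FiniteDimensional ℝ F] [NormedAddCommGroup G]
    [NormedSpace ℝ G] (f : C(F, G)) (f' : C(F, F →L[ℝ] G)) (hf : ∀ x, HasFDerivAt f (f' x) x)
    (γ : C(K, F)) :
    HasFDerivAt (fun γ : C(K, F) => f.comp γ) (flowApp K F G (f'.comp γ)) γ := by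
  rw [hasFDerivAt_iff_isLittleO_nhds_zero, Asymptotics.isLittleO_iff]
  intro ε hε
  obtain ⟨δ, hδ, hu⟩ := Metric.uniformContinuousOn_iff_le.1
    ((isCompact_closedBall (0 : F) (‖γ‖ + 1)).uniformContinuousOn_of_continuous
      f'.continuous.continuousOn) ε hε
  filter_upwards [closedBall_mem_nhds (0 : C(K, F)) (lt_min hδ one_pos)] with h hh
  rw [mem_closedBall_zero_iff, le_min_iff] at hh
  rw [ContinuousMap.norm_le _ (by positivity)]
  intro t
  have h1 := γ.norm_coe_le_norm t
  have h2 := h.norm_coe_le_norm t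
  have h3 := (convex_closedBall (γ t) ‖h‖).norm_image_sub_le_of_norm_hasFDerivWithin_le'
    (f := f) (f' := f') (φ := f' (γ t)) (C := ε) (fun x _ => (hf x).hasFDerivWithinAt)
    (fun x hx => by
      rw [← dist_eq_norm]
      refine hu x ?_ (γ t) (mem_closedBall_zero_iff.2 (by linarith)) (le_trans hx hh.1)
      have h4 := norm_le_norm_add_norm_sub' x (γ t)
      rw [mem_closedBall_iff_norm] at hx
      rw [mem_closedBall_zero_iff]
      linarith [hh.2])
    (mem_closedBall_self (norm_nonneg h)) (y := γ t + h t) (by simpa using h2)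
  rw [add_sub_cancel_left] at h3
  exact h3.trans (mul_le_mul_of_nonneg_left h2 hε.le)

/-- Smoothness of composition operators. Induction on `n`, generalizing `G` and `f`. The derivative
at `γ` is `h ↦ (t ↦ fderiv f (γ t) (h t))`, that is, a fixed continuous linear map
`C(K, F →L G) →L (C(K, F) →L C(K, G))` applied to the composition of `fderiv f` with `γ`.
For the derivative estimate use the uniform continuity of `fderiv f` on a compact ball and the mean
value inequality. -/
theorem contDiff_nemytskii {K : Type} [TopologicalSpace K] [CompactSpace K] {F : Type u}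
    [NormedAddCommGroup F] [NormedSpace ℝ F] [FiniteDimensional ℝ F] (n : ℕ) :
    ∀ {G : Type u} [NormedAddCommGroup G] [NormedSpace ℝ G] (f : C(F, G)), ContDiff ℝ n f →
      ContDiff ℝ n (fun γ : C(K, F) => f.comp γ) := by
  induction n with
  | zero => exact fun f _ => contDiff_zero.2 f.continuous_postcomp
  | succ n ih =>
    intro G _ _ f hf
    rw [Nat.cast_succ] at hf ⊢
    obtain ⟨f', h1, h2⟩ := contDiff_succ_iff_hasFDerivAt.1 hf
    have hA : ContDiff ℝ n (flowApp K F G) := ContinuousLinearMap.contDiff (𝕜 := ℝ)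
      (E := C(K, F →L[ℝ] G)) (F := C(K, F) →L[ℝ] C(K, G)) (flowApp K F G)
    exact contDiff_succ_iff_hasFDerivAt.2 ⟨fun γ => flowApp K F G
      ((⟨f', h1.continuous⟩ : C(F, F →L[ℝ] G)).comp γ),
      hA.comp (ih ⟨f', h1.continuous⟩ h1),
      flow_hasFDerivAt f ⟨f', h1.continuous⟩ h2⟩

/-- The time interval. -/
abbrev flowK : Type := Icc (-1 : ℝ) 1

/-- Extension of a curve to the real line. -/
def flowExt {F : Type u} [TopologicalSpace F] (γ : C(flowK, F)) (s : ℝ) : F :=
  γ (projIcc (-1) 1 (by norm_num) s)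

theorem flowExt_cont {F : Type u} [TopologicalSpace F] (γ : C(flowK, F)) :
    Continuous (flowExt γ) := γ.continuous.comp continuous_projIcc

theorem flowExt_of_mem {F : Type u} [TopologicalSpace F] (γ : C(flowK, F)) {s : ℝ}
    (hs : s ∈ Icc (-1 : ℝ) 1) : flowExt γ s = γ ⟨s, hs⟩ := by
  rw [flowExt, projIcc_of_mem]

/-- The primitive vanishing at zero. -/
def flowJ (F : Type u) [NormedAddCommGroup F] [NormedSpace ℝ F] : C(flowK, F) →L[ℝ] C(flowK, F) :=
  LinearMap.mkContinuous
    { toFun := fun γ => ⟨fun t => ∫ s in (0 : ℝ)..t, flowExt γ s,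
        (intervalIntegral.continuous_primitive
          (fun a b => (flowExt_cont γ).intervalIntegrable a b) 0).comp continuous_subtype_val⟩
      map_add' := fun γ η => by
        ext t
        exact intervalIntegral.integral_add ((flowExt_cont γ).intervalIntegrable _ _)
          ((flowExt_cont η).intervalIntegrable _ _)
      map_smul' := fun c γ => by
        ext t
        exact intervalIntegral.integral_smul c (flowExt γ) } 1 fun γ => by
    rw [ContinuousMap.norm_le _ (by positivity), one_mul]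
    intro t
    refine (intervalIntegral.norm_integral_le_of_norm_le_const (C := ‖γ‖)
      fun s _ => γ.norm_coe_le_norm _).trans (mul_le_of_le_one_right (norm_nonneg _) ?_)
    rw [sub_zero]
    exact abs_le.2 t.2

theorem flowJ_apply {F : Type u} [NormedAddCommGroup F] [NormedSpace ℝ F] (γ : C(flowK, F))
    (t : flowK) : flowJ F γ t = ∫ s in (0 : ℝ)..t, flowExt γ s := rfl

/-- Smooth solutions of a fixed point equation with a small parameter. -/
theorem flow_fix {F B : Type u} [NormedAddCommGroup F] [NormedSpace ℝ F] [CompleteSpace F]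
    [NormedAddCommGroup B] [NormedSpace ℝ B] [CompleteSpace B] {N : B → B} (hN : ContDiff ℝ ∞ N)
    (ι : F →L[ℝ] B) (z₀ : F) : ∃ Γ : ℝ × F → B, ∀ᶠ p in 𝓝 ((0 : ℝ), z₀),
      ContDiffAt ℝ ∞ Γ p ∧ Γ p = ι p.2 + p.1 • N (Γ p) := by
  set Φ : (ℝ × F) × B → (ℝ × F) × B := fun x => (x.1, x.2 - x.1.1 • N x.2 - ι x.1.2) with hΦ
  have h1 : ContDiff ℝ ∞ Φ :=
    contDiff_fst.prodMk ((contDiff_snd.sub (contDiff_fst.fst.smul (hN.comp contDiff_snd))).sub
      (ι.contDiff.comp contDiff_fst.snd))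
  set e : ((ℝ × F) × B) ≃L[ℝ] (ℝ × F) × B := (ContinuousLinearEquiv.refl ℝ (ℝ × F)).skewProd
    (ContinuousLinearEquiv.refl ℝ B) (-((ContinuousLinearMap.fst ℝ ℝ F).smulRight (N (ι z₀)))
      - ι.comp (ContinuousLinearMap.snd ℝ ℝ F)) with he
  have h2 : HasFDerivAt Φ (e : (ℝ × F) × B →L[ℝ] (ℝ × F) × B) ((0, z₀), ι z₀) := by
    have k1 : HasFDerivAt (fun x : (ℝ × F) × B => N x.2) _ ((0, z₀), ι z₀) :=
      HasFDerivAt.comp (f := Prod.snd) ((0, z₀), ι z₀)
        (hN.differentiable (by simp) (ι z₀)).hasFDerivAt hasFDerivAt_snd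
    have k2 : HasFDerivAt (fun x : (ℝ × F) × B => x.1.1) _ ((0, z₀), ι z₀) :=
      (hasFDerivAt_fst (𝕜 := ℝ)).fst
    have k3 : HasFDerivAt (fun x : (ℝ × F) × B => ι x.1.2) _ ((0, z₀), ι z₀) :=
      ι.hasFDerivAt.comp _ (hasFDerivAt_fst (𝕜 := ℝ)).snd
    refine (hasFDerivAt_fst.prodMk ((hasFDerivAt_snd.sub (k2.smul k1)).sub k3)).congr_fderiv ?_
    refine ContinuousLinearMap.ext fun x => ?_
    simp [he, sub_eq_add_neg, add_assoc]
  set f := h1.contDiffAt.toOpenPartialHomeomorph Φ h2 (by simp) with hf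
  have f1 : (f : (ℝ × F) × B → (ℝ × F) × B) = Φ := rfl
  have f2 : ((0, z₀), ι z₀) ∈ f.source := h1.contDiffAt.mem_toOpenPartialHomeomorph_source h2 _
  have f3 : f ((0, z₀), ι z₀) = ((0, z₀), 0) := by simp [f1, hΦ]
  have f4 : ((0, z₀), 0) ∈ f.target := f3 ▸ f.map_source f2
  have f5 : f.symm ((0, z₀), 0) = ((0, z₀), ι z₀) := by rw [← f3, f.left_inv f2]
  have h3 : ∀ᶠ x in 𝓝 (((0 : ℝ), z₀), ι z₀), fderiv ℝ Φ x ∈
      range ((↑) : (((ℝ × F) × B) ≃L[ℝ] (ℝ × F) × B) → (ℝ × F) × B →L[ℝ] (ℝ × F) × B) :=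
    (h1.continuous_fderiv (by simp)).continuousAt.eventually
      (ContinuousLinearEquiv.isOpen.mem_nhds ⟨e, h2.fderiv.symm⟩)
  rw [← f5] at h3
  have h4 : ContinuousAt (fun p : ℝ × F => (p, (0 : B))) (0, z₀) := by fun_prop
  refine ⟨fun p => (f.symm (p, 0)).2, ?_⟩
  filter_upwards [h4.eventually (f.open_target.mem_nhds f4),
    h4.eventually ((f.continuousAt_symm f4).eventually h3)] with p p1 p2
  obtain ⟨e', he'⟩ := p2
  have h5 : ContDiffAt ℝ ∞ f.symm (p, 0) := f.contDiffAt_symm (f₀' := e') p1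
    (he' ▸ (h1.differentiable (by simp) _).hasFDerivAt) h1.contDiffAt
  refine ⟨(h5.comp p (contDiffAt_id.prodMk contDiffAt_const)).snd, ?_⟩
  have h6 : Φ (f.symm (p, 0)) = (p, 0) := f.right_inv p1
  obtain ⟨h7, h8⟩ := Prod.ext_iff.1 h6
  simp only [hΦ] at h7 h8
  rw [h7, sub_sub, sub_eq_zero, add_comm] at h8
  exact h8

/-- The curve attached to a solution of the fixed point equation. -/
def flowY {F : Type u} [NormedAddCommGroup F] [NormedSpace ℝ F] (V : F → F) (c : ℝ) (z : F)
    (γ : C(flowK, F)) (s : ℝ) : F := z + c • ∫ r in (0 : ℝ)..s, V (flowExt γ r)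

theorem flowY_deriv {F : Type u} [NormedAddCommGroup F] [NormedSpace ℝ F] [CompleteSpace F]
    {V : F → F} (hV : Continuous V) (c : ℝ) (z : F) (γ : C(flowK, F)) (s : ℝ) :
    HasDerivAt (flowY V c z γ) (c • V (flowExt γ s)) s := by
  have h := hV.comp (flowExt_cont γ)
  exact ((intervalIntegral.integral_hasDerivAt_right (h.intervalIntegrable _ _)
    (h.stronglyMeasurableAtFilter _ _) h.continuousAt).const_smul c).const_add z

theorem flow_scale {F : Type u} [NormedAddCommGroup F] [NormedSpace ℝ F] [FiniteDimensional ℝ F]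
    {V : F → F} (hV : ContDiff ℝ ∞ V) {c s : ℝ} {z : F} {γ η : C(flowK, F)}
    (hγ : ∀ r ∈ Icc (-1 : ℝ) 1, flowY V c z γ r = flowExt γ r)
    (hη : ∀ r ∈ Icc (-1 : ℝ) 1, flowY V (c * s) z η r = flowExt η r) (hs : |s| ≤ 1) :
    flowY V (c * s) z η 1 = flowY V c z γ s := by
  have hm : ∀ r ∈ Icc (-1 : ℝ) 1, s * r ∈ Icc (-1 : ℝ) 1 := fun r hr => abs_le.1 (by
    rw [abs_mul]
    exact mul_le_one₀ hs (abs_nonneg _) (abs_le.2 hr))
  obtain ⟨K, hK⟩ := (hV.const_smul (c * s)).contDiffOn.exists_lipschitzOnWith (by simp)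
    (convex_closedBall (0 : F) (‖γ‖ + ‖η‖)) (isCompact_closedBall _ _)
  have d2 : ∀ r, HasDerivAt (fun r => flowY V c z γ (s * r))
      ((c * s) • V (flowExt γ (s * r))) r := fun r => by
    have := (flowY_deriv hV.continuous c z γ (s * r)).scomp r ((hasDerivAt_id r).const_mul s)
    rw [mul_one, smul_smul, mul_comm s c] at this
    exact this
  have h := ODE_solution_unique_of_mem_Icc (v := fun _ y => (c * s) • V y)
    (s := fun _ => closedBall (0 : F) (‖γ‖ + ‖η‖)) (f := flowY V (c * s) z η)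
    (g := fun r => flowY V c z γ (s * r)) (a := -1) (b := 1) (t₀ := 0) (fun _ _ => hK)
    (by norm_num)
    (fun r _ => (flowY_deriv hV.continuous _ z η r).continuousAt.continuousWithinAt)
    (fun r hr => by
      rw [hη r (Ioo_subset_Icc_self hr)]
      exact flowY_deriv hV.continuous _ z η r)
    (fun r hr => by
      rw [hη r (Ioo_subset_Icc_self hr), mem_closedBall_zero_iff]
      exact (η.norm_coe_le_norm _).trans (le_add_of_nonneg_left (norm_nonneg _)))
    (fun r _ => (d2 r).continuousAt.continuousWithinAt)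
    (fun r hr => by
      rw [hγ _ (hm r (Ioo_subset_Icc_self hr))]
      exact d2 r)
    (fun r hr => by
      rw [hγ _ (hm r (Ioo_subset_Icc_self hr)), mem_closedBall_zero_iff]
      exact (γ.norm_coe_le_norm _).trans (le_add_of_nonneg_right (norm_nonneg _)))
    (by simp [flowY])
  simpa using h (right_mem_Icc.2 (by norm_num))

/-- Smooth local flow. Let `K = Icc (-1) 1`, `B = C(K, F)`, `J : B →L B` the primitive vanishing at
zero, and `Φ ((c, z), γ) = ((c, z), γ - c • J (V ∘ γ) - const z)`. It is smooth, with invertible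
derivative near ` ((0, z₀), const z₀)`; the local inverse (`ContDiffAt.toOpenPartialHomeomorph`,
`OpenPartialHomeomorph.contDiffAt_symm`) gives `Γ (c, z)` with `Γ = const z + c • J (V ∘ Γ)`, smooth on
a neighbourhood of ` (0, z₀)`. Put `φ (c, z) = Γ (c, z) 1`. By uniqueness for the equation
`y' = (c s) • V y` one has `φ (c * s, z) = Γ (c, z) s` for `|s| ≤ 1`. -/
theorem exists_smooth_flow {F : Type u} [NormedAddCommGroup F] [NormedSpace ℝ F]
    [FiniteDimensional ℝ F] {V : F → F} (hV : ContDiff ℝ ∞ V) (z₀ : F) :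
    ∃ (φ : ℝ × F → F) (δ : ℝ), 0 < δ ∧ ContDiffOn ℝ ∞ φ (ball 0 δ ×ˢ ball z₀ δ) ∧
      (∀ z ∈ ball z₀ δ, φ (0, z) = z) ∧
      ∀ z ∈ ball z₀ δ, ∀ t ∈ ball (0 : ℝ) δ,
        HasDerivAt (fun s => φ (s, z)) (V (φ (t, z))) t := by
  have := FiniteDimensional.complete ℝ F
  set V' : C(F, F) := ⟨V, hV.continuous⟩ with hV'
  have hN : ContDiff ℝ ∞ fun γ : C(flowK, F) => flowJ F (V'.comp γ) :=
    (flowJ F).contDiff.comp (contDiff_infty.2 fun n =>
      contDiff_nemytskii n V' (contDiff_infty.1 hV n))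
  obtain ⟨Γ, hΓ⟩ := flow_fix hN (ContinuousLinearMap.const ℝ flowK) z₀
  obtain ⟨δ, hδ, H⟩ := Metric.eventually_nhds_iff_ball.1 hΓ
  rw [← ball_prod_same] at H
  have one : (1 : ℝ) ∈ Icc (-1 : ℝ) 1 := by norm_num
  have hY : ∀ c ∈ ball (0 : ℝ) δ, ∀ z ∈ ball z₀ δ, ∀ r ∈ Icc (-1 : ℝ) 1,
      flowY V c z (Γ (c, z)) r = flowExt (Γ (c, z)) r := by
    intro c hc z hz r hr
    rw [flowExt_of_mem _ hr]
    conv_rhs => rw [(H (c, z) ⟨hc, hz⟩).2]
    rfl
  have hφ : ∀ c ∈ ball (0 : ℝ) δ, ∀ z ∈ ball z₀ δ,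
      Γ (c, z) ⟨1, one⟩ = flowY V c z (Γ (c, z)) 1 := fun c hc z hz => by
    rw [hY c hc z hz 1 one, flowExt_of_mem _ one]
  refine ⟨fun p => Γ p ⟨1, one⟩, δ, hδ, fun p hp => ?_, fun z hz => ?_, fun z hz t ht => ?_⟩
  · exact ((ContinuousMap.evalCLM ℝ (⟨1, one⟩ : flowK)).contDiff.contDiffAt.comp p
      (H p hp).1).contDiffWithinAt
  · beta_reduce
    rw [hφ 0 (mem_ball_self hδ) z hz]
    simp [flowY]
  · rw [mem_ball_zero_iff, Real.norm_eq_abs] at ht
    obtain ⟨c, c1, c2⟩ := exists_between ht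
    have c0 : 0 < c := (abs_nonneg t).trans_lt c1
    have hc : c ∈ ball (0 : ℝ) δ := by rwa [mem_ball_zero_iff, Real.norm_eq_abs, abs_of_pos c0]
    have key : ∀ s, |s| < c → Γ (s, z) ⟨1, one⟩ = flowY V c z (Γ (c, z)) (s / c) := by
      intro s hs
      have hs' : s ∈ ball (0 : ℝ) δ := by
        rw [mem_ball_zero_iff, Real.norm_eq_abs]
        exact hs.trans c2
      have e : c * (s / c) = s := mul_div_cancel₀ _ c0.ne'
      rw [hφ s hs' z hz, ← flow_scale hV (hY c hc z hz) (η := Γ (s, z))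
        (by rw [e]; exact hY s hs' z hz)
        (by rw [abs_div, abs_of_pos c0, div_le_one c0]; exact hs.le), e]
    have d := (flowY_deriv hV.continuous c z (Γ (c, z)) (t / c)).scomp t
      ((hasDerivAt_id t).div_const c)
    rw [smul_smul, one_div_mul_cancel c0.ne', one_smul, ← hY c hc z hz _ (abs_le.1 (by
      rw [abs_div, abs_of_pos c0, div_le_one c0]; exact c1.le)), ← key t c1] at d
    refine d.congr_of_eventuallyEq ?_
    filter_upwards [(continuous_abs.tendsto t).eventually (gt_mem_nhds c1)] with s hs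
    exact key s hs

end Vale.Agent.P234
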