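import Vale.Agent.P234.Defs

/-! Abstract setting: a metric space `M`, a family `T x` of Euclidean spaces, and a map
`e x : T x → M` playing the role of the exponential map. -/

open scoped ContDiff Topology
open Filter Set

noncomputable section

namespace Vale.Agent.P234

/-- second derivative, as a bilinear form -/
def D2 {V : Type*} [NormedAddCommGroup V] [NormedSpace ℝ V] (f : V → ℝ) (a : V) :
    V →L[ℝ] V →L[ℝ] ℝ := fderiv ℝ (fderiv ℝ f) a

/-- locally distance realizing curve of speed `k` -/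
def LocGeo {M : Type*} [MetricSpace M] (γ : ℝ → M) (k : ℝ) : Prop :=
  ∀ t₀ : ℝ, ∃ δ : ℝ, 0 < δ ∧
    ∀ s t : ℝ, |s - t₀| < δ → |t - t₀| < δ → dist (γ s) (γ t) = |s - t| * k

/-- curve of speed `k` realizing the distance on every piece of length less than `r` -/
def UGeo {M : Type*} [MetricSpace M] (γ : ℝ → M) (k r : ℝ) : Prop :=
  ∀ s t : ℝ, |s - t| * k < r → dist (γ s) (γ t) = |s - t| * k

variable {M : Type*} [MetricSpace M] {T : M → Type*} [∀ x, NormedAddCommGroup (T x)]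
  [∀ x, InnerProductSpace ℝ (T x)]

/-- local exponential map: good on vectors of norm less than `r` -/
structure Loc (e : ∀ x, T x → M) (r : ℝ) : Prop where
  pos : 0 < r
  zero : ∀ x, e x 0 = x
  ray : ∀ x (v : T x), ‖v‖ < r → ∀ s t : ℝ, 0 ≤ s → s ≤ t → t ≤ 1 →
    dist (e x (s • v)) (e x (t • v)) = (t - s) * ‖v‖
  surj : ∀ x y, dist x y < r → ∃ v : T x, ‖v‖ = dist x y ∧ e x v = y
  smooth : ∀ x y (a : T x) (b : T y), ‖a‖ < r → ‖b‖ < r → dist (e x a) (e y b) < r →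
    ContDiffAt ℝ ∞ (fun z : T x × T y => cost (e x z.1) (e y z.2)) (a, b)
  mid : ∀ x y : M, ∀ τ : ℝ, 0 ≤ τ → τ ≤ 1 →
    ∃ m : M, dist x m = τ * dist x y ∧ dist m y = (1 - τ) * dist x y
  rank : ∀ x y, Module.finrank ℝ (T x) = Module.finrank ℝ (T y)

/-- global exponential map -/
structure Geo (e : ∀ x, T x → M) (r : ℝ) : Prop extends Loc e r where
  ugeo : ∀ x (v : T x), UGeo (fun s : ℝ => e x (s • v)) ‖v‖ r

/-- minimizing vectors -/
def MinSet (e : ∀ x, T x → M) (x : M) : Set (T x) := {v | dist x (e x v) = ‖v‖}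

/-- injectivity domain -/
def Inj (e : ∀ x, T x → M) (x : M) : Set (T x) :=
  {v | ∃ a : ℝ, 1 < a ∧ dist x (e x (a • v)) = a * ‖v‖}

/-- the cost is smooth at the pair ` (p, q)` -/
def SP (e : ∀ x, T x → M) (p q : M) : Prop :=
  ContDiffAt ℝ ∞ (fun z : T p × T q => cost (e p z.1) (e q z.2)) (0, 0)

/-- a minimizing vector from `p` to `q` -/
def lg (e : ∀ x, T x → M) (p q : M) : T p :=
  Classical.epsilon fun v : T p => ‖v‖ = dist p q ∧ e p v = q

/-- differential of `e x` at `a`, read in the chart `lg e p` -/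
def Lmap (e : ∀ x, T x → M) (x : M) (a : T x) (p : M) : T x →L[ℝ] T p :=
  fderiv ℝ (fun a' : T x => lg e p (e x a')) a

/-- weak MTW condition -/
def AMTW (e : ∀ x, T x → M) : Prop :=
  ∀ x, ∀ v ∈ Inj e x, ∀ ξ η : T x, inner ℝ ξ η = 0 →
    iteratedDeriv 2 (fun s : ℝ =>
      iteratedDeriv 2 (fun t : ℝ => cost (e x (t • ξ)) (e x (v + s • η))) 0) 0 ≤ 0

/-- convergence of tangent vectors with moving base point -/
def Conv (e : ∀ x, T x → M) {κ : Type*} (l : Filter κ) (xs : κ → M) (vs : ∀ k, T (xs k))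
    (x : M) (v : T x) : Prop :=
  Tendsto xs l (𝓝 x) ∧ Tendsto (fun k => ‖vs k‖) l (𝓝 ‖v‖) ∧
    ∀ s : ℝ, Tendsto (fun k => e (xs k) (s • vs k)) l (𝓝 (e x (s • v)))

/-- Hessian in the first variable of the cost, at ` (x, e x v)` -/
def Aq (e : ∀ x, T x → M) (x : M) (v ξ : T x) : ℝ :=
  D2 (fun a : T x => cost (e x a) (e x v)) 0 ξ ξ

/-- broken geodesic functional -/
def Ff (e : ∀ x, T x → M) (x : M) (τ : ℝ) (y : M) (z : T x × T x) : ℝ :=
  cost (e x z.1) (e x (τ • z.2)) / τ + cost (e x (τ • z.2)) y / (1 - τ)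

/-- the vectors which support `t ψ` -/
def Sup (e : ∀ x, T x → M) (ψ : M → ℝ) (t : ℝ) (x : M) : Set (T x) :=
  {w | ∀ x', t * ψ x + t ^ 2 * ‖w‖ ^ 2 / 2 ≤ t * ψ x' + cost x' (e x (t • w))}

/-- the property which is propagated from `t = 0` to `t = 1` -/
def Good (e : ∀ x, T x → M) (ψ : M → ℝ) (t : ℝ) : Prop :=
  ∀ x, convexHull ℝ (Sup e ψ 1 x) ⊆ Sup e ψ t x

/-- data of the focal lemma -/
structure FData {V : Type*} [NormedAddCommGroup V] [InnerProductSpace ℝ V] (I O : Set V) (κ : ℝ)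
    (A : V → V → ℝ) (S K : V → V →L[ℝ] V) : Prop where
  isOpen : IsOpen O
  sub : I ⊆ O
  smoothK : ContDiffOn ℝ 2 K O
  contS : ContinuousOn S O
  symm : ∀ v ∈ O, ∀ ξ η : V, inner ℝ (K v ξ) η = inner ℝ ξ (K v η)
  inv : ∀ v ∈ I, ∀ ξ : V, ∃ μ : V, K v μ = ξ ∧ A v ξ = inner ℝ (S v ξ) ξ - inner ℝ ξ μ
  psd : ∀ v ∈ I, ∀ μ : V, 0 ≤ inner ℝ (K v μ) μ
  kpos : 0 < κ
  radial : ∀ v ∈ O, K v v = κ • v
  concave : ∀ (ξ : V) (C : Set V), Convex ℝ C → C ⊆ I →
    (∀ u ∈ C, ∀ u' ∈ C, inner ℝ (u - u') ξ = 0) → ConcaveOn ℝ C (fun u => A u ξ)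

/-- a smooth Riemannian metric on a vector space -/
structure IsMetric {E : Type*} [NormedAddCommGroup E] [NormedSpace ℝ E]
    (G : E → E →L[ℝ] E →L[ℝ] ℝ) : Prop where
  smooth : ContDiff ℝ ∞ G
  symm : ∀ a u w, G a u w = G a w u
  pos : ∀ a u, u ≠ 0 → 0 < G a u u

end Vale.Agent.P234
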