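import Vale.Agent.P234.Abs

/-! Metric consequences of the local structure. -/

open scoped ContDiff Topology
open Filter Set

noncomputable section

namespace Vale.Agent.P234

variable {M : Type*} [MetricSpace M] {T : M → Type*} [∀ x, NormedAddCommGroup (T x)]
  [∀ x, InnerProductSpace ℝ (T x)] {e : ∀ x, T x → M} {r : ℝ}

theorem cost_comm (x y : M) : cost x y = cost y x := by
  rw [cost, cost, dist_comm]

theorem cost_nonneg (x y : M) : 0 ≤ cost x y := by
  unfold cost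
  positivity

theorem cost_self (x : M) : cost x x = 0 := by
  simp [cost]

theorem continuous_cost : Continuous fun z : M × M => cost z.1 z.2 := by
  unfold cost
  fun_prop

theorem basic_split (a b : ℝ) {α β : ℝ} (hα : 0 < α) (hβ : 0 < β) :
    a ^ 2 / 2 / α + b ^ 2 / 2 / β =
      (a + b) ^ 2 / 2 / (α + β) + (β * a - α * b) ^ 2 / (2 * (α * β * (α + β))) := by
  field_simp
  ring

theorem cost_le_split (x m y : M) {α β : ℝ} (hα : 0 < α) (hβ : 0 < β) :
    cost x y / (α + β) ≤ cost x m / α + cost m y / β := by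
  have h1 : dist x y ^ 2 ≤ (dist x m + dist m y) ^ 2 :=
    pow_le_pow_left₀ dist_nonneg (dist_triangle x m y) 2
  have h2 := basic_split (dist x m) (dist m y) hα hβ
  have h3 : 0 ≤ (β * dist x m - α * dist m y) ^ 2 / (2 * (α * β * (α + β))) := by positivity
  have h4 : dist x y ^ 2 / 2 / (α + β) ≤ (dist x m + dist m y) ^ 2 / 2 / (α + β) := by gcongr
  unfold cost
  linarith

theorem dist_of_cost_split {x m y : M} {α β : ℝ} (hα : 0 < α) (hβ : 0 < β)
    (h : cost x m / α + cost m y / β ≤ cost x y / (α + β)) :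
    dist x m = α / (α + β) * dist x y ∧ dist m y = β / (α + β) * dist x y := by
  have h0 := dist_triangle x m y
  have h1 : dist x y ^ 2 ≤ (dist x m + dist m y) ^ 2 := pow_le_pow_left₀ dist_nonneg h0 2
  have h2 := basic_split (dist x m) (dist m y) hα hβ
  have h3 : 0 ≤ (β * dist x m - α * dist m y) ^ 2 / (2 * (α * β * (α + β))) := by positivity
  have h4 : dist x y ^ 2 / 2 / (α + β) ≤ (dist x m + dist m y) ^ 2 / 2 / (α + β) := by gcongr
  unfold cost at h
  have h5 : (dist x m + dist m y) ^ 2 / 2 / (α + β) ≤ dist x y ^ 2 / 2 / (α + β) := by linarith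
  rw [div_le_div_iff_of_pos_right (by positivity), div_le_div_iff_of_pos_right two_pos] at h5
  have h6 : dist x y = dist x m + dist m y := le_antisymm h0 (le_of_sq_le_sq h5 dist_nonneg)
  have h7 : (β * dist x m - α * dist m y) ^ 2 / (2 * (α * β * (α + β))) = 0 := by linarith
  have h8 : β * dist x m - α * dist m y = 0 :=
    pow_eq_zero_iff two_ne_zero |>.mp ((div_eq_zero_iff.mp h7).resolve_right (by positivity))
  rw [h6]
  constructor <;> field_simp <;> linarith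

theorem LocGeo.nonneg {γ : ℝ → M} {k : ℝ} (h : LocGeo γ k) : 0 ≤ k := by
  obtain ⟨δ, hδ, h1⟩ := h 0
  have h2 := h1 (δ / 2) 0 (by rw [sub_zero, abs_of_pos (half_pos hδ)]; exact half_lt_self hδ)
    (by simpa using hδ)
  rw [sub_zero, abs_of_pos (half_pos hδ)] at h2
  exact nonneg_of_mul_nonneg_right (h2 ▸ dist_nonneg) (half_pos hδ)

theorem LocGeo.continuous {γ : ℝ → M} {k : ℝ} (h : LocGeo γ k) : Continuous γ := by
  refine continuous_iff_continuousAt.mpr fun t₀ => tendsto_iff_dist_tendsto_zero.mpr ?_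
  obtain ⟨δ, hδ, h1⟩ := h t₀
  have h2 : Continuous fun s : ℝ => |s - t₀| * k := by fun_prop
  have h3 := h2.tendsto t₀
  rw [sub_self, abs_zero, zero_mul] at h3
  refine h3.congr' ?_
  filter_upwards [Metric.ball_mem_nhds t₀ hδ] with s hs
  exact (h1 s t₀ hs (by simpa using hδ)).symm

theorem UGeo.locGeo {γ : ℝ → M} {k : ℝ} (h : UGeo γ k r) (hr : 0 < r) (hk : 0 ≤ k) :
    LocGeo γ k := by
  refine fun t₀ => ⟨r / (2 * (k + 1)), by positivity, fun s t hs ht => h s t ?_⟩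
  have h1 : |s - t| ≤ |s - t₀| + |t - t₀| := by
    rw [abs_sub_comm t]
    exact abs_sub_le s t₀ t
  have h2 : r / (2 * (k + 1)) * (2 * (k + 1)) = r := by field_simp
  have h3 := abs_nonneg (s - t)
  nlinarith

namespace Loc

theorem dist_exp (h : Loc e r) {x : M} {v : T x} (hv : ‖v‖ < r) : dist x (e x v) = ‖v‖ := by
  simpa [h.zero] using h.ray x v hv 0 1 le_rfl zero_le_one le_rfl

/-- `a ↦ cost (e x a) (e x v)` is continuous at `v` with value zero -/
theorem continuousAt (h : Loc e r) {x : M} {v : T x} (hv : ‖v‖ < r) : ContinuousAt (e x) v := by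
  have h1 : ContinuousAt (fun a : T x => cost (e x a) (e x v)) v :=
    ContinuousAt.comp (f := fun a : T x => (a, v))
      (g := fun z : T x × T x => cost (e x z.1) (e x z.2))
      (h.smooth x x v v hv hv (by simpa using h.pos)).continuousAt (by fun_prop)
  have h2 := (h1.tendsto.const_mul 2).sqrt
  rw [cost_self, mul_zero, Real.sqrt_zero] at h2
  refine tendsto_iff_dist_tendsto_zero.mpr (h2.congr fun a => ?_)
  rw [cost, mul_div_cancel₀ _ two_ne_zero, Real.sqrt_sq dist_nonneg]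

theorem basic_deriv_le {f g : ℝ → ℝ} {f' g' : ℝ} (hf : HasDerivAt f f' 0) (hg : HasDerivAt g g' 0)
    (h0 : f 0 = g 0) (h : ∀ᶠ t in 𝓝[>] (0 : ℝ), f t ≤ g t) : f' ≤ g' := by
  refine le_of_tendsto_of_tendsto hf.tendsto_slope_zero_right hg.tendsto_slope_zero_right ?_
  filter_upwards [h, self_mem_nhdsWithin] with t ht ht0
  simp only [zero_add, smul_eq_mul, h0]
  exact mul_le_mul_of_nonneg_left (sub_le_sub_right ht _) (inv_nonneg.mpr (le_of_lt ht0))

theorem basic_lin_eq {V : Type*} [NormedAddCommGroup V] [InnerProductSpace ℝ V] {D : V →L[ℝ] ℝ}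
    {u : V} (h1 : ∀ ξ, -(‖u‖ * ‖ξ‖) ≤ D ξ) (h2 : D u ≤ -‖u‖ ^ 2) : D = -(innerSL ℝ u) := by
  have h3 : ∀ ξ : V, 0 ≤ D ξ + inner ℝ u ξ + ‖ξ‖ ^ 2 / 2 := fun ξ => by
    have h4 := h1 (u + ξ)
    have h5 := norm_add_sq_real u ξ
    have h6 := sq_nonneg (‖u‖ - ‖u + ξ‖)
    rw [map_add] at h4
    nlinarith
  have h4 : ∀ ξ : V, 0 ≤ D ξ + inner ℝ u ξ := fun ξ => by
    have h5 : HasDerivAt (fun t : ℝ => t * (D ξ + inner ℝ u ξ) + t ^ 2 * (‖ξ‖ ^ 2 / 2))
        (D ξ + inner ℝ u ξ) 0 := by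
      simpa using ((hasDerivAt_id (0 : ℝ)).mul_const (D ξ + inner ℝ u ξ)).fun_add
        ((hasDerivAt_pow 2 (0 : ℝ)).mul_const (‖ξ‖ ^ 2 / 2))
    refine basic_deriv_le (hasDerivAt_const 0 0) h5 (by simp) (Eventually.of_forall fun t => ?_)
    have h6 := h3 (t • ξ)
    rw [map_smul, inner_smul_right, norm_smul, mul_pow, Real.norm_eq_abs, sq_abs, smul_eq_mul] at h6
    linarith
  ext ξ
  have h5 := h4 ξ
  have h6 := h4 (-ξ)
  rw [map_neg, inner_neg_right] at h6
  rw [neg_apply, innerSL_apply_apply]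
  linarith

/-- First variation. With `f a = cost (e x a) z` one has `f a ≥ f 0 - ‖u‖ * ‖a‖` for small `a`
(triangle inequality), so `Df ξ ≥ - ‖u‖ * ‖ξ‖`, and `Df u = - ‖u‖ ^ 2`; equality case. -/
theorem fv_of_ray (h : Loc e r) {x z : M} {u : T x} {ε : ℝ} (hε : 0 < ε)
    (hz : ∀ s : ℝ, 0 ≤ s → s ≤ ε → dist (e x (s • u)) z = (1 - s) * ‖u‖)
    (hd : DifferentiableAt ℝ (fun a : T x => cost (e x a) z) 0) :
    HasFDerivAt (fun a : T x => cost (e x a) z) (-(innerSL ℝ u)) 0 := by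
  have h0 : dist x z = ‖u‖ := by simpa [h.zero] using hz 0 le_rfl hε.le
  have h1 : ∀ ξ : T x, HasDerivAt (fun t : ℝ => cost (e x (t • ξ)) z)
      (fderiv ℝ (fun a : T x => cost (e x a) z) 0 ξ) 0 := fun ξ => by
    have h2 : HasDerivAt (fun t : ℝ => t • ξ) ξ 0 := by
      simpa using (hasDerivAt_id (0 : ℝ)).smul_const ξ
    exact hd.hasFDerivAt.comp_hasDerivAt_of_eq 0 h2 (zero_smul ℝ ξ).symm
  refine hd.hasFDerivAt.congr_fderiv (basic_lin_eq (fun ξ => ?_) ?_)
  · have h2 : HasDerivAt (fun t : ℝ => ‖u‖ ^ 2 / 2 - t * (‖u‖ * ‖ξ‖)) (-(‖u‖ * ‖ξ‖)) 0 := by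
      simpa using ((hasDerivAt_id (0 : ℝ)).mul_const (‖u‖ * ‖ξ‖)).const_sub (‖u‖ ^ 2 / 2)
    refine basic_deriv_le h2 (h1 ξ) (by simp [cost, h.zero, h0]) ?_
    have h3 : ∀ᶠ t : ℝ in 𝓝 0, ‖t • ξ‖ < r := by
      have h4 : Continuous fun t : ℝ => ‖t • ξ‖ := by fun_prop
      exact h4.continuousAt.eventually_lt continuousAt_const (by simpa using h.pos)
    filter_upwards [nhdsWithin_le_nhds h3, self_mem_nhdsWithin] with t ht ht0
    have h5 := dist_triangle x (e x (t • ξ)) z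
    rw [h0, h.dist_exp ht, norm_smul, Real.norm_of_nonneg (le_of_lt ht0)] at h5
    have h6 := mul_le_mul_of_nonneg_left h5 (norm_nonneg u)
    have h7 := sq_nonneg (dist (e x (t • ξ)) z - ‖u‖)
    unfold cost
    nlinarith
  · have h2 : HasDerivAt (fun t : ℝ => ((1 - t) * ‖u‖) ^ 2 / 2) (-‖u‖ ^ 2) 0 := by
      have h3 := ((((hasDerivAt_id (0 : ℝ)).const_sub 1).mul_const ‖u‖).pow 2).div_const 2
      refine h3.congr_deriv ?_
      simp only [id]
      ring
    refine basic_deriv_le (h1 u) h2 (by simp [cost, h.zero, h0]) ?_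
    filter_upwards [Ioo_mem_nhdsGT hε] with t ht
    rw [cost, hz t ht.1.le ht.2.le]

theorem fv (h : Loc e r) {x : M} {u : T x} (hu : ‖u‖ < r) :
    HasFDerivAt (fun a : T x => cost (e x a) (e x u)) (-(innerSL ℝ u)) 0 := by
  refine h.fv_of_ray one_pos (fun s h0 h1 => by simpa using h.ray x u hu s 1 h0 h1 le_rfl) ?_
  exact DifferentiableAt.comp (f := fun a : T x => (a, u)) 0
    (g := fun z : T x × T x => cost (e x z.1) (e x z.2))
    ((h.smooth x x 0 u (by simpa using h.pos) hu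
      (by rwa [h.zero, h.dist_exp hu])).differentiableAt (by simp)) (by fun_prop)

theorem inj (h : Loc e r) {x : M} {u u' : T x} (hu : ‖u‖ < r) (hu' : ‖u'‖ < r)
    (he : e x u = e x u') : u = u' := by
  have h1 := (h.fv hu).unique (he ▸ h.fv hu')
  exact ext_inner_right ℝ fun ξ => by simpa using congrArg (fun D : T x →L[ℝ] ℝ => D ξ) h1

/-- Uniqueness of short minimizers. For `τ > 0` write `m = e x u'`; the function
`cost (e x a) m / τ - cost (e x a) (e x u)` has a minimum at `a = 0` (`cost_le_split`; the case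
`τ = 1` is trivial), so `u' = τ • u` by `fv`. -/
theorem between (h : Loc e r) {x m : M} {u : T x} (hu : ‖u‖ < r) {τ : ℝ} (h0 : 0 ≤ τ) (h1 : τ ≤ 1)
    (hx : dist x m = τ * ‖u‖) (hy : dist m (e x u) = (1 - τ) * ‖u‖) : m = e x (τ • u) := by
  rcases h0.eq_or_lt with rfl | h0
  · rw [zero_smul, h.zero]
    exact (dist_eq_zero.mp (by simpa using hx)).symm
  rcases h1.eq_or_lt with rfl | h1
  · rw [one_smul]
    exact dist_eq_zero.mp (by simpa using hy)
  have h2 : dist x m < r := hx ▸ (mul_le_of_le_one_left (norm_nonneg u) h1.le).trans_lt hu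
  obtain ⟨u', hu', rfl⟩ := h.surj x m h2
  have h3 : IsLocalMin (fun a : T x => τ⁻¹ * cost (e x a) (e x u') - cost (e x a) (e x u)) 0 := by
    refine Eventually.of_forall fun a => ?_
    have h4 := cost_le_split (e x a) (e x u') (e x u) h0 (sub_pos.mpr h1)
    have h5 : τ⁻¹ * cost (e x 0) (e x u') - cost (e x 0) (e x u) =
        -(cost (e x u') (e x u) / (1 - τ)) := by
      have h6 := sub_pos.mpr h1
      rw [h.zero, cost, cost, cost, hx, hy, h.dist_exp hu]
      field_simp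
      ring
    rw [add_sub_cancel, div_one, div_eq_inv_mul] at h4
    beta_reduce
    linarith
  have h4 := h3.hasFDerivAt_eq_zero (((h.fv (hu' ▸ h2)).const_mul τ⁻¹).sub (h.fv hu))
  refine congrArg (e x) (ext_inner_right ℝ fun ξ => ?_)
  have h5 := congrArg (fun D : T x →L[ℝ] ℝ => D ξ) h4
  simp only [sub_apply, smul_apply,
    neg_apply, innerSL_apply_apply, zero_apply,
    smul_eq_mul] at h5
  rw [real_inner_smul_left]
  field_simp at h5
  linarith

/-- critical point equation of a short broken geodesic -/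
theorem crit (h : Loc e r) {m : M} {a b : T m} (ha : ‖a‖ < r) (hb : ‖b‖ < r) {α β : ℝ}
    (hm : IsLocalMin (fun m' => cost (e m a) m' / α + cost m' (e m b) / β) m) :
    α⁻¹ • a + β⁻¹ • b = 0 := by
  have h1 : IsLocalMin
      (fun c : T m => α⁻¹ * cost (e m c) (e m a) + β⁻¹ * cost (e m c) (e m b)) 0 := by
    have h2 := IsLocalMin.comp_continuous (g := e m) (b := 0)
      (f := fun m' => cost (e m a) m' / α + cost m' (e m b) / β) (by rwa [h.zero])
      (h.continuousAt (by simpa using h.pos))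
    refine h2.congr (Eventually.of_forall fun c => ?_)
    simp only [Function.comp, div_eq_inv_mul, cost_comm (e m a)]
  have h4 := h1.hasFDerivAt_eq_zero (((h.fv ha).const_mul α⁻¹).add ((h.fv hb).const_mul β⁻¹))
  refine ext_inner_right ℝ fun ξ => ?_
  have h5 := congrArg (fun D : T m →L[ℝ] ℝ => D ξ) h4
  simp only [add_apply, smul_apply,
    neg_apply, innerSL_apply_apply, zero_apply,
    smul_eq_mul] at h5
  rw [inner_add_left, real_inner_smul_left, real_inner_smul_left, inner_zero_left]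
  linarith

theorem basic_three (h : Loc e r) {p m y₁ y₂ : M} {d τ : ℝ} (hd : d < r) (h0 : 0 < τ)
    (h1 : τ ≤ 1) (hm : dist p m = τ * d) (a₁ : dist p y₁ = d) (a₂ : dist p y₂ = d)
    (b₁ : dist m y₁ = (1 - τ) * d) (b₂ : dist m y₂ = (1 - τ) * d) : y₁ = y₂ := by
  obtain ⟨q₁, n₁, rfl⟩ := h.surj p y₁ (a₁ ▸ hd)
  obtain ⟨q₂, n₂, rfl⟩ := h.surj p y₂ (a₂ ▸ hd)
  rw [a₁] at n₁
  rw [a₂] at n₂
  have c₁ := h.between (n₁ ▸ hd) h0.le h1 (n₁ ▸ hm) (n₁ ▸ b₁)
  have c₂ := h.between (n₂ ▸ hd) h0.le h1 (n₂ ▸ hm) (n₂ ▸ b₂)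
  have h2 : ∀ q : T p, ‖q‖ = d → ‖τ • q‖ < r := fun q hq => by
    rw [norm_smul, Real.norm_of_nonneg h0.le]
    exact (mul_le_of_le_one_left (norm_nonneg q) h1).trans_lt (hq ▸ hd)
  rw [smul_right_injective _ h0.ne' (h.inj (h2 q₁ n₁) (h2 q₂ n₂) (c₁.symm.trans c₂))]

theorem basic_window (h : Loc e r) {γ₁ γ₂ : ℝ → M} {k : ℝ} (h₁ : LocGeo γ₁ k)
    (h₂ : LocGeo γ₂ k) (c : ℝ) : ∃ δ : ℝ, 0 < δ ∧ ∀ a b : ℝ, a < b → |a - c| < δ → |b - c| < δ →
      EqOn γ₁ γ₂ (Icc a b) → ∀ t, |t - c| < δ → γ₁ t = γ₂ t := by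
  obtain ⟨δ₁, hδ₁, g₁⟩ := h₁ c
  obtain ⟨δ₂, hδ₂, g₂⟩ := h₂ c
  have hk := h₁.nonneg
  have hr := h.pos
  obtain ⟨δ, hδ, l₁, l₂, l₃⟩ : ∃ δ : ℝ, 0 < δ ∧ δ ≤ δ₁ ∧ δ ≤ δ₂ ∧ δ ≤ r / (2 * (k + 1)) :=
    ⟨min δ₁ (min δ₂ (r / (2 * (k + 1)))), by positivity, min_le_left _ _,
      (min_le_right _ _).trans (min_le_left _ _), (min_le_right _ _).trans (min_le_right _ _)⟩
  have key : ∀ p m t τ : ℝ, |p - c| < δ → |m - c| < δ → |t - c| < δ → 0 < τ → τ ≤ 1 →
      p - m = τ * (p - t) → γ₁ p = γ₂ p → γ₁ m = γ₂ m → γ₁ t = γ₂ t := by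
    intro p m t τ hp hm ht h0 h1 h2 e1 e2
    have h3 : m - t = (1 - τ) * (p - t) := by linarith
    have h4 : |p - t| * k < r := by
      have h5 : |p - t| ≤ |p - c| + |t - c| := by
        rw [abs_sub_comm t]
        exact abs_sub_le p c t
      have h6 := abs_nonneg (p - t)
      rw [le_div_iff₀ (by positivity)] at l₃
      nlinarith
    refine h.basic_three (p := γ₁ p) (m := γ₁ m) h4 h0 h1 ?_
      (g₁ p t (hp.trans_le l₁) (ht.trans_le l₁))
      (e1 ▸ g₂ p t (hp.trans_le l₂) (ht.trans_le l₂)) ?_ ?_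
    · rw [g₁ p m (hp.trans_le l₁) (hm.trans_le l₁), h2, abs_mul, abs_of_pos h0, mul_assoc]
    · rw [g₁ m t (hm.trans_le l₁) (ht.trans_le l₁), h3, abs_mul, abs_of_nonneg (sub_nonneg.mpr h1),
        mul_assoc]
    · rw [e2, g₂ m t (hm.trans_le l₂) (ht.trans_le l₂), h3, abs_mul,
        abs_of_nonneg (sub_nonneg.mpr h1), mul_assoc]
  refine ⟨δ, hδ, fun a b hab ha hb he t ht => ?_⟩
  have ea := he ⟨le_rfl, hab.le⟩
  have eb := he ⟨hab.le, le_rfl⟩
  have hba := sub_pos.mpr hab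
  rcases le_total t a with h1 | h1
  · have h2 : 0 < b - t := by linarith
    exact key b a t ((b - a) / (b - t)) hb ha ht (div_pos hba h2)
      ((div_le_one h2).mpr (by linarith)) (by field_simp) eb ea
  rcases le_total t b with h3 | h3
  · exact he ⟨h1, h3⟩
  · have h2 : 0 < t - a := by linarith
    exact key a b t ((b - a) / (t - a)) ha hb ht (div_pos hba h2)
      ((div_le_one h2).mpr (by linarith)) (by field_simp; ring) ea eb

/-- No branching. The speeds agree (small pieces of `[a, b]`). If the curves agree on `[a, c]`,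
`c > a`, take `δ` small, `p = γ (c - δ)`, `γ₁ (c + s) = e p q₁`, `γ₂ (c + s) = e p q₂`; by `between`
the point at time `c` is the image of the same positive multiple of `q₁` and `q₂`, so `q₁ = q₂` by
`inj`. Conclude with a supremum argument, and reverse time for the left side. -/
theorem locGeo_ext (h : Loc e r) {γ₁ γ₂ : ℝ → M} {k₁ k₂ : ℝ} (h₁ : LocGeo γ₁ k₁)
    (h₂ : LocGeo γ₂ k₂) {a b : ℝ} (hab : a < b) (he : EqOn γ₁ γ₂ (Icc a b)) : γ₁ = γ₂ := by
  obtain rfl : k₁ = k₂ := by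
    obtain ⟨δ₁, hδ₁, g₁⟩ := h₁ a
    obtain ⟨δ₂, hδ₂, g₂⟩ := h₂ a
    obtain ⟨s, hs1, hs2⟩ := exists_between (lt_min hab (lt_add_of_pos_right a (lt_min hδ₁ hδ₂)))
    have h3 : |s - a| < min δ₁ δ₂ := by
      rw [abs_of_pos (sub_pos.mpr hs1)]
      linarith [lt_min_iff.mp hs2]
    have h4 := g₁ s a (h3.trans_le (min_le_left _ _)) (by simpa using hδ₁)
    rw [he ⟨hs1.le, (lt_min_iff.mp hs2).1.le⟩, he ⟨le_rfl, hab.le⟩,
      g₂ s a (h3.trans_le (min_le_right _ _)) (by simpa using hδ₂)] at h4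
    exact (mul_left_cancel₀ (abs_pos.mpr (sub_pos.mpr hs1).ne').ne' h4).symm
  have h3 : IsClopen {t | ∀ᶠ s in 𝓝 t, γ₁ s = γ₂ s} := by
    refine ⟨isClosed_of_closure_subset fun c hc => ?_, isOpen_setOfPred_eventually_nhds⟩
    obtain ⟨δ, hδ, h4⟩ := h.basic_window h₁ h₂ c
    obtain ⟨t, ht, ht'⟩ := mem_closure_iff_nhds.mp hc _ (Metric.ball_mem_nhds c hδ)
    obtain ⟨a', b', h5, h6⟩ := mem_nhds_iff_exists_Ioo_subset.mp
      (inter_mem (Metric.isOpen_ball.mem_nhds ht) ht')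
    obtain ⟨b'', h7, h8⟩ := exists_between h5.2
    filter_upwards [Metric.ball_mem_nhds c hδ] with s hs
    exact h4 t b'' h7 ht (h6 ⟨h5.1.trans h7, h8⟩).1
      (fun y hy => (h6 ⟨h5.1.trans_le hy.1, hy.2.trans_lt h8⟩).2) s hs
  obtain ⟨c, hc⟩ := exists_between hab
  have h4 := h3.eq_univ ⟨c, mem_of_superset (Icc_mem_nhds hc.1 hc.2) he⟩
  exact funext fun t => (h4.ge (mem_univ t)).self_of_nhds

end Loc

end Vale.Agent.P234
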