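import Vale.Agent.P234.Abs

/-! Calculus tools, first part: second derivatives. -/

open scoped ContDiff Topology
open Filter Set

noncomputable section

namespace Vale.Agent.P234

variable {V W P : Type*} [NormedAddCommGroup V] [NormedSpace ℝ V] [NormedAddCommGroup W]
  [NormedSpace ℝ W] [NormedAddCommGroup P] [NormedSpace ℝ P] {f g : V → ℝ} {a : V}

theorem Calc_ev {f : V → W} (hf : ContDiffAt ℝ 2 f a) : ∀ᶠ y in 𝓝 a, DifferentiableAt ℝ f y :=
  (hf.eventually (by simp)).mono fun _ h => h.differentiableAt (by simp)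

theorem Calc_strict (hf : ContDiffAt ℝ 2 f a) : HasStrictFDerivAt (fderiv ℝ f) (D2 f a) a :=
  (hf.fderiv_right (m := 1) (by norm_num)).hasStrictFDerivAt (by simp)

theorem Calc_has (hf : ContDiffAt ℝ 2 f a) : HasFDerivAt (fderiv ℝ f) (D2 f a) a :=
  (Calc_strict hf).hasFDerivAt

theorem D2_symm (hf : ContDiffAt ℝ 2 f a) (u w : V) : D2 f a u w = D2 f a w u :=
  hf.isSymmSndFDerivAt (by simp) u w

theorem D2_congr (h : f =ᶠ[𝓝 a] g) : D2 f a = D2 g a := h.fderiv.fderiv_eq

theorem D2_add (hf : ContDiffAt ℝ 2 f a) (hg : ContDiffAt ℝ 2 g a) :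
    D2 (fun z => f z + g z) a = D2 f a + D2 g a := by
  refine (((Calc_has hf).add (Calc_has hg)).congr_of_eventuallyEq ?_).fderiv
  filter_upwards [Calc_ev hf, Calc_ev hg] with y h1 h2 using fderiv_fun_add h1 h2

theorem D2_sub (hf : ContDiffAt ℝ 2 f a) (hg : ContDiffAt ℝ 2 g a) :
    D2 (fun z => f z - g z) a = D2 f a - D2 g a := by
  refine (((Calc_has hf).sub (Calc_has hg)).congr_of_eventuallyEq ?_).fderiv
  filter_upwards [Calc_ev hf, Calc_ev hg] with y h1 h2 using fderiv_fun_sub h1 h2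

theorem D2_const_mul (hf : ContDiffAt ℝ 2 f a) (c : ℝ) :
    D2 (fun z => c * f z) a = c • D2 f a := by
  refine (((Calc_has hf).const_smul c).congr_of_eventuallyEq ?_).fderiv
  filter_upwards [Calc_ev hf] with y h1 using fderiv_const_mul h1 c

theorem D2_div_const (hf : ContDiffAt ℝ 2 f a) (c : ℝ) :
    D2 (fun z => f z / c) a = c⁻¹ • D2 f a := by
  simp only [div_eq_inv_mul]
  exact D2_const_mul hf c⁻¹

theorem D2_add_const (c : ℝ) : D2 (fun z => f z + c) a = D2 f a := by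
  unfold D2
  congr 1
  funext y
  exact fderiv_add_const c

theorem Calc_line (a h : V) (t : ℝ) : HasDerivAt (fun s : ℝ => a + s • h) h t := by
  simpa using ((hasDerivAt_id t).smul_const h).const_add a

/-- derivative of the first derivative along a line -/
theorem D2_dir (hf : ContDiffAt ℝ 2 f a) (h z : V) :
    HasDerivAt (fun s : ℝ => fderiv ℝ f (a + s • h) z) (D2 f a h z) 0 := by
  have h1 : HasFDerivAt (fderiv ℝ f) (D2 f a) (a + (0 : ℝ) • h) := by simpa using Calc_has hf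
  exact (ContinuousLinearMap.apply ℝ ℝ z).hasFDerivAt.comp_hasDerivAt 0
    (h1.comp_hasDerivAt 0 (Calc_line a h 0))

theorem D2_line (hf : ContDiffAt ℝ 2 f a) (h : V) :
    iteratedDeriv 2 (fun t : ℝ => f (a + t • h)) 0 = D2 f a h h := by
  rw [iteratedDeriv_succ, iteratedDeriv_one]
  refine ((D2_dir hf h h).congr_of_eventuallyEq ?_).deriv
  have h1 : Tendsto (fun s : ℝ => a + s • h) (𝓝 0) (𝓝 a) := by
    simpa using (Calc_line a h 0).continuousAt.tendsto
  filter_upwards [h1.eventually (Calc_ev hf)] with s hs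
  exact (hs.hasFDerivAt.comp_hasDerivAt s (Calc_line a h s)).deriv

theorem D2_comp_clm (L : W →L[ℝ] V) (c : V) {b : W} (hf : ContDiffAt ℝ 2 f (L b + c)) (u w : W) :
    D2 (fun z => f (L z + c)) b u w = D2 f (L b + c) (L u) (L w) := by
  have hA : ∀ z, HasFDerivAt (fun z => L z + c) L z := fun z => L.hasFDerivAt.add_const c
  have h1 := ((Calc_has hf).comp b (hA b)).clm_comp (hasFDerivAt_const L b)
  have h2 : (fderiv ℝ fun z => f (L z + c)) =ᶠ[𝓝 b] fun z => (fderiv ℝ f (L z + c)).comp L := by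
    filter_upwards [(hA b).continuousAt.eventually (Calc_ev hf)] with z hz
    exact (hz.hasFDerivAt.comp z (hA z)).fderiv
  rw [D2, (h1.congr_of_eventuallyEq h2).fderiv]
  simp

theorem D2_nonneg (hf : ContDiffAt ℝ 2 f a) (hm : IsLocalMin f a) (h : V) :
    0 ≤ D2 f a h h := by
  by_contra hn
  have h1 : Tendsto (fun s : ℝ => a + s • h) (𝓝 0) (𝓝 a) := by
    simpa using (Calc_line a h 0).continuousAt.tendsto
  have h2 : IsLocalMin (fun s : ℝ => f (a + s • h)) 0 := by
    simpa [IsLocalMin, IsMinFilter] using h1.eventually hm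
  have h3 := D2_line hf h
  rw [iteratedDeriv_succ, iteratedDeriv_one] at h3
  have h4 := isLocalMax_of_deriv_deriv_neg (h3 ▸ not_le.1 hn) h2.deriv_eq_zero
    (by simpa [ContinuousAt, Function.comp_def] using hf.continuousAt.tendsto.comp h1)
  have h5 : (fun s : ℝ => f (a + s • h)) =ᶠ[𝓝 0] fun _ => f (a + (0 : ℝ) • h) := by
    filter_upwards [h2, h4] with s k1 k2 using le_antisymm k2 k1
  rw [h5.deriv.deriv_eq] at h3
  simp [← h3] at hn

/-- A function with a local minimum which is constant along a graph: the points of the graph near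
` (a, b)` are local minima too, so the derivative vanishes along the graph; differentiate. -/
theorem D2_graph {G : V × W → ℝ} {b : W} (hG : ContDiffAt ℝ 2 G (a, b)) (hm : IsLocalMin G (a, b))
    {u : V → W} {u' : V →L[ℝ] W} (hu : HasFDerivAt u u' a) (hb : u a = b)
    (hc : ∀ᶠ ξ in 𝓝 a, G (ξ, u ξ) = G (a, b)) (ξ : V) (z : V × W) :
    D2 G (a, b) (ξ, u' ξ) z = 0 := by
  subst hb
  have h1 := (hasFDerivAt_id a).prodMk hu
  have h2 := (Calc_has hG).comp a h1
  have h3 : (fun ξ => fderiv ℝ G (ξ, u ξ)) =ᶠ[𝓝 a] fun _ => 0 := by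
    filter_upwards [hc, h1.continuousAt.eventually (eventually_eventually_nhds.2 hm)] with y k1 k2
    exact IsLocalMin.fderiv_eq_zero (k2.mono fun _ k => k1.trans_le k)
  have h4 := h2.unique ((hasFDerivAt_const 0 a).congr_of_eventuallyEq h3)
  simpa using congrArg (fun T : V →L[ℝ] (V × W) →L[ℝ] ℝ => T ξ z) h4

theorem D2_normsq {H : Type*} [NormedAddCommGroup H] [InnerProductSpace ℝ H] (p u w : H) :
    D2 (fun z : H => ‖z‖ ^ 2 / 2) p u w = inner ℝ u w := by
  have h1 : (fderiv ℝ fun z : H => ‖z‖ ^ 2 / 2) = innerSL ℝ := by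
    funext z
    simp only [div_eq_inv_mul]
    refine ((hasFDerivAt_id z).norm_sq.const_mul 2⁻¹).fderiv.trans ?_
    ext v
    simp
  rw [D2, h1, ContinuousLinearMap.fderiv]
  rfl

/-- the derivative in the first variable is smooth (`ContDiffAt.fderiv`) -/
theorem contDiffAt_fderiv_fst {F : V × P → W} {p : P} (hF : ContDiffAt ℝ ∞ F (a, p)) :
    ContDiffAt ℝ ∞ (fun z : V × P => fderiv ℝ (fun b => F (b, z.2)) z.1) (a, p) :=
  ContDiffAt.fderiv (f := fun (z : V × P) b => F (b, z.2)) (n := ∞)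
    (hF.comp ((a, p), a) (contDiffAt_snd.prodMk contDiffAt_fst.snd)) contDiffAt_fst (by simp)

theorem contDiffAt_D2_fst {F : V × P → ℝ} {p : P} (hF : ContDiffAt ℝ ∞ F (a, p)) :
    ContDiffAt ℝ ∞ (fun z : V × P => D2 (fun b => F (b, z.2)) z.1) (a, p) :=
  contDiffAt_fderiv_fst (contDiffAt_fderiv_fst hF)

/-- Uniform second order Taylor formula. Apply the mean value inequality on a small ball to
`y ↦ f y - fderiv f z (y - z) - D2 f a (y - z) (y - z) / 2`, using the strict differentiability of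
`fderiv f` at `a` and the symmetry of `D2 f a`. -/
theorem taylor2_uniform (hf : ContDiffAt ℝ 2 f a) {ε : ℝ} (hε : 0 < ε) :
    ∀ᶠ z : V × V in 𝓝 (a, a), |f z.2 - f z.1 - fderiv ℝ f z.1 (z.2 - z.1)
      - D2 f a (z.2 - z.1) (z.2 - z.1) / 2| ≤ ε * ‖z.2 - z.1‖ ^ 2 := by
  obtain ⟨r, hr, h1⟩ := Metric.eventually_nhds_iff_ball.1
    (((Calc_strict hf).isLittleO.def hε).and (continuousAt_fst.eventually (Calc_ev hf)))
  filter_upwards [Metric.ball_mem_nhds (a, a) hr] with z hz
  rw [← ball_prod_same] at hz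
  obtain ⟨h, hh⟩ : ∃ h, h = z.2 - z.1 := ⟨_, rfl⟩
  have h2 : ∀ t ∈ Icc (0 : ℝ) 1, (z.1 + t • h, z.1) ∈ Metric.ball (a, a) r := fun t ht => by
    rw [← ball_prod_same]
    exact ⟨hh ▸ (convex_ball a r).add_smul_sub_mem hz.1 hz.2 ht, hz.1⟩
  have h3 : ∀ t ∈ Icc (0 : ℝ) 1, HasDerivWithinAt (fun t : ℝ => f (z.1 + t • h) -
      t * fderiv ℝ f z.1 h - t ^ 2 / 2 * D2 f a h h)
      ((fderiv ℝ f (z.1 + t • h) - fderiv ℝ f z.1 - D2 f a (t • h)) h) (Icc 0 1) t := by
    intro t ht
    have := (((h1 _ (h2 t ht)).2.hasFDerivAt.comp_hasDerivAt t (Calc_line z.1 h t)).sub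
      ((hasDerivAt_id t).mul_const (fderiv ℝ f z.1 h))).sub
      (((hasDerivAt_pow 2 t).div_const 2).mul_const (D2 f a h h))
    refine (this.congr_deriv ?_).hasDerivWithinAt
    simp
  have h4 := norm_image_sub_le_of_norm_deriv_le_segment_01' (C := ε * ‖h‖ ^ 2) h3 fun t ht => by
    have k := (h1 _ (h2 t (Ico_subset_Icc_self ht))).1
    simp only [add_sub_cancel_left] at k
    refine (ContinuousLinearMap.le_of_opNorm_le _ (k.trans ?_) h).trans_eq
      (by rw [sq, mul_assoc])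
    rw [norm_smul, Real.norm_of_nonneg ht.1]
    exact mul_le_mul_of_nonneg_left (mul_le_of_le_one_left (norm_nonneg _) ht.2.le) hε.le
  rw [← hh]
  refine le_of_eq_of_le ?_ h4
  rw [Real.norm_eq_abs, one_smul, zero_smul, add_zero, hh, add_sub_cancel]
  congr 1
  ring

/-- Blow-up lemma. Take the limit `h` of ` (zs' k - zs k) / ‖zs' k - zs k‖` along the ultrafilter
(the unit sphere is compact). First order: strict differentiability of `F i` at ` (a, p)`.
Second order: `taylor2_uniform` for `F i` on `V × P` with increments ` (zs' k - zs k, 0)`, summed with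
the weights `lam k i`; `D2_comp_clm` identifies the restricted second derivative. -/
theorem blowup [FiniteDimensional ℝ V] {ι κ : Type*} [Fintype ι] (U : Ultrafilter κ)
    {F : ι → V × P → ℝ} {p : P} (hF : ∀ i, ContDiffAt ℝ 2 (F i) (a, p))
    {zs zs' : κ → V} {ps : κ → P} (hz : Tendsto zs U (𝓝 a)) (hz' : Tendsto zs' U (𝓝 a))
    (hp : Tendsto ps U (𝓝 p)) (hne : ∀ᶠ k in U, zs' k ≠ zs k)
    {lam : κ → ι → ℝ} {lam₀ : ι → ℝ} (hl : ∀ k i, 0 ≤ lam k i)
    (hlam : ∀ i, Tendsto (fun k => lam k i) U (𝓝 (lam₀ i)))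
    (h1 : ∀ i, ∀ᶠ k in U, F i (zs' k, ps k) ≤ F i (zs k, ps k))
    (h2 : ∀ᶠ k in U, ∑ i, lam k i • fderiv ℝ (fun z => F i (z, ps k)) (zs k) = 0) :
    ∃ h : V, h ≠ 0 ∧ (∀ i, fderiv ℝ (fun z => F i (z, p)) a h ≤ 0) ∧
      ∑ i, lam₀ i * D2 (fun z => F i (z, p)) a h h ≤ 0 := by
  obtain ⟨hk, hhk⟩ : ∃ hk : κ → V, ∀ k, hk k = ‖zs' k - zs k‖⁻¹ • (zs' k - zs k) :=
    ⟨_, fun _ => rfl⟩
  obtain ⟨h, h0, hh⟩ := (isCompact_sphere (0 : V) 1).ultrafilter_le_nhds (U.map hk)
    (le_principal_iff.2 (hne.mono fun k hk' => by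
      rw [mem_sphere_zero_iff_norm, hhk, norm_smul, norm_inv, norm_norm,
        inv_mul_cancel₀ (norm_ne_zero_iff.2 (sub_ne_zero.2 hk'))]))
  have ht : Tendsto (fun k => ((hk k, 0) : V × P)) U (𝓝 (h, 0)) :=
    Tendsto.prodMk_nhds hh tendsto_const_nhds
  have e1 : ∀ k, ((zs' k, ps k) : V × P) - (zs k, ps k) = ‖zs' k - zs k‖ • (hk k, 0) := by
    intro k
    rcases eq_or_ne (zs' k - zs k) 0 with h | h
    · simp [h]
    · simp [hhk, smul_smul, mul_inv_cancel₀ (norm_ne_zero_iff.2 h)]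
  have e2 : ∀ k, ‖((zs' k, ps k) : V × P) - (zs k, ps k)‖ = ‖zs' k - zs k‖ := fun k => by simp
  have e3 : ∀ (i : ι) (z : V) (q : P), DifferentiableAt ℝ (F i) (z, q) → ∀ w,
      fderiv ℝ (fun z => F i (z, q)) z w = fderiv ℝ (F i) (z, q) (w, 0) := fun i z q hd w => by
    have k : HasFDerivAt (fun z => F i (z, q))
        ((fderiv ℝ (F i) (z, q)).comp (ContinuousLinearMap.inl ℝ V P)) z :=
      HasFDerivAt.comp (g := F i) (f := fun z => (z, q)) z hd.hasFDerivAt
        (hasFDerivAt_prodMk_left z q)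
    rw [k.fderiv]
    rfl
  have t1 := hz.prodMk_nhds hp
  have t2 := hz'.prodMk_nhds hp
  refine ⟨h, fun k => by simp [k] at h0, fun i => ?_, ?_⟩
  · rw [e3 i a p ((hF i).differentiableAt (by simp))]
    refine le_of_forall_pos_le_add fun ε hε => le_of_tendsto
      (((fderiv ℝ (F i) (a, p)).continuous.tendsto _).comp ht) ?_
    filter_upwards [(t2.prodMk_nhds t1).eventually
      (((hF i).hasStrictFDerivAt (by simp)).isLittleO.def hε), hne, h1 i] with k k1 k2 k3
    have k4 := norm_pos_iff.2 (sub_ne_zero.2 k2)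
    rw [e2, e1, map_smul, smul_eq_mul, Real.norm_eq_abs, abs_le] at k1
    rw [zero_add, Function.comp_apply]
    refine le_of_mul_le_mul_left ?_ k4
    linarith [k1.1]
  · have e4 : ∀ i, D2 (fun z => F i (z, p)) a h h = D2 (F i) (a, p) (h, 0) (h, 0) := fun i => by
      simpa using D2_comp_clm (f := F i) (ContinuousLinearMap.inl ℝ V P) (0, p) (b := a)
        (by simpa using hF i) h h
    simp only [e4]
    have key : ∀ ε : ℝ, 0 < ε →
        ∑ i, lam₀ i * D2 (F i) (a, p) (h, 0) (h, 0) ≤ ε * (2 * ∑ i, lam₀ i) := fun ε hε => by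
      refine le_of_tendsto_of_tendsto (tendsto_finsetSum _ fun i _ => (hlam i).mul
        (((D2 (F i) (a, p)).continuous₂.tendsto ((h, 0), (h, 0))).comp (ht.prodMk_nhds ht)))
        (((tendsto_finsetSum _ fun i _ => hlam i).const_mul 2).const_mul ε) ?_
      filter_upwards [eventually_all.2 fun i => (t1.prodMk_nhds t2).eventually
        (taylor2_uniform (hF i) hε), eventually_all.2 fun i => t1.eventually (Calc_ev (hF i)),
        hne, eventually_all.2 h1, h2] with k k1 k2 k3 k4 k5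
      have k6 := pow_pos (norm_pos_iff.2 (sub_ne_zero.2 k3)) 2
      have k7 := congrArg (fun T : V →L[ℝ] ℝ => ‖zs' k - zs k‖ * T (hk k)) k5
      simp only [sum_apply, smul_apply, smul_eq_mul, fun i => e3 i _ _ (k2 i), zero_apply,
        mul_zero, Finset.mul_sum] at k7
      refine le_of_mul_le_mul_left ?_ k6
      refine le_of_le_of_eq (b := ‖zs' k - zs k‖ ^ 2 * (ε * (2 * ∑ c, lam k c)) - 2 * ∑ i,
        ‖zs' k - zs k‖ * (lam k i * fderiv ℝ (F i) (zs k, ps k) (hk k, 0))) ?_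
        (by rw [k7, mul_zero, sub_zero])
      simp only [Finset.mul_sum, ← Finset.sum_sub_distrib]
      refine Finset.sum_le_sum fun i _ => ?_
      have k8 := (abs_le.1 (k1 i)).1
      simp only [e2] at k8
      simp only [e1, map_smul, smul_apply, smul_eq_mul] at k8
      have k9 := mul_le_mul_of_nonneg_left (k8.trans (sub_le_sub_right (sub_le_sub_right
        (sub_nonpos.2 (k4 i)) _) _)) (hl k i)
      simp only [Function.comp_apply, Function.uncurry_apply_pair]
      linarith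
    have t3 : Tendsto (fun ε : ℝ => ε * (2 * ∑ i, lam₀ i)) (𝓝[>] 0) (𝓝 0) := by
      simpa using (tendsto_nhdsWithin_of_tendsto_nhds (tendsto_id (x := 𝓝 (0 : ℝ)))).mul_const
        (2 * ∑ i, lam₀ i)
    exact ge_of_tendsto t3 (eventually_nhdsWithin_of_forall key)

end Vale.Agent.P234
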