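import Vale.Agent.P234.Abs

/-! Calculus tools, second part. -/

open scoped ContDiff Topology
open Filter Set

noncomputable section

namespace Vale.Agent.P234

variable {V W Z : Type*} [NormedAddCommGroup V] [NormedSpace ℝ V] [NormedAddCommGroup W]
  [NormedSpace ℝ W] [NormedAddCommGroup Z] [NormedSpace ℝ Z]

theorem calcB_isInvertible [FiniteDimensional ℝ W] (A : W →L[ℝ] Z)
    (hA : Function.Bijective A) : A.IsInvertible := by
  refine ⟨(LinearEquiv.ofBijective (A : W →ₗ[ℝ] Z) hA).toContinuousLinearEquiv, ?_⟩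
  ext w
  rfl

/-- Regularity of a continuous implicit function. The map ` (x, y) ↦ (x, Ψ (x, y))` has an
invertible derivative, so it has a smooth local inverse (`ContDiffAt.to_localInverse`), and
` (x, y x)` is the image of ` (x, Ψ (x₀, y x₀))` under this inverse for `x` near `x₀`. -/
theorem contDiffAt_of_implicit [FiniteDimensional ℝ V] [FiniteDimensional ℝ W]
    [FiniteDimensional ℝ Z] {Ψ : V × W → Z} {y : V → W} {x₀ : V}
    (hΨ : ContDiffAt ℝ ∞ Ψ (x₀, y x₀))
    (hb : Function.Bijective (fderiv ℝ (fun w => Ψ (x₀, w)) (y x₀)))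
    (hy : ContinuousAt y x₀) (he : ∀ᶠ x in 𝓝 x₀, Ψ (x, y x) = Ψ (x₀, y x₀)) :
    ContDiffAt ℝ ∞ y x₀ := by
  have : CompleteSpace V := FiniteDimensional.complete ℝ V
  have : CompleteSpace W := FiniteDimensional.complete ℝ W
  have : CompleteSpace Z := FiniteDimensional.complete ℝ Z
  have pn : (∞ : WithTop ℕ∞) ≠ 0 := by simp
  have hd : HasFDerivAt Ψ (fderiv ℝ Ψ (x₀, y x₀)) (x₀, y x₀) :=
    (hΨ.differentiableAt pn).hasFDerivAt
  have hin : HasFDerivAt (fun w : W => ((x₀, w) : V × W)) (ContinuousLinearMap.inr ℝ V W) (y x₀) :=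
    hasFDerivAt_prodMk_right x₀ (y x₀)
  have hcomp : HasFDerivAt (fun w => Ψ (x₀, w))
      ((fderiv ℝ Ψ (x₀, y x₀)).comp (ContinuousLinearMap.inr ℝ V W)) (y x₀) :=
    HasFDerivAt.comp (f := fun w : W => ((x₀, w) : V × W)) (y x₀) hd hin
  rw [hcomp.fderiv] at hb
  have if₂ := calcB_isInvertible _ hb
  have h1 := hΨ.eventually_apply_eq_iff_implicitFunction pn if₂
  have h2 := hΨ.contDiffAt_implicitFunction pn if₂
  have ht : Tendsto (fun x => ((x, y x) : V × W)) (𝓝 x₀) (𝓝 (x₀, y x₀)) :=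
    (continuousAt_id.prodMk hy)
  have h3 := ht.eventually h1
  refine h2.congr_of_eventuallyEq ?_
  filter_upwards [h3, he] with x hx1 hx2
  exact (hx1.1 hx2).symm

/-- a positive definite form is a bijection onto the dual -/
theorem bijective_of_pd [FiniteDimensional ℝ V] (B : V →L[ℝ] V →L[ℝ] ℝ)
    (hB : ∀ u, u ≠ 0 → 0 < B u u) : Function.Bijective B := by
  have hinj : Function.Injective (B : V →ₗ[ℝ] (V →L[ℝ] ℝ)) := by
    rw [← LinearMap.ker_eq_bot, LinearMap.ker_eq_bot']
    intro u hu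
    by_contra h
    have h1 := hB u h
    have h2 : B u = 0 := hu
    rw [h2] at h1
    simp at h1
  have hr : Module.finrank ℝ V = Module.finrank ℝ (V →L[ℝ] ℝ) := by
    rw [← (LinearMap.toContinuousLinearMap (𝕜 := ℝ) (E := V) (F' := ℝ)).finrank_eq]
    exact (Subspace.dual_finrank_eq).symm
  exact ⟨hinj, (LinearMap.injective_iff_surjective_of_finrank_eq_finrank hr).1 hinj⟩

/-- a smooth map with a differentiable left inverse, between spaces of the same dimension -/
theorem map_nhds_of_leftInverse [FiniteDimensional ℝ V] [FiniteDimensional ℝ W]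
    (hr : Module.finrank ℝ V = Module.finrank ℝ W) {Λ : V → W} {β : W → V} {a : V}
    (hΛ : ContDiffAt ℝ 1 Λ a) (hβ : DifferentiableAt ℝ β (Λ a))
    (hi : ∀ᶠ z in 𝓝 a, β (Λ z) = z) :
    Function.Bijective (fderiv ℝ Λ a) ∧ map Λ (𝓝 a) = 𝓝 (Λ a) := by
  have : CompleteSpace V := FiniteDimensional.complete ℝ V
  have : CompleteSpace W := FiniteDimensional.complete ℝ W
  have hs : HasStrictFDerivAt Λ (fderiv ℝ Λ a) a := hΛ.hasStrictFDerivAt one_ne_zero
  have hc : HasFDerivAt (fun z => β (Λ z)) ((fderiv ℝ β (Λ a)).comp (fderiv ℝ Λ a)) a :=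
    hβ.hasFDerivAt.comp a hs.hasFDerivAt
  have hid : HasFDerivAt (fun z => β (Λ z)) (ContinuousLinearMap.id ℝ V) a :=
    (hasFDerivAt_id a).congr_of_eventuallyEq hi
  have heq := hc.unique hid
  have hinj : Function.Injective ((fderiv ℝ Λ a : V →L[ℝ] W) : V →ₗ[ℝ] W) := by
    intro u w huw
    have h1 : (fderiv ℝ Λ a) u = (fderiv ℝ Λ a) w := huw
    have h2 : ((fderiv ℝ β (Λ a)).comp (fderiv ℝ Λ a)) u =
        ((fderiv ℝ β (Λ a)).comp (fderiv ℝ Λ a)) w := by
      simp only [ContinuousLinearMap.comp_apply, h1]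
    rw [heq] at h2
    simpa using h2
  have hsurj := (LinearMap.injective_iff_surjective_of_finrank_eq_finrank hr).1 hinj
  refine ⟨⟨hinj, hsurj⟩, hs.map_nhds_eq_of_surj ?_⟩
  exact LinearMap.range_eq_top.2 hsurj

/-- Perturbation of a strict local minimum: minimize on a small closed ball; on the sphere the
limit function exceeds its value at the center by a positive amount. -/
theorem exists_isLocalMin_near {X κ : Type*} [MetricSpace X] [CompactSpace X] {l : Filter κ}
    {Φ : κ → X → ℝ} {Φ₀ : X → ℝ} {z₀ : X} (hc : ∀ k, Continuous (Φ k)) (hc₀ : Continuous Φ₀)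
    (hu : TendstoUniformly Φ Φ₀ l) (hs : ∀ᶠ z in 𝓝 z₀, z ≠ z₀ → Φ₀ z₀ < Φ₀ z)
    {ε : ℝ} (hε : 0 < ε) : ∀ᶠ k in l, ∃ z, dist z z₀ < ε ∧ IsLocalMin (Φ k) z := by
  obtain ⟨δ, hδ, hδs⟩ := Metric.eventually_nhds_iff.1 hs
  set r := min δ ε / 2 with hr
  have hr0 : 0 < r := by positivity
  have hrδ : r < δ := by
    have := min_le_left δ ε
    have := lt_min hδ hε
    linarith
  have hrε : r < ε := by
    have := min_le_right δ ε
    have := lt_min hδ hε
    linarith
  have hgap : ∃ η > 0, ∀ z ∈ Metric.sphere z₀ r, Φ₀ z₀ + η ≤ Φ₀ z := by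
    rcases (Metric.sphere z₀ r).eq_empty_or_nonempty with he | hne
    · exact ⟨1, one_pos, by simp [he]⟩
    · obtain ⟨z₁, hz₁, hmin⟩ :=
        (Metric.isClosed_sphere.isCompact).exists_isMinOn hne hc₀.continuousOn
      have hd : dist z₁ z₀ = r := hz₁
      have hne' : z₁ ≠ z₀ := by
        intro h
        rw [h, dist_self] at hd
        exact hr0.ne hd
      have hlt := hδs (by rw [hd]; exact hrδ) hne'
      refine ⟨Φ₀ z₁ - Φ₀ z₀, by linarith, fun z hz => ?_⟩
      have h5 : Φ₀ z₁ ≤ Φ₀ z := hmin hz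
      linarith
  obtain ⟨η, hη, hηs⟩ := hgap
  have h3 := Metric.tendstoUniformly_iff.1 hu (η / 3) (by positivity)
  filter_upwards [h3] with k hk
  obtain ⟨z, hz, hmin⟩ := (Metric.isClosed_closedBall (x := z₀) (ε := r)).isCompact.exists_isMinOn
    ⟨z₀, Metric.mem_closedBall_self hr0.le⟩ (hc k).continuousOn
  have hzr : dist z z₀ ≤ r := hz
  have hlt : dist z z₀ < r := by
    rcases hzr.lt_or_eq with h | h
    · exact h
    · exfalso
      have h4 := hηs z h
      have h5 : Φ k z ≤ Φ k z₀ := hmin (Metric.mem_closedBall_self hr0.le)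
      have h6 := hk z
      have h7 := hk z₀
      rw [Real.dist_eq, abs_lt] at h6 h7
      linarith [h6.1, h6.2, h7.1, h7.2]
  refine ⟨z, hlt.trans hrε, hmin.isLocalMin ?_⟩
  exact Metric.closedBall_mem_nhds_of_mem hlt

/-- Caratheodory representation with a fixed number of points
(`eq_pos_convex_span_of_mem_convexHull`, `AffineIndependent.card_le_finrank_succ`, then pad). -/
theorem exists_rep {H : Type*} [AddCommGroup H] [Module ℝ H] [FiniteDimensional ℝ H] {N : ℕ}
    (hN : Module.finrank ℝ H ≤ N) {s : Set H} {w : H} (hw : w ∈ convexHull ℝ s) :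
    ∃ (lam : Fin (N + 1) → ℝ) (v : Fin (N + 1) → H), (∀ i, 0 ≤ lam i) ∧ ∑ i, lam i = 1 ∧
      (∀ i, v i ∈ s) ∧ w = ∑ i, lam i • v i := by
  classical
  obtain ⟨ι, hι, z, c, hz, hai, hpos, hsum, hw'⟩ := eq_pos_convex_span_of_mem_convexHull hw
  have hcard : Fintype.card ι ≤ Fintype.card (Fin (N + 1)) := by
    rw [Fintype.card_fin]
    have h1 := hai.card_le_finrank_succ
    have h2 := Submodule.finrank_le (vectorSpan ℝ (Set.range z))
    omega
  obtain ⟨e⟩ := Function.Embedding.nonempty_of_card_le hcard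
  have hne : Nonempty ι := by
    by_contra h
    rw [not_nonempty_iff] at h
    simp at hsum
  obtain ⟨i₀⟩ := hne
  have key : ∀ {M : Type _} [AddCommMonoid M] (g : Fin (N + 1) → M),
      (∀ j, (¬ ∃ i, e i = j) → g j = 0) → ∑ j, g j = ∑ i, g (e i) := by
    intro M _ g hg
    rw [← Finset.sum_map Finset.univ e g]
    symm
    refine Finset.sum_subset (Finset.subset_univ _) fun j _ hj => hg j ?_
    rintro ⟨i, hi⟩
    exact hj (Finset.mem_map.2 ⟨i, Finset.mem_univ _, hi⟩)
  refine ⟨Function.extend e c 0, Function.extend e z (fun _ => z i₀), ?_, ?_, ?_, ?_⟩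
  · intro j
    by_cases h : ∃ i, e i = j
    · obtain ⟨i, rfl⟩ := h
      rw [e.injective.extend_apply]
      exact (hpos i).le
    · rw [Function.extend_apply' _ _ _ h]
      simp
  · have key1 : ∑ j, Function.extend e c 0 j = ∑ i, Function.extend e c 0 (e i) := by
      rw [← Finset.sum_map Finset.univ e (Function.extend e c 0)]
      symm
      refine Finset.sum_subset (Finset.subset_univ _) fun j _ hj => ?_
      rw [Function.extend_apply' _ _ _ ?_]
      · simp
      · rintro ⟨i, hi⟩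
        exact hj (Finset.mem_map.2 ⟨i, Finset.mem_univ _, hi⟩)
    rw [key1, ← hsum]
    exact Finset.sum_congr rfl fun i _ => e.injective.extend_apply _ _ _
  · intro j
    by_cases h : ∃ i, e i = j
    · obtain ⟨i, rfl⟩ := h
      rw [e.injective.extend_apply]
      exact hz ⟨i, rfl⟩
    · rw [Function.extend_apply' _ _ _ h]
      exact hz ⟨i₀, rfl⟩
  · rw [key (fun j => Function.extend e c 0 j • Function.extend e z (fun _ => z i₀) j), ← hw']
    · exact Finset.sum_congr rfl fun i _ => by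
        rw [e.injective.extend_apply, e.injective.extend_apply]
    · intro j hj
      rw [Function.extend_apply' c _ _ hj]
      simp

theorem isCompact_convexHull_of_isCompact [FiniteDimensional ℝ V] {s : Set V} (hs : IsCompact s) :
    IsCompact (convexHull ℝ s) := by
  classical
  set N := Module.finrank ℝ V
  have hK : IsCompact ((stdSimplex ℝ (Fin (N + 1))) ×ˢ
      (Set.pi Set.univ fun _ : Fin (N + 1) => s)) :=
    (isCompact_stdSimplex ℝ _).prod (isCompact_univ_pi fun _ => hs)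
  have hcont : Continuous fun p : (Fin (N + 1) → ℝ) × (Fin (N + 1) → V) =>
      ∑ i, p.1 i • p.2 i := by
    fun_prop
  have heq : convexHull ℝ s = (fun p : (Fin (N + 1) → ℝ) × (Fin (N + 1) → V) =>
      ∑ i, p.1 i • p.2 i) '' ((stdSimplex ℝ (Fin (N + 1))) ×ˢ
      (Set.pi Set.univ fun _ : Fin (N + 1) => s)) := by
    apply Set.Subset.antisymm
    · intro w hw
      obtain ⟨lam, v, h0, h1, hv, hw'⟩ := exists_rep (N := N) le_rfl hw
      exact ⟨(lam, v), ⟨⟨h0, h1⟩, fun i _ => hv i⟩, hw'.symm⟩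
    · rintro _ ⟨⟨lam, v⟩, ⟨⟨h0, h1⟩, hv⟩, rfl⟩
      exact (convex_convexHull ℝ s).sum_mem (fun i _ => h0 i) h1
        (fun i _ => subset_convexHull ℝ s (hv i (Set.mem_univ _)))
  rw [heq]
  exact hK.image hcont

end Vale.Agent.P234
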