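import Vale.Agent.P234.Abs

/-! The Riemannian distance in a chart. -/

open scoped ContDiff Topology Bundle Manifold
open Filter Set Metric

noncomputable section

namespace Vale.Agent.P234

variable {E : Type*} [NormedAddCommGroup E] [NormedSpace ℝ E]
  {M : Type*} [MetricSpace M] [ChartedSpace E M]
  [Bundle.RiemannianBundle fun x : M => TangentSpace 𝓘(ℝ, E) x]

/-- a chart around `p₀` together with the metric read in this chart -/
structure Chart (p₀ : M) (W : Set M) (U : Set E) (φ : M → E) (ι : E → M)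
    (θ : ∀ x : M, E →L[ℝ] TangentSpace 𝓘(ℝ, E) x) (G : E → E →L[ℝ] E →L[ℝ] ℝ) : Prop where
  metric : IsMetric G
  openW : IsOpen W
  openU : IsOpen U
  mem : p₀ ∈ W
  mapsφ : MapsTo φ W U
  mapsι : MapsTo ι U W
  left : ∀ x ∈ W, ι (φ x) = x
  right : ∀ a ∈ U, φ (ι a) = a
  smoothφ : ContMDiffOn 𝓘(ℝ, E) 𝓘(ℝ, E) ∞ φ W
  smoothι : ContMDiffOn 𝓘(ℝ, E) 𝓘(ℝ, E) ∞ ι U
  bij : ∀ x ∈ W, Function.Bijective (θ x)
  inner : ∀ x ∈ W, ∀ u w : E, inner ℝ (θ x u) (θ x w) = G (φ x) u w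
  deriv : ∀ a ∈ U, HasMFDerivAt 𝓘(ℝ, E) 𝓘(ℝ, E) ι a (θ (ι a))

theorem Chart_glue [FiniteDimensional ℝ E] {G₀ : E → E →L[ℝ] E →L[ℝ] ℝ} {T : Set E} {a₀ : E}
    (hT : IsOpen T) (ha : a₀ ∈ T) (hs : ContDiffOn ℝ ∞ G₀ T)
    (h1 : ∀ a ∈ T, ∀ u w, G₀ a u w = G₀ a w u) (h2 : ∀ a ∈ T, ∀ u, u ≠ 0 → 0 < G₀ a u u) :
    ∃ (G : E → E →L[ℝ] E →L[ℝ] ℝ) (r : ℝ), 0 < r ∧ IsMetric G ∧ ball a₀ r ⊆ T ∧
      ∀ a ∈ ball a₀ r, G a = G₀ a := by
  obtain ⟨R, hR, hsub⟩ := Metric.isOpen_iff.1 hT a₀ ha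
  let f : ContDiffBump a₀ := ⟨R / 2, R, by linarith, by linarith⟩
  have hm : ∀ a, a₀ + f a • (a - a₀) ∈ T := fun a => hsub <| by
    rw [mem_ball_iff_norm, add_sub_cancel_left, norm_smul, Real.norm_of_nonneg f.nonneg]
    rcases lt_or_ge ‖a - a₀‖ R with h | h
    · exact (mul_le_of_le_one_left (norm_nonneg _) f.le_one).trans_lt h
    · rw [f.zero_of_le_dist (by rwa [dist_eq_norm]), zero_mul]
      exact hR
  refine ⟨fun a => G₀ (a₀ + f a • (a - a₀)), R / 2, by linarith,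
    ⟨hs.comp_contDiff (contDiff_const.add (f.contDiff.smul (contDiff_id.sub contDiff_const))) hm,
      fun a => h1 _ (hm a), fun a => h2 _ (hm a)⟩,
    (ball_subset_ball (by linarith)).trans hsub, fun a ha => ?_⟩
  simp only [f.one_of_mem_closedBall (ball_subset_closedBall ha), one_smul, add_sub_cancel]

omit [Bundle.RiemannianBundle fun x : M => TangentSpace 𝓘(ℝ, E) x] in
theorem Chart_sec [IsManifold 𝓘(ℝ, E) ∞ M] (p₀ : M) (u : E) :
    ContMDiffOn 𝓘(ℝ, E) (𝓘(ℝ, E).prod 𝓘(ℝ, E)) ∞ (fun a : E =>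
      (⟨(extChartAt 𝓘(ℝ, E) p₀).symm a,
        (trivializationAt E (TangentSpace 𝓘(ℝ, E) (M := M)) p₀).symmL ℝ
          ((extChartAt 𝓘(ℝ, E) p₀).symm a) u⟩ :
        Bundle.TotalSpace E (TangentSpace 𝓘(ℝ, E) (M := M)))) (extChartAt 𝓘(ℝ, E) p₀).target := by
  have hb : ∀ a ∈ (extChartAt 𝓘(ℝ, E) p₀).target, (extChartAt 𝓘(ℝ, E) p₀).symm a ∈
      (trivializationAt E (TangentSpace 𝓘(ℝ, E) (M := M)) p₀).baseSet := fun a ha => by
    rw [TangentBundle.trivializationAt_baseSet, ← extChartAt_source 𝓘(ℝ, E)]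
    exact (extChartAt 𝓘(ℝ, E) p₀).map_target ha
  rw [(trivializationAt E (TangentSpace 𝓘(ℝ, E) (M := M)) p₀).contMDiffOn_iff
    fun a ha => (Bundle.Trivialization.mem_source _).2 (hb a ha)]
  refine ⟨contMDiffOn_extChartAt_symm p₀, (contMDiffOn_const (c := u)).congr fun a ha => ?_⟩
  rw [Bundle.Trivialization.symmL_apply _ (hb a ha), Bundle.Trivialization.apply_mk_symm _ (hb a ha)]


/-- Take `φ = extChartAt I p₀`, `θ x = (trivializationAt E (TangentSpace I) p₀).symmL ℝ x`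
(`TangentBundle.symmL_trivializationAt`). The form `G₀ a u w = inner (θ (ι a) u) (θ (ι a) w)` is smooth
on the target (`ContMDiffWithinAt.inner_bundle`, `contDiffOn_clm_apply`); glue it with the constant
form `G₀ a₀` using a bump function which is one near `a₀`, and shrink `U`. -/
theorem exists_chart [FiniteDimensional ℝ E] [IsManifold 𝓘(ℝ, E) ∞ M]
    [IsContMDiffRiemannianBundle 𝓘(ℝ, E) ∞ E fun x : M => TangentSpace 𝓘(ℝ, E) x] (p₀ : M) :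
    ∃ (W : Set M) (U : Set E) (φ : M → E) (ι : E → M)
      (θ : ∀ x : M, E →L[ℝ] TangentSpace 𝓘(ℝ, E) x) (G : E → E →L[ℝ] E →L[ℝ] ℝ),
      Chart p₀ W U φ ι θ G := by
  have hb : ∀ a ∈ (extChartAt 𝓘(ℝ, E) p₀).target,
      (extChartAt 𝓘(ℝ, E) p₀).symm a ∈ (chartAt E p₀).source := fun a ha => by
    rw [← extChartAt_source 𝓘(ℝ, E)]
    exact (extChartAt 𝓘(ℝ, E) p₀).map_target ha
  have bij : ∀ x ∈ (chartAt E p₀).source, Function.Bijective
      ((trivializationAt E (TangentSpace 𝓘(ℝ, E) (M := M)) p₀).symmL ℝ x) := fun x hx =>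
    Function.bijective_iff_has_inverse.2 ⟨_,
      (trivializationAt E (TangentSpace 𝓘(ℝ, E) (M := M)) p₀).continuousLinearMapAt_symmL hx,
      (trivializationAt E (TangentSpace 𝓘(ℝ, E) (M := M)) p₀).symmL_continuousLinearMapAt hx⟩
  obtain ⟨G₀, hG₀⟩ : ∃ G₀ : E → E →L[ℝ] E →L[ℝ] ℝ, ∀ a u w, G₀ a u w = inner ℝ
      ((trivializationAt E (TangentSpace 𝓘(ℝ, E) (M := M)) p₀).symmL ℝ
        ((extChartAt 𝓘(ℝ, E) p₀).symm a) u)
      ((trivializationAt E (TangentSpace 𝓘(ℝ, E) (M := M)) p₀).symmL ℝ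
        ((extChartAt 𝓘(ℝ, E) p₀).symm a) w) :=
    ⟨fun a => (innerSL ℝ).bilinearComp
      ((trivializationAt E (TangentSpace 𝓘(ℝ, E) (M := M)) p₀).symmL ℝ
        ((extChartAt 𝓘(ℝ, E) p₀).symm a))
      ((trivializationAt E (TangentSpace 𝓘(ℝ, E) (M := M)) p₀).symmL ℝ
        ((extChartAt 𝓘(ℝ, E) p₀).symm a)), fun _ _ _ => rfl⟩
  obtain ⟨G, r, hr, hG, hsub, hE⟩ := Chart_glue (G₀ := G₀)
    (isOpen_extChartAt_target (I := 𝓘(ℝ, E)) p₀) (mem_extChartAt_target p₀)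
    (contDiffOn_clm_apply.2 fun u => contDiffOn_clm_apply.2 fun w => by
      simp only [hG₀]
      refine ContMDiffOn.contDiffOn (ContMDiffOn.inner_bundle (F := E) (IB := 𝓘(ℝ, E))
        (E := fun x : M => TangentSpace 𝓘(ℝ, E) x) ?_ ?_)
      exacts [Chart_sec p₀ u, Chart_sec p₀ w])
    (fun a _ u w => by rw [hG₀, hG₀, real_inner_comm])
    (fun a ha u hu => by
      rw [hG₀]
      exact real_inner_self_pos.2 fun h0 => hu ((bij _ (hb a ha)).1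
        (h0.trans (map_zero _).symm)))
  refine ⟨(extChartAt 𝓘(ℝ, E) p₀).source ∩ extChartAt 𝓘(ℝ, E) p₀ ⁻¹' ball _ r, ball _ r,
    extChartAt 𝓘(ℝ, E) p₀, (extChartAt 𝓘(ℝ, E) p₀).symm,
    fun x => (trivializationAt E (TangentSpace 𝓘(ℝ, E) (M := M)) p₀).symmL ℝ x, G, hG,
    isOpen_extChartAt_preimage' p₀ isOpen_ball, isOpen_ball,
    ⟨mem_extChartAt_source p₀, mem_ball_self hr⟩, fun x hx => hx.2,
    fun a ha => ⟨(extChartAt 𝓘(ℝ, E) p₀).map_target (hsub ha), ?_⟩,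
    fun x hx => (extChartAt 𝓘(ℝ, E) p₀).left_inv hx.1,
    fun a ha => (extChartAt 𝓘(ℝ, E) p₀).right_inv (hsub ha),
    contMDiffOn_extChartAt.mono fun x hx => by simpa using hx.1,
    (contMDiffOn_extChartAt_symm p₀).mono hsub, fun x hx => bij x (by simpa using hx.1),
    fun x hx u w => ?_, fun a ha => ?_⟩
  · rw [mem_preimage, (extChartAt 𝓘(ℝ, E) p₀).right_inv (hsub ha)]
    exact ha
  · rw [hE _ hx.2, hG₀, (extChartAt 𝓘(ℝ, E) p₀).left_inv hx.1]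
  · have k := TangentBundle.symmL_trivializationAt (I := 𝓘(ℝ, E)) (hb a (hsub ha))
    rw [(extChartAt 𝓘(ℝ, E) p₀).right_inv (hsub ha)] at k
    have k2 := (mdifferentiableWithinAt_extChartAt_symm (hsub ha)).hasMFDerivWithinAt
    rw [← k, ModelWithCorners.Boundaryless.range_eq_univ] at k2
    exact hasMFDerivWithinAt_univ.1 k2

variable [IsManifold 𝓘(ℝ, E) ∞ M] [IsRiemannianManifold 𝓘(ℝ, E) M]

omit [IsManifold 𝓘(ℝ, E) ∞ M] in
theorem Chart_edist {γ : ℝ → M} {a b : ℝ} (hγ : ContMDiffOn 𝓘(ℝ, ℝ) 𝓘(ℝ, E) 1 γ (Icc a b))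
    (hab : a ≤ b) : edist (γ a) (γ b) ≤ Manifold.pathELength 𝓘(ℝ, E) γ a b := by
  rw [IsRiemannianManifold.out (I := 𝓘(ℝ, E))]
  exact Manifold.riemannianEDist_le_pathELength hγ rfl rfl hab

omit [IsManifold 𝓘(ℝ, E) ∞ M] in
theorem Chart_path {x y : M} {r : ℝ} (h : dist x y < r) : ∃ γ : ℝ → M, γ 0 = x ∧ γ 1 = y ∧
    ContMDiff 𝓘(ℝ, ℝ) 𝓘(ℝ, E) 1 γ ∧ (∀ t ∈ Icc (0 : ℝ) 1, dist x (γ t) + dist (γ t) y < r) ∧
    Manifold.pathELength 𝓘(ℝ, E) γ 0 1 < ENNReal.ofReal r := by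
  have hr : 0 < r := dist_nonneg.trans_lt h
  have h1 : Manifold.riemannianEDist 𝓘(ℝ, E) x y < ENNReal.ofReal r := by
    rw [← IsRiemannianManifold.out (I := 𝓘(ℝ, E)), edist_dist]
    exact (ENNReal.ofReal_lt_ofReal_iff hr).2 h
  obtain ⟨γ, γ0, γ1, hγ, hl, -⟩ :=
    Manifold.exists_lt_locally_constant_of_riemannianEDist_lt h1 zero_lt_one
  refine ⟨γ, γ0, γ1, hγ, fun t ht => ?_, hl⟩
  have k := add_le_add (Chart_edist hγ.contMDiffOn ht.1) (Chart_edist hγ.contMDiffOn ht.2)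
  rw [Manifold.pathELength_add ht.1 ht.2, γ0, γ1, edist_dist, edist_dist,
    ← ENNReal.ofReal_add dist_nonneg dist_nonneg] at k
  exact (ENNReal.ofReal_lt_ofReal_iff hr).1 (k.trans_lt hl)


include E in
/-- From a path of length close to the distance and the intermediate value theorem; pass to the
limit by compactness. -/
theorem exists_mid [CompactSpace M] (x y : M) (τ : ℝ) (h0 : 0 ≤ τ) (h1 : τ ≤ 1) :
    ∃ m : M, dist x m = τ * dist x y ∧ dist m y = (1 - τ) * dist x y := by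
  have hc : IsCompact {m : M | dist x m = τ * dist x y} :=
    (isClosed_eq (by fun_prop) continuous_const).isCompact
  have key : ∀ ε : ℝ, 0 < ε → ∃ m : M, dist x m = τ * dist x y ∧
      dist m y ≤ (1 - τ) * dist x y + ε := by
    intro ε hε
    obtain ⟨γ, γ0, γ1, hγ, hl, -⟩ := Chart_path (E := E) (x := x) (y := y)
      (r := dist x y + ε) (by linarith)
    have hd : 0 ≤ dist x y := dist_nonneg
    obtain ⟨t, ht, e⟩ := intermediate_value_Icc (f := fun t => dist x (γ t)) zero_le_one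
      (continuous_const.dist hγ.continuous).continuousOn
      (show τ * dist x y ∈ Icc (dist x (γ 0)) (dist x (γ 1)) by
        rw [γ0, γ1, dist_self]
        exact ⟨mul_nonneg h0 hd, mul_le_of_le_one_left hd h1⟩)
    refine ⟨γ t, e, ?_⟩
    have k := hl t ht
    simp only at e
    linarith
  obtain ⟨m, hm, -⟩ := key 1 one_pos
  obtain ⟨n, hn, hmin⟩ := hc.exists_isMinOn ⟨m, hm⟩ (f := fun m => dist m y) (by fun_prop)
  refine ⟨n, hn, le_antisymm (le_of_forall_pos_le_add fun ε hε => ?_) ?_⟩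
  · obtain ⟨m, hm, hm'⟩ := key ε hε
    exact le_trans (hmin hm) hm'
  · have k := dist_triangle x n y
    have k' : dist x n = τ * dist x y := hn
    linarith

variable {p₀ : M} {W : Set M} {U : Set E} {φ : M → E} {ι : E → M}
  {θ : ∀ x : M, E →L[ℝ] TangentSpace 𝓘(ℝ, E) x} {G : E → E →L[ℝ] E →L[ℝ] ℝ}

omit [IsManifold 𝓘(ℝ, E) ∞ M] [IsRiemannianManifold 𝓘(ℝ, E) M] in
theorem Chart_norm (h : Chart p₀ W U φ ι θ G) {β : ℝ → E} {σ : ℝ} (hU : β σ ∈ U)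
    (hβ : DifferentiableAt ℝ β σ) :
    ‖mfderiv 𝓘(ℝ, ℝ) 𝓘(ℝ, E) (ι ∘ β) σ 1‖ ^ 2 = G (β σ) (deriv β σ) (deriv β σ) := by
  have k := ((h.deriv _ hU).comp σ hβ.hasFDerivAt.hasMFDerivAt).mfderiv
  have k2 := h.inner _ (h.mapsι hU) (deriv β σ) (deriv β σ)
  rw [h.right _ hU, real_inner_self_eq_norm_sq] at k2
  rw [k, ← k2]
  rfl


/-- `riemannianEDist_le_pathELength` for the path `ι ∘ β` -/
theorem Chart.upper (h : Chart p₀ W U φ ι θ G) {β : ℝ → E} {s t k : ℝ} (hst : s ≤ t) (hk : 0 ≤ k)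
    (hβ : ∀ σ ∈ Icc s t, ContDiffAt ℝ 1 β σ ∧ β σ ∈ U ∧
      G (β σ) (_root_.deriv β σ) (_root_.deriv β σ) ≤ k ^ 2) :
    dist (ι (β s)) (ι (β t)) ≤ (t - s) * k := by
  have hγ : ContMDiffOn 𝓘(ℝ, ℝ) 𝓘(ℝ, E) 1 (ι ∘ β) (Icc s t) := fun σ hσ =>
    (((h.smoothι.contMDiffAt (h.openU.mem_nhds (hβ σ hσ).2.1)).of_le (by simp)).comp σ
      (hβ σ hσ).1.contMDiffAt).contMDiffWithinAt
  have k1 := Chart_edist hγ hst
  rw [Manifold.pathELength_eq_lintegral_mfderiv_Icc] at k1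
  have k2 : ∫⁻ σ in Icc s t, ‖mfderiv 𝓘(ℝ, ℝ) 𝓘(ℝ, E) (ι ∘ β) σ 1‖ₑ ≤
      ∫⁻ _ in Icc s t, ENNReal.ofReal k := by
    refine MeasureTheory.setLIntegral_mono' measurableSet_Icc fun σ hσ => ?_
    rw [← ofReal_norm]
    refine ENNReal.ofReal_le_ofReal (abs_le_of_sq_le_sq' ?_ hk).2
    rw [Chart_norm h (hβ σ hσ).2.1 ((hβ σ hσ).1.differentiableAt one_ne_zero)]
    exact (hβ σ hσ).2.2
  have k3 := k1.trans k2
  rw [MeasureTheory.setLIntegral_const, Real.volume_Icc, ← ENNReal.ofReal_mul hk, edist_dist,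
    ENNReal.ofReal_le_ofReal_iff (mul_nonneg hk (sub_nonneg.2 hst)), mul_comm] at k3
  exact k3

/-- A path of length less than `R` from `x` stays in `ball x R`
(`exists_lt_locally_constant_of_riemannianEDist_lt`, `riemannianEDist_le_pathELength`,
`pathELength_mono`); integrate the derivative of `f ∘ φ ∘ γ`. -/
theorem Chart.lower (h : Chart p₀ W U φ ι θ G) {f : E → ℝ} {x y : M} {R : ℝ}
    (hf : ∀ z ∈ ball x R, z ∈ W ∧ ContDiffAt ℝ 1 f (φ z) ∧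
      ∀ w, (fderiv ℝ f (φ z) w) ^ 2 ≤ G (φ z) w w) (hy : dist x y < R) :
    f (φ y) - f (φ x) ≤ dist x y := by
  refine le_of_forall_gt_imp_ge_of_dense fun r hr => ?_
  wlog hR : r < R generalizing r
  · obtain ⟨r', h1, h2⟩ := exists_between hy
    exact (this r' h1 h2).trans (h2.le.trans (not_lt.1 hR))
  obtain ⟨γ, γ0, γ1, hγ, hl, hl'⟩ := Chart_path (E := E) hr
  have hb : ∀ t ∈ Icc (0 : ℝ) 1, γ t ∈ ball x R := fun t ht => by
    have k := hl t ht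
    have k' : 0 ≤ dist (γ t) y := dist_nonneg
    rw [mem_ball']
    linarith
  have hβ : ∀ t ∈ Icc (0 : ℝ) 1, ContDiffAt ℝ 1 (φ ∘ γ) t := fun t ht =>
    (((h.smoothφ.contMDiffAt (h.openW.mem_nhds (hf _ (hb t ht)).1)).of_le (by simp)).comp t
      (hγ t)).contDiffAt
  have hg : ContDiffOn ℝ 1 (f ∘ φ ∘ γ) (Icc 0 1) := fun t ht =>
    (ContDiffAt.comp t (hf _ (hb t ht)).2.1 (hβ t ht)).contDiffWithinAt
  have k1 := enorm_sub_le_lintegral_deriv_of_contDiffOn_Icc hg zero_le_one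
  have k2 : Manifold.pathELength 𝓘(ℝ, E) γ 0 1 =
      Manifold.pathELength 𝓘(ℝ, E) (ι ∘ φ ∘ γ) 0 1 :=
    Manifold.pathELength_congr fun t ht => (h.left _ (hf _ (hb t ht)).1).symm
  rw [k2, Manifold.pathELength_eq_lintegral_mfderiv_Icc] at hl'
  have k3 : ∫⁻ t in Icc (0 : ℝ) 1, ‖_root_.deriv (f ∘ φ ∘ γ) t‖ₑ ≤
      ∫⁻ t in Icc (0 : ℝ) 1, ‖mfderiv 𝓘(ℝ, ℝ) 𝓘(ℝ, E) (ι ∘ φ ∘ γ) t 1‖ₑ := by
    refine MeasureTheory.setLIntegral_mono' measurableSet_Icc fun t ht => ?_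
    have d1 := (hβ t ht).differentiableAt one_ne_zero
    have d2 : HasDerivAt (f ∘ φ ∘ γ) _ t :=
      (((hf _ (hb t ht)).2.1.differentiableAt one_ne_zero).hasFDerivAt).comp_hasDerivAt t
        d1.hasDerivAt
    rw [← ofReal_norm, ← ofReal_norm, d2.deriv]
    refine ENNReal.ofReal_le_ofReal (abs_le_of_sq_le_sq' ?_ (norm_nonneg _)).2
    rw [Chart_norm h (h.mapsφ (hf _ (hb t ht)).1) d1, Real.norm_eq_abs, sq_abs]
    exact (hf _ (hb t ht)).2.2 _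
  have k4 := (k1.trans k3).trans_lt hl'
  rw [← ofReal_norm, ENNReal.ofReal_lt_ofReal_iff (dist_nonneg.trans_lt hr)] at k4
  simp only [Function.comp_apply, γ0, γ1, Real.norm_eq_abs] at k4
  exact (le_abs_self _).trans k4.le

end Vale.Agent.P234
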