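import Vale.Agent.P234.Smooth

/-! Linearity of the convergence with moving base point. -/

open scoped ContDiff Topology
open Filter Set

noncomputable section

namespace Vale.Agent.P234

variable {M : Type*} [MetricSpace M] [CompactSpace M] {T : M → Type*}
  [∀ x, NormedAddCommGroup (T x)] [∀ x, InnerProductSpace ℝ (T x)]
  [∀ x, FiniteDimensional ℝ (T x)] {e : ∀ x, T x → M} {r : ℝ} {κ : Type*}

theorem ConvSum_slope {V : Type*} [NormedAddCommGroup V] [NormedSpace ℝ V] {F : V × V → ℝ}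
    {F' : V × V →L[ℝ] ℝ} {b : V} (hF : HasStrictFDerivAt F F' (0, b)) {l : Filter κ}
    {n : κ → V} (hn : Tendsto n l (𝓝 b)) {s : κ → ℝ} (hs : Tendsto s l (𝓝 0))
    (hs0 : ∀ᶠ k in l, s k ≠ 0) (ξ : V) :
    Tendsto (fun k => (F (s k • ξ, n k) - F (0, n k)) / s k) l (𝓝 (F' (ξ, 0))) := by
  have t0 : Tendsto (fun k => s k • ξ) l (𝓝 0) := by simpa using hs.smul_const ξ
  have t1 : Tendsto (fun k => (((s k • ξ, n k), (0, n k)) : (V × V) × (V × V))) l
      (𝓝 ((0, b), (0, b))) :=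
    (t0.prodMk_nhds hn).prodMk_nhds (tendsto_const_nhds.prodMk_nhds hn)
  have h1 := hF.isLittleO.comp_tendsto t1
  have h2 : ((fun p : (V × V) × (V × V) => p.1 - p.2) ∘
      fun k => (((s k • ξ, n k), (0, n k)) : (V × V) × (V × V))) =O[l] s := by
    refine Asymptotics.IsBigO.of_bound ‖ξ‖ (Eventually.of_forall fun k => ?_)
    simp [norm_smul, mul_comm, mul_nonneg]
  have h3 := (h1.trans_isBigO h2).tendsto_div_nhds_zero.add_const (F' (ξ, 0))
  rw [zero_add] at h3
  refine h3.congr' ?_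
  filter_upwards [hs0] with k hk
  have e1 : ((s k • ξ, n k) : V × V) - (0, n k) = s k • (ξ, 0) := by simp
  simp only [Function.comp_apply, e1, map_smul, smul_eq_mul]
  field_simp
  ring

namespace Geo

omit [CompactSpace M] [∀ x, FiniteDimensional ℝ (T x)] in
theorem ConvSum_smooth (h : Geo e r) {x : M} {b : T x} (hb : ‖b‖ < r) :
    ContDiffAt ℝ ∞ (fun z : T x × T x => cost (e x z.1) (e x z.2)) (0, b) :=
  h.smooth x x 0 b (by simpa using h.pos) hb (by rwa [h.zero, h.toLoc.dist_exp hb])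

theorem ConvSum_lg (h : Geo e r) {l : Filter κ} {xs : κ → M} {vs : ∀ k, T (xs k)} {x : M}
    {v : T x} (hc : Conv e l xs vs x v) {ε : ℝ} (hε : ‖ε • v‖ < r) :
    Tendsto (fun k => lg e x (e (xs k) (ε • vs k))) l (𝓝 (ε • v)) := by
  have := (h.continuousAt_lg (h.short_mem_inj hε)).tendsto.comp (hc.2.2 ε)
  rwa [h.lg_exp (h.short_mem_inj hε)] at this

omit [CompactSpace M] [∀ x, FiniteDimensional ℝ (T x)] in
theorem ConvSum_slope' (h : Geo e r) {x : M} {b : T x} (hb : ‖b‖ < r) {l : Filter κ}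
    {n : κ → T x} (hn : Tendsto n l (𝓝 b)) {s : κ → ℝ} (hs : Tendsto s l (𝓝 0))
    (hs0 : ∀ᶠ k in l, s k ≠ 0) (ξ : T x) :
    Tendsto (fun k => (cost x (e x (n k)) - cost (e x (s k • ξ)) (e x (n k))) / s k) l
      (𝓝 (inner ℝ b ξ)) := by
  have hF := (h.ConvSum_smooth hb).hasStrictFDerivAt (by simp)
  have h1 := (ConvSum_slope hF hn hs hs0 ξ).neg
  have d0 : HasFDerivAt (fun a : T x => (a, b)) (ContinuousLinearMap.inl ℝ (T x) (T x)) 0 :=
    hasFDerivAt_prodMk_left 0 b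
  have d1 := HasFDerivAt.comp (g := fun z : T x × T x => cost (e x z.1) (e x z.2)) (0 : T x)
    hF.hasFDerivAt d0
  have d2 := congrArg (fun L : T x →L[ℝ] ℝ => L ξ) (d1.unique (h.toLoc.fv hb))
  simp only [ContinuousLinearMap.comp_apply, ContinuousLinearMap.inl_apply, neg_apply,
    innerSL_apply_apply] at d2
  rw [d2, neg_neg] at h1
  refine h1.congr fun k => ?_
  simp only [h.zero]
  ring

/-- Take `ε > 0` with `ε ‖v‖ < r`. With `a k = lg e x (xs k) → 0` and
`n k = lg e x (e (xs k) (ε • vs k)) → ε • v`, `fv_move` identifies `- ε` times the left side with the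
derivative of `cost (e x ·) (e x (n k))` at `a k`, which is continuous in ` (a k, n k)`
(`contDiffAt_fderiv_fst`). -/
theorem conv_inner (h : Geo e r) {l : Filter κ} {xs : κ → M} {vs : ∀ k, T (xs k)} {x : M}
    {v : T x} (hc : Conv e l xs vs x v) (ξ : T x) :
    Tendsto (fun k => inner ℝ (vs k) (Lmap e x (lg e x (xs k)) (xs k) ξ)) l
      (𝓝 (inner ℝ v ξ)) := by
  obtain ⟨ε, hε, hεr⟩ := h.Lim_small ‖v‖ (norm_nonneg _)
  have hb : ‖ε • v‖ < r := by rwa [norm_smul, Real.norm_of_nonneg hε.le]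
  have ta : Tendsto (fun k => lg e x (xs k)) l (𝓝 0) := by
    rw [tendsto_zero_iff_norm_tendsto_zero]
    simp only [h.norm_lg]
    simpa using (tendsto_const_nhds (x := x)).dist hc.1
  have tn := h.ConvSum_lg hc hb
  have hΦ := (contDiffAt_fderiv_fst (h.ConvSum_smooth hb)).continuousAt.tendsto.comp
    (ta.prodMk_nhds tn)
  have h1 : Tendsto (fun k => fderiv ℝ (fun a => cost (e x a)
      (e x (lg e x (e (xs k) (ε • vs k))))) (lg e x (xs k)) ξ) l
      (𝓝 (fderiv ℝ (fun a => cost (e x a) (e x (ε • v))) 0 ξ)) :=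
    ((ContinuousLinearMap.apply ℝ ℝ ξ).continuous.tendsto _).comp hΦ
  rw [(h.toLoc.fv hb).fderiv] at h1
  have h2 := h1.const_mul (-ε⁻¹)
  have e1 : -ε⁻¹ * (-(innerSL ℝ (ε • v))) ξ = inner ℝ v ξ := by
    simp only [neg_apply, innerSL_apply_apply, real_inner_smul_left]
    field_simp
  rw [e1] at h2
  refine h2.congr' ?_
  have t2 : Tendsto (fun k => ε * ‖vs k‖) l (𝓝 (ε * ‖v‖)) := hc.2.1.const_mul ε
  filter_upwards [t2.eventually (gt_mem_nhds hεr)] with k hk
  have hk' : ‖ε • vs k‖ < r := by rwa [norm_smul, Real.norm_of_nonneg hε.le]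
  have d1 := h.fv_move (h.exp_lg x (xs k)) (h.short_mem_min hk')
    (h.sp_short (by rwa [h.toLoc.dist_exp hk']))
  rw [h.exp_lg, d1.fderiv]
  simp only [neg_apply, ContinuousLinearMap.comp_apply, innerSL_apply_apply, real_inner_smul_left]
  field_simp

theorem conv_sum (h : Geo e r) (U : Ultrafilter κ) {ι : Type*} [Fintype ι] {xs : κ → M} {x : M}
    (hx : Tendsto xs U (𝓝 x)) {vs : ι → ∀ k, T (xs k)} {v : ι → T x}
    (hv : ∀ i, Conv e U xs (vs i) x (v i)) {lam : κ → ι → ℝ} {lam₀ : ι → ℝ}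
    (hlam : ∀ i, Tendsto (fun k => lam k i) U (𝓝 (lam₀ i))) :
    Conv e U xs (fun k => ∑ i, lam k i • vs i k) x (∑ i, lam₀ i • v i) := by
  have t1 : Tendsto (fun k => ∑ i, |lam k i| * ‖vs i k‖) U (𝓝 (∑ i, |lam₀ i| * ‖v i‖)) :=
    tendsto_finsetSum _ fun i _ => (hlam i).abs.mul (hv i).2.1
  obtain ⟨w, hw⟩ := h.conv_exists U (fun k => ∑ i, lam k i • vs i k) hx
    (R := ∑ i, |lam₀ i| * ‖v i‖ + 1) (by
      filter_upwards [t1.eventually (ge_mem_nhds (lt_add_one _))] with k hk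
      refine le_trans (norm_sum_le _ _) (le_trans (le_of_eq ?_) hk)
      simp only [norm_smul, Real.norm_eq_abs])
  have : w = ∑ i, lam₀ i • v i := by
    refine ext_inner_right ℝ fun ξ => ?_
    refine tendsto_nhds_unique (h.conv_inner hw ξ) ?_
    simp only [sum_inner, real_inner_smul_left]
    exact tendsto_finsetSum _ fun i _ => (hlam i).mul (h.conv_inner (hv i) ξ)
  rwa [this] at hw

/-- limits of convex combinations of supporting vectors (`exists_rep`, `Loc.rank`) -/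
theorem exists_conv_rep (h : Geo e r) {ψ : M → ℝ} (hψ : Continuous ψ) (U : Ultrafilter κ)
    {xs : κ → M} {x : M} (hx : Tendsto xs U (𝓝 x)) {ws : ∀ k, T (xs k)}
    (hw : ∀ k, ws k ∈ convexHull ℝ (Sup e ψ 1 (xs k))) :
    ∃ (N : ℕ) (lam : κ → Fin N → ℝ) (vs : Fin N → ∀ k, T (xs k)) (lam₀ : Fin N → ℝ)
      (v : Fin N → T x), (∀ k i, 0 ≤ lam k i) ∧ (∀ k, ∑ i, lam k i = 1) ∧
      (∀ i k, vs i k ∈ Sup e ψ 1 (xs k)) ∧ (∀ k, ws k = ∑ i, lam k i • vs i k) ∧
      (∀ i, 0 ≤ lam₀ i) ∧ ∑ i, lam₀ i = 1 ∧ (∀ i, v i ∈ Sup e ψ 1 x) ∧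
      (∀ i, Tendsto (fun k => lam k i) U (𝓝 (lam₀ i))) ∧ (∀ i, Conv e U xs (vs i) x (v i)) ∧
      Conv e U xs ws x (∑ i, lam₀ i • v i) := by
  choose lam vs h0 h1 hs hrep using fun k =>
    exists_rep (N := Module.finrank ℝ (T x)) (h.rank (xs k) x).le (hw k)
  obtain ⟨R, -, -, hR⟩ := h.exists_bound ψ
  have hl : ∀ i, ∃ c : ℝ, Tendsto (fun k => lam k i) U (𝓝 c) := fun i => by
    obtain ⟨c, -, hc⟩ := (isCompact_Icc (a := (0 : ℝ)) (b := 1)).ultrafilter_le_nhds
      (U.map fun k => lam k i) (by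
        rw [Ultrafilter.coe_map, le_principal_iff, mem_map]
        refine univ_mem' fun k => ⟨h0 k i, ?_⟩
        rw [← h1 k]
        exact Finset.single_le_sum (fun j _ => h0 k j) (Finset.mem_univ i))
    exact ⟨c, hc⟩
  choose lam₀ hlam using hl
  choose v hv using fun i => h.conv_exists U (fun k => vs k i) hx (R := R)
    (Eventually.of_forall fun k => hR _ _ (subset_convexHull ℝ _ (hs k i)))
  refine ⟨_, lam, fun i k => vs k i, lam₀, v, h0, h1, fun i k => hs k i, hrep,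
    fun i => ge_of_tendsto' (hlam i) fun k => h0 k i, ?_,
    fun i => conv_sup hψ (hv i) (Eventually.of_forall fun k => hs k i), hlam, hv, ?_⟩
  · refine tendsto_nhds_unique (tendsto_finsetSum Finset.univ fun i _ => hlam i) ?_
    simp only [h1]
    exact tendsto_const_nhds
  · have := h.conv_sum U hx (vs := fun i k => vs k i) hv hlam
    rwa [← funext hrep] at this

/-- Danskin. If not, separate (`isCompact_sup`, `isCompact_convexHull_of_isCompact`): there is `ξ`
with `inner v ξ < inner (c • u) ξ` for all `v ∈ Sup e ψ 1 x`. Let `xs k = e x (s k • ξ)`, `s k ↓ 0`,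
`vs k ∈ Sup e ψ 1 (xs k)` with limit `v`, and `σ > 0` small. With `n k = lg e x (e (xs k) (σ • vs k))`,
which tends to `σ • v`, `sup_mono` gives
`σ (ψ (xs k) - ψ x) ≤ cost x (e x (n k)) - cost (xs k) (e x (n k)) = σ (s k) (inner v ξ) + o (s k)`
(strict differentiability at ` (0, σ • v)`), while `cost_le_split` through `e x (σ • u)` gives
`cost x (e x u) - cost (xs k) (e x u) ≥ (s k) (inner u ξ) + o (s k)`. -/
theorem danskin (h : Geo e r) {ψ : M → ℝ} (hψ : Continuous ψ)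
    (hne : ∀ x, (Sup e ψ 1 x).Nonempty) {x : M} {u : T x} (hu : u ∈ MinSet e x) {c : ℝ}
    (hc : 0 < c) (hl : ∀ᶠ x' in 𝓝 x, c * (cost x (e x u) - cost x' (e x u)) ≤ ψ x' - ψ x) :
    c • u ∈ convexHull ℝ (Sup e ψ 1 x) := by
  by_contra hnot
  have : CompleteSpace (T x) := FiniteDimensional.complete ℝ (T x)
  obtain ⟨f, β, hf1, hf2⟩ := geometric_hahn_banach_closed_point (convex_convexHull ℝ _)
    (isCompact_convexHull_of_isCompact (h.isCompact_sup ψ x)).isClosed hnot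
  obtain ⟨ξ, hξ⟩ : ∃ ξ : T x, ∀ w, f w = inner ℝ w ξ :=
    ⟨(InnerProductSpace.toDual ℝ (T x)).symm f, fun w => by
      rw [real_inner_comm, InnerProductSpace.toDual_symm_apply]⟩
  obtain ⟨U, hU⟩ := Ultrafilter.exists_le (𝓝[>] (0 : ℝ))
  have hs : Tendsto (fun s : ℝ => s) U (𝓝 0) := hU.trans nhdsWithin_le_nhds
  have hpos : ∀ᶠ s : ℝ in U, 0 < s := hU self_mem_nhdsWithin
  have hx : Tendsto (fun s : ℝ => e x (s • ξ)) U (𝓝 x) := by
    have := ((h.continuous_exp x).tendsto _).comp (hs.smul_const ξ)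
    rwa [zero_smul, h.zero] at this
  choose vs hvs using fun s : ℝ => hne (e x (s • ξ))
  obtain ⟨R, -, -, hR⟩ := h.exists_bound ψ
  obtain ⟨v, hv⟩ := h.conv_exists U vs hx (R := R)
    (Eventually.of_forall fun k => hR _ _ (subset_convexHull ℝ _ (hvs k)))
  have hvS : v ∈ Sup e ψ 1 x := conv_sup hψ hv (Eventually.of_forall hvs)
  have hlt : inner ℝ v ξ < c * inner ℝ u ξ := by
    have a1 := hf1 v (subset_convexHull ℝ _ hvS)
    rw [hξ] at a1 hf2
    rw [real_inner_smul_left] at hf2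
    linarith
  obtain ⟨σ, hσ, hσr⟩ := h.Lim_small (‖u‖ + ‖v‖ + r)
    (by have := h.pos; positivity)
  have hr := h.pos
  have hu0 := norm_nonneg u
  have hv0 := norm_nonneg v
  have hσ1 : σ < 1 := by nlinarith
  have hσu : ‖σ • u‖ < r := by rw [norm_smul, Real.norm_of_nonneg hσ.le]; nlinarith
  have hσv : ‖σ • v‖ < r := by rw [norm_smul, Real.norm_of_nonneg hσ.le]; nlinarith
  have t1 := h.ConvSum_slope' hσv (h.ConvSum_lg hv hσv) hs (hpos.mono fun s hs => hs.ne') ξ
  have t2 := (h.ConvSum_slope' hσu (n := fun _ : ℝ => σ • u) tendsto_const_nhds hs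
    (hpos.mono fun s hs => hs.ne') ξ).const_mul c
  have key := le_of_tendsto_of_tendsto t2 t1 (by
    filter_upwards [hpos, hx.eventually hl] with s hs0 hs1
    rw [h.exp_lg, ← mul_div_assoc]
    refine div_le_div_of_nonneg_right ?_ hs0.le
    have a1 := h.sup_mono hσ.le hσ1.le (hvs s)
    have a2 := a1 x
    have a3 := cost_of_min (h.sup_min hσ.le a1)
    rw [norm_smul, Real.norm_of_nonneg hσ.le, mul_pow] at a3
    have a4 := cost_le_split (e x (s • ξ)) (e x (σ • u)) (e x u) hσ (sub_pos.2 hσ1)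
    rw [add_sub_cancel, div_one] at a4
    have a5 := cost_of_min hu
    have a6 := cost_of_min (h.smul_mem_min hu hσ.le hσ1.le)
    rw [norm_smul, Real.norm_of_nonneg hσ.le, mul_pow] at a6
    have a7 : cost (e x (σ • u)) (e x u) / (1 - σ) = (1 - σ) * ‖u‖ ^ 2 / 2 := by
      have := h.dist_of_min hu hσ.le hσ1.le le_rfl
      rw [one_smul] at this
      have h1 : (1 : ℝ) - σ ≠ 0 := (sub_pos.2 hσ1).ne'
      rw [cost, this]
      field_simp
    have a8 : σ * (cost (e x (s • ξ)) (e x (σ • u)) / σ) = cost (e x (s • ξ)) (e x (σ • u)) := by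
      field_simp
    have a9 : cost x (e x (σ • u)) - cost (e x (s • ξ)) (e x (σ • u)) ≤
        σ * (cost x (e x u) - cost (e x (s • ξ)) (e x u)) := by
      rw [a7] at a4
      have := mul_le_mul_of_nonneg_left a4 hσ.le
      rw [a5, a6]
      nlinarith
    have b1 := mul_le_mul_of_nonneg_left a9 hc.le
    have b2 := mul_le_mul_of_nonneg_left hs1 hσ.le
    nlinarith)
  rw [real_inner_smul_left, real_inner_smul_left] at key
  nlinarith

end Geo

end Vale.Agent.P234
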