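import Vale.Agent.P234.Growth

/-! The continuity method. -/

open scoped ContDiff Topology
open Filter Set

noncomputable section

namespace Vale.Agent.P234

variable {M : Type*} [MetricSpace M] [CompactSpace M] {T : M → Type*}
  [∀ x, NormedAddCommGroup (T x)] [∀ x, InnerProductSpace ℝ (T x)]
  [∀ x, FiniteDimensional ℝ (T x)] {e : ∀ x, T x → M} {r : ℝ}

namespace Geo

/-- analysis of a local minimum of the perturbed functional -/
theorem cross_local (h : Geo e r) {ψ : M → ℝ} (hψ : Continuous ψ)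
    (hne : ∀ x, (Sup e ψ 1 x).Nonempty) {τ : ℝ} (h0 : 0 < τ) {t₀ : ℝ} (ht0 : 0 < t₀)
    (hg : Good e ψ t₀) {x x' : M} {w : T x} (hw : w ∈ convexHull ℝ (Sup e ψ 1 x)) {q : T x'}
    (hq : q ∈ MinSet e x') (he : e x' q = e x (t₀ • w))
    (hle : t₀ * ψ x' + ‖q‖ ^ 2 / 2 ≤ t₀ * ψ x + t₀ ^ 2 * ‖w‖ ^ 2 / 2) (h1 : τ < 1)
    {s : ℝ} (hs0 : 0 < s) (hs1 : s < 1) (hsr : ∀ p p' : M, (1 - s) * dist p p' < r) {a m : M}
    (hd : dist m (e x' (s • q)) < r)
    (hmin : IsLocalMin (fun z : M × M => s * t₀ * ψ z.1 +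
      (cost z.1 z.2 / τ + cost z.2 (e x' (s • q)) / (1 - τ))) (a, m)) :
    x' = a ∧ e x' ((τ * s) • q) = m := by
  set t := s * t₀ with ht
  have htp : 0 < t := mul_pos hs0 ht0
  have hu := h.lg_mem_min a m
  have hum := h.exp_lg a m
  set u := lg e a m with hud
  have m1 : IsLocalMin (fun a' : M => t * ψ a' +
      (cost a' m / τ + cost m (e x' (s • q)) / (1 - τ))) a :=
    IsLocalMin.comp_continuous (g := fun a' : M => (a', m)) (b := a) hmin (by fun_prop)
  have m2 : IsLocalMin (fun m' : M => t * ψ a +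
      (cost a m' / τ + cost m' (e x' (s • q)) / (1 - τ))) m :=
    IsLocalMin.comp_continuous (g := fun m' : M => (a, m')) (b := m) hmin (by fun_prop)
  have hw' := h.danskin hψ hne hu (c := (τ * t)⁻¹) (by positivity) (by
    filter_upwards [m1] with a' ha'
    rw [hum, inv_mul_le_iff₀ (by positivity)]
    have c1 : t * ψ a + cost a m / τ ≤ t * ψ a' + cost a' m / τ := by linarith
    have c2 := mul_le_mul_of_nonneg_left c1 h0.le
    rw [mul_add, mul_add, mul_div_cancel₀ _ h0.ne', mul_div_cancel₀ _ h0.ne'] at c2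
    linarith)
  set w' := (τ * t)⁻¹ • u with hw'd
  have e1 : e x' (s • q) = e a (t • w') := by
    have := h.u2 hu h0 (sub_pos.2 h1) (y := e x' (s • q)) (by rwa [hum]) (by
      rw [hum]
      filter_upwards [m2] with m' hm'
      linarith)
    rw [this, hw'd, smul_smul]
    congr 2
    field_simp
    ring
  have g1 := h.good_mono htp.le (by nlinarith) hg a hw'
  have g2 := h.sup_min htp.le g1
  have g3 := h.sup_min ht0.le (hg a hw')
  have c1 := g1 x'
  have c2 := hg x hw a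
  have c3 := cost_of_min g2
  have c4 := cost_of_min (h.smul_mem_min hq hs0.le hs1.le)
  have c5 := h.dist_of_min hq hs0.le hs1.le le_rfl
  rw [one_smul] at c5
  rw [← e1] at c1 c3
  rw [norm_smul, Real.norm_eq_abs, abs_of_pos htp, mul_pow] at c3
  rw [norm_smul, Real.norm_eq_abs, abs_of_pos hs0, mul_pow] at c4
  rw [← he] at c2
  have h1s : 0 < 1 - s := sub_pos.2 hs1
  have c6 : cost (e x' (s • q)) (e x' q) / (1 - s) = (1 - s) * ‖q‖ ^ 2 / 2 := by
    unfold cost
    rw [c5]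
    field_simp
  have c7 : t₀ * ψ a + cost a (e x' (s • q)) / s ≤ t₀ * ψ x' + s * ‖q‖ ^ 2 / 2 := by
    refine le_of_mul_le_mul_left ?_ hs0
    rw [mul_add, mul_div_cancel₀ _ hs0.ne']
    rw [c4, ← c3, ht] at c1
    linarith
  have e2 : e x' q = e a (t₀ • w') := by
    have := h.u2 g2 hs0 h1s (y := e x' q) (by
      rw [← e1, c5, ← show dist x' (e x' q) = ‖q‖ from hq]
      exact hsr _ _) (Eventually.of_forall fun m' => by
        have c8 := cost_le_split a m' (e x' q) hs0 h1s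
        rw [add_sub_cancel, div_one] at c8
        simp only [← e1]
        linarith)
    rw [this, smul_smul]
    congr 2
    rw [ht]
    field_simp
    ring
  have key := h.ray_ext (x := x') (x' := a) (q := q) (q' := t₀ • w') hs1
    (by rw [e1, smul_smul s t₀]) e2
    (by rw [← show dist x' (e x' q) = ‖q‖ from hq]; exact hsr _ _)
    (by rw [← show dist a (e a (t₀ • w')) = ‖t₀ • w'‖ from g3]; exact hsr _ _)
  constructor
  · have := key 0
    rwa [zero_smul, zero_smul, h.zero, h.zero] at this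
  · rw [key, hw'd, smul_smul, smul_smul, ← hum]
    congr 1
    rw [mul_assoc τ, ← ht, mul_inv_cancel₀ (by positivity), one_smul]

/-- Crossing lemma. The case `t₀ = 0` is immediate. For `t₀ > 0`: by `growth`, ` (x, m₀)` with
`m₀ = e x (τ • t₀ • w)` is a strict local minimum of
`Φ₁ (a, m) = t₀ ψ a + cost a m / τ + cost m y / (1 - τ)`, `y = e x (t₀ • w)`. For `s ↑ 1` let
`y s = e x' (s • q)`, `t = s t₀`, `Φ s (a, m) = t ψ a + cost a m / τ + cost m (y s) / (1 - τ)`; by
`exists_isLocalMin_near` it has a local minimum ` (a, m)` close to ` (x, m₀)`. Let `u = lg e a m`.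
`danskin` gives `w' = (τ t)⁻¹ • u` in the convex hull at `a`, `u2` gives `y s = e a (t • w')`.
`Good t` at ` (a, w')` tested at `x'`, and `Good t₀` at ` (x, w)` tested at `a` together with
`cost a y ≤ cost a (y s) / s + cost (y s) y / (1 - s)`, are opposite inequalities, so equality holds,
`y s` is a minimum of `cost a · / s + cost · y / (1 - s)`, `u2` gives `y = e a (t₀ • w')`, and `ray_ext`
gives `x' = a` and `e x' ((τ s) • q) = m`. Let `s → 1`. -/
theorem crossing (h : Geo e r) (hm : AMTW e) {ψ : M → ℝ} (hψ : Continuous ψ)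
    (hne : ∀ x, (Sup e ψ 1 x).Nonempty) {τ : ℝ} (h0 : 0 < τ) (h1 : τ < 1)
    (hr : ∀ p q : M, (1 - τ) * dist p q < r) {t₀ : ℝ} (ht0 : 0 ≤ t₀) (ht1 : t₀ < 1)
    (hg : Good e ψ t₀) {x x' : M} {w : T x} (hw : w ∈ convexHull ℝ (Sup e ψ 1 x)) {q : T x'}
    (hq : q ∈ MinSet e x') (he : e x' q = e x (t₀ • w))
    (hle : t₀ * ψ x' + ‖q‖ ^ 2 / 2 ≤ t₀ * ψ x + t₀ ^ 2 * ‖w‖ ^ 2 / 2) :
    x' = x ∧ e x' (τ • q) = e x (τ • t₀ • w) := by
  rcases ht0.eq_or_lt with rfl | htp
  · have hq0 : q = 0 := by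
      have : ‖q‖ ^ 2 ≤ 0 := by linarith
      exact norm_eq_zero.1 (pow_eq_zero_iff two_ne_zero |>.1 (le_antisymm this (sq_nonneg _)))
    subst hq0
    simp only [zero_smul, smul_zero, h.zero] at he ⊢
    exact ⟨he, he⟩
  obtain ⟨R, hR0, hR, -⟩ := h.exists_bound ψ
  obtain ⟨δ, hδ, hgr⟩ := h.growth hm hψ h0 h1 hr ht0 ht1 hg
  have w1 := h.sup_min ht0 (hg x hw)
  have w2 : (1 - τ) * ‖t₀ • w‖ < r := by
    rw [← show dist x (e x (t₀ • w)) = ‖t₀ • w‖ from w1]
    exact hr _ _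
  have w3 := h.base_value h0 h1 (h.smul_mem_min w1 h0.le h1.le) w2
  have w4 := h.dist_of_min w1 h0.le h1.le le_rfl
  rw [one_smul] at w4
  rw [norm_smul, Real.norm_eq_abs, abs_of_pos htp, mul_pow] at w3
  set m₀ := e x (τ • t₀ • w) with hm₀
  set Φ : ℝ → M × M → ℝ := fun s z => s * t₀ * ψ z.1 +
    (cost z.1 z.2 / τ + cost z.2 (e x' (s • q)) / (1 - τ)) with hΦ
  have hc : Continuous (Function.uncurry Φ) := by
    have c1 := h.continuous_exp x'
    simp only [hΦ, cost]
    unfold Function.uncurry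
    fun_prop
  have hstrict : ∀ᶠ z in 𝓝 (x, m₀), z ≠ (x, m₀) → Φ 1 (x, m₀) < Φ 1 z := by
    filter_upwards [Metric.ball_mem_nhds (x, m₀) hδ] with z hz hne'
    rw [Metric.mem_ball, Prod.dist_eq, max_lt_iff] at hz
    have := hgr x w hw t₀ ht0 ht1.le (by simpa using hδ) z.1 z.2 hz.1 hz.2 hne'
    simp only [hΦ, one_mul, one_smul, he, w3]
    exact this
  have main : ∀ ε : ℝ, 0 < ε → ε ≤ (r - dist m₀ (e x (t₀ • w))) / 2 →
      dist x' x < ε ∧ dist (e x' (τ • q)) m₀ < 2 * ε := by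
    intro ε hε hεr
    have e1 := exists_isLocalMin_near (l := 𝓝 (1 : ℝ)) (Φ := Φ) (Φ₀ := Φ 1)
      (fun s => hc.uncurry_left s) (hc.uncurry_left 1) (hc.tendstoUniformly Φ 1) hstrict hε
    have e2 : ∀ᶠ s : ℝ in 𝓝 1, (1 - s) * R < ε :=
      (by fun_prop : ContinuousAt (fun s : ℝ => (1 - s) * R) 1).eventually
        (gt_mem_nhds (by simpa using hε))
    obtain ⟨s, ⟨⟨⟨a, m⟩, z1, z2⟩, s1, s2⟩, s3⟩ := (((e1.and (e2.and
      (lt_mem_nhds (zero_lt_one' ℝ)))).filter_mono nhdsWithin_le_nhds).and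
      (self_mem_nhdsWithin (s := Iio (1 : ℝ)))).exists
    have s4 : s < 1 := s3
    rw [Prod.dist_eq, max_lt_iff] at z1
    have hqR : ‖q‖ ≤ R := by
      rw [← show dist x' (e x' q) = ‖q‖ from hq]
      exact hR _ _
    have n1 : (1 - s) * ‖q‖ ≤ (1 - s) * R := by gcongr
    have n2 := dist_nonneg (x := m₀) (y := e x (t₀ • w))
    obtain ⟨c1, c2⟩ := h.cross_local hψ hne h0 htp hg hw hq he hle h1 s2 s4 (fun p p' => by
      have : (1 - s) * dist p p' ≤ (1 - s) * R :=
        mul_le_mul_of_nonneg_left (hR _ _) (by linarith)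
      linarith) (a := a) (m := m) (by
        have c1 := h.dist_of_min hq s2.le s4.le le_rfl
        rw [one_smul, he, dist_comm] at c1
        have c2 := dist_triangle4 m m₀ (e x (t₀ • w)) (e x' (s • q))
        linarith [z1.2]) z2
    refine ⟨c1 ▸ z1.1, ?_⟩
    have c3 := h.dist_le x' q τ (τ * s)
    rw [c2, show τ - τ * s = τ * (1 - s) by ring, abs_of_pos (by nlinarith)] at c3
    have c4 := dist_triangle (e x' (τ • q)) m m₀
    have c5 : τ * (1 - s) * ‖q‖ ≤ (1 - s) * ‖q‖ := by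
      rw [mul_assoc]
      exact mul_le_of_le_one_left (mul_nonneg (by linarith) (norm_nonneg _)) h1.le
    linarith [z1.2]
  have hη : 0 < (r - dist m₀ (e x (t₀ • w))) / 2 := by linarith
  constructor
  · refine eq_of_forall_dist_le fun ε hε => ?_
    exact (main _ (lt_min hε hη) (min_le_right _ _)).1.le.trans (min_le_left _ _)
  · refine eq_of_forall_dist_le fun ε hε => ?_
    have := (main _ (lt_min (half_pos hε) hη) (min_le_right _ _)).2
    linarith [min_le_left (ε / 2) ((r - dist m₀ (e x (t₀ • w))) / 2)]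

/-- If `Good (t k)` fails for `t k ↓ t₀`, take failing data `x k, w k, x' k`, `q k = lg e (x' k) (y k)`,
pass to the limit along an ultrafilter (`exists_conv_rep`, `conv_exists`), apply `crossing` to the
limit, and contradict `growth` with `m' k = e (x' k) (τ • q k)`. -/
theorem good_extend (h : Geo e r) (hm : AMTW e) {ψ : M → ℝ} (hψ : Continuous ψ)
    (hne : ∀ x, (Sup e ψ 1 x).Nonempty) {t₀ : ℝ} (ht0 : 0 ≤ t₀) (ht1 : t₀ < 1)
    (hg : Good e ψ t₀) : ∃ t : ℝ, t₀ < t ∧ t ≤ 1 ∧ Good e ψ t := by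
  by_contra hcon
  push Not at hcon
  obtain ⟨R, hR0, hR, -⟩ := h.exists_bound ψ
  have hr0 := h.pos
  set τ := 1 - min (1 / 2) (r / (2 * R)) with hτ
  have h0 : 0 < τ := by linarith [min_le_left (1 / 2) (r / (2 * R))]
  have h1 : τ < 1 := by
    have : 0 < min (1 / 2) (r / (2 * R)) := lt_min (by norm_num) (by positivity)
    linarith
  have hr : ∀ p q : M, (1 - τ) * dist p q < r := by
    intro p q
    have c1 : (1 - τ) * dist p q ≤ r / (2 * R) * R :=
      mul_le_mul (by linarith [min_le_right (1 / 2) (r / (2 * R))]) (hR p q) dist_nonneg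
        (by positivity)
    have c2 : r / (2 * R) * R = r / 2 := by field_simp
    linarith
  clear_value τ
  obtain ⟨δ, hδ, hgr⟩ := h.growth hm hψ h0 h1 hr ht0 ht1 hg
  obtain ⟨δ', hδ', hbi⟩ := h.base_inj h0 h1 ht0 hg
  set t : ℕ → ℝ := fun k => t₀ + (1 - t₀) * (1 / ((k : ℝ) + 1)) with ht
  have t1 : ∀ k, t₀ < t k := fun k =>
    lt_add_of_pos_right _ (mul_pos (sub_pos.2 ht1) (by positivity))
  have t2 : ∀ k, t k ≤ 1 := fun k => by
    have c1 : 1 / ((k : ℝ) + 1) ≤ 1 := by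
      rw [div_le_one (by positivity)]
      linarith [Nat.cast_nonneg (α := ℝ) k]
    have := mul_le_mul_of_nonneg_left c1 (sub_pos.2 ht1).le
    simp only [ht]
    linarith
  have t3 : Tendsto t (hyperfilter ℕ) (𝓝 t₀) := by
    have := (tendsto_one_div_add_atTop_nhds_zero_nat.const_mul (1 - t₀)).const_add t₀
    rw [mul_zero, add_zero] at this
    exact this.mono_left Nat.hyperfilter_le_atTop
  clear_value t
  have hfail : ∀ k, ∃ (x : M) (w : T x) (x' : M), w ∈ convexHull ℝ (Sup e ψ 1 x) ∧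
      t k * ψ x' + cost x' (e x (t k • w)) < t k * ψ x + t k ^ 2 * ‖w‖ ^ 2 / 2 := by
    intro k
    have := hcon (t k) (t1 k) (t2 k)
    unfold Good at this
    push Not at this
    obtain ⟨x, hx⟩ := this
    obtain ⟨w, w1, w2⟩ := not_subset.1 hx
    obtain ⟨x', hx'⟩ := not_forall.1 w2
    exact ⟨x, w, x', w1, not_le.1 hx'⟩
  choose xs ws xs' hws hlt using hfail
  obtain ⟨x, -, hx⟩ := isCompact_univ.ultrafilter_le_nhds ((hyperfilter ℕ).map xs) (by simp)
  obtain ⟨x', -, hx'⟩ := isCompact_univ.ultrafilter_le_nhds ((hyperfilter ℕ).map xs') (by simp)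
  replace hx : Tendsto xs (hyperfilter ℕ) (𝓝 x) := hx
  replace hx' : Tendsto xs' (hyperfilter ℕ) (𝓝 x') := hx'
  obtain ⟨N, lam, vs, lam₀, v, -, -, -, -, l1, l2, l3, -, -, hcw⟩ :=
    h.exists_conv_rep hψ (hyperfilter ℕ) hx hws
  have hw : ∑ i, lam₀ i • v i ∈ convexHull ℝ (Sup e ψ 1 x) :=
    (convex_convexHull ℝ _).sum_mem (fun i _ => l1 i) l2 fun i _ => subset_convexHull ℝ _ (l3 i)
  set w := ∑ i, lam₀ i • v i with hwd
  clear_value w
  set qs : ∀ k, T (xs' k) := fun k => lg e (xs' k) (e (xs k) (t k • ws k)) with hqs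
  have q1 : ∀ k, qs k ∈ MinSet e (xs' k) := fun k => h.lg_mem_min _ _
  have q2 : ∀ k, e (xs' k) (qs k) = e (xs k) (t k • ws k) := fun k => h.exp_lg _ _
  have q3 : ∀ k, ‖qs k‖ = dist (xs' k) (e (xs k) (t k • ws k)) := fun k => h.norm_lg _ _
  clear_value qs
  obtain ⟨q, hcq⟩ := h.conv_exists (hyperfilter ℕ) qs hx' (R := R)
    (Eventually.of_forall fun k => (q3 k).le.trans (hR _ _))
  have hq := conv_min hcq (Eventually.of_forall q1)
  have he : e x' q = e x (t₀ • w) := by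
    have c1 := hcq.2.2 1
    simp only [one_smul, q2] at c1
    exact tendsto_nhds_unique c1 (h.conv_tendsto hcw t3)
  have hle : t₀ * ψ x' + ‖q‖ ^ 2 / 2 ≤ t₀ * ψ x + t₀ ^ 2 * ‖w‖ ^ 2 / 2 := by
    refine le_of_tendsto_of_tendsto'
      ((t3.mul ((hψ.tendsto x').comp hx')).add ((hcq.2.1.pow 2).div_const 2))
      ((t3.mul ((hψ.tendsto x).comp hx)).add (((t3.pow 2).mul (hcw.2.1.pow 2)).div_const 2))
      fun k => ?_
    have := hlt k
    rw [← q2, cost_of_min (q1 k)] at this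
    exact this.le
  obtain ⟨c1, c2⟩ := h.crossing hm hψ hne h0 h1 hr ht0 ht1 hg hw hq he hle
  have d1 : Tendsto (fun k => dist (xs' k) (xs k)) (hyperfilter ℕ) (𝓝 0) := by
    have := hx'.dist hx
    rwa [c1, dist_self] at this
  have d2 : Tendsto (fun k => dist (e (xs' k) (τ • qs k)) (e (xs k) (τ • t k • ws k)))
      (hyperfilter ℕ) (𝓝 0) := by
    have := (hcq.2.2 τ).dist (h.conv_tendsto hcw (t3.const_mul τ))
    rw [c2, ← smul_smul, dist_self] at this
    simpa only [smul_smul] using this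
  have d3 : Tendsto (fun k => |t k - t₀|) (hyperfilter ℕ) (𝓝 0) := by
    simpa using (t3.sub_const t₀).abs
  obtain ⟨k, ⟨k1, k2⟩, k3, k4⟩ := (((d1.eventually (gt_mem_nhds hδ)).and
    (d2.eventually (gt_mem_nhds hδ))).and ((d3.eventually (gt_mem_nhds hδ)).and
    (d3.eventually (gt_mem_nhds hδ')))).exists
  have tk0 : 0 ≤ t k := ht0.trans (t1 k).le
  have b1 := h.base_value h0 h1 (h.smul_mem_min (q1 k) h0.le h1.le) (by rw [q3]; exact hr _ _)
  have b2 := hlt k
  rw [← cost_of_min (q1 k), q2] at b1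
  by_cases hk : (xs' k, e (xs' k) (τ • qs k)) = (xs k, e (xs k) (τ • t k • ws k))
  · obtain ⟨k5, k6⟩ := Prod.mk.inj hk
    have b3 := h.base_value h0 h1 (h.inj_subset_min _ (hbi _ _ (hws k) _ tk0 k4)) (by
      have c3 := h.hull_short h1 hr (hws k)
      have c4 : ‖t k • ws k‖ ≤ ‖ws k‖ := by
        rw [norm_smul, Real.norm_eq_abs, abs_of_nonneg tk0]
        exact mul_le_of_le_one_left (norm_nonneg _) (t2 k)
      have c5 := mul_le_mul_of_nonneg_left c4 (sub_pos.2 h1).le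
      linarith)
    rw [norm_smul, Real.norm_eq_abs, abs_of_nonneg tk0, mul_pow] at b3
    rw [k6] at b1
    rw [← b1] at b2
    simp only [k5] at b2
    linarith
  · have := hgr _ _ (hws k) _ tk0 (t2 k) k3 _ _ k1 k2 hk
    linarith

theorem good_one (h : Geo e r) (hm : AMTW e) {ψ : M → ℝ} (hψ : Continuous ψ)
    (hne : ∀ x, (Sup e ψ 1 x).Nonempty) : Good e ψ 1 := by
  have hc : IsClosed {t : ℝ | Good e ψ t} := by
    have e1 : {t : ℝ | Good e ψ t} = ⋂ x, ⋂ w ∈ convexHull ℝ (Sup e ψ 1 x), ⋂ x',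
        {t : ℝ | t * ψ x + t ^ 2 * ‖w‖ ^ 2 / 2 ≤ t * ψ x' + cost x' (e x (t • w))} := by
      ext t
      simp only [mem_iInter]
      rfl
    rw [e1]
    refine isClosed_iInter fun x => isClosed_iInter fun w => isClosed_iInter fun _ =>
      isClosed_iInter fun x' => isClosed_le (by fun_prop) ?_
    have := h.continuous_exp x
    unfold cost
    fun_prop
  refine IsClosed.mem_of_ge_of_forall_exists_gt (s := {t : ℝ | Good e ψ t}) (a := 0)
    (hc.inter isClosed_Icc) (fun x w _ x' => ?_) zero_le_one fun t ht => ?_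
  · simpa using cost_nonneg _ _
  · obtain ⟨t', c1, c2, c3⟩ := h.good_extend hm hψ hne ht.2.1 ht.2.2 ht.1
    exact ⟨t', c3, c1, c2⟩

/-- For `v₀, v₁ ∈ Inj e x` take `a > 1` with `a • v i` minimizing, `y i = e x (a • v i)` and
`ψ = max (cost x y₀ - cost · y₀) (cost x y₁ - cost · y₁)`. -/
theorem convex_inj (h : Geo e r) (hm : AMTW e) (x : M) : Convex ℝ (Inj e x) := by
  intro v₀ h₀ v₁ h₁ α β hα hβ hab
  obtain ⟨a₀, a1, a2⟩ := h.exists_smul_mem_inj h₀
  obtain ⟨a₁, a3, a4⟩ := h.exists_smul_mem_inj h₁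
  have ha : 1 < min a₀ a₁ := lt_min a1 a3
  have m₀ := h.inj_subset_min x (a2 _ (by linarith) (min_le_left a₀ a₁))
  have m₁ := h.inj_subset_min x (a4 _ (by linarith) (min_le_right a₀ a₁))
  set a := min a₀ a₁
  set ψ : M → ℝ := fun z => max (cost x (e x (a • v₀)) - cost z (e x (a • v₀)))
    (cost x (e x (a • v₁)) - cost z (e x (a • v₁))) with hψ
  have hc : Continuous ψ := by
    simp only [hψ, cost]
    fun_prop
  have key : ∀ (z y : M) (u : T z), u ∈ MinSet e z → e z u = y → ψ z = cost x y - cost z y →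
      (∀ z', cost x y - cost z' y ≤ ψ z') → u ∈ Sup e ψ 1 z := by
    intro z y u hu hy h1 h2 z'
    have := cost_of_min hu
    rw [hy] at this
    rw [one_smul, hy]
    linarith [h2 z']
  have hne : ∀ z, (Sup e ψ 1 z).Nonempty := by
    intro z
    rcases le_total (cost x (e x (a • v₀)) - cost z (e x (a • v₀)))
      (cost x (e x (a • v₁)) - cost z (e x (a • v₁))) with hz | hz
    · exact ⟨_, key z _ _ (h.lg_mem_min _ _) (h.exp_lg _ _) (max_eq_right hz)
        fun _ => le_max_right _ _⟩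
    · exact ⟨_, key z _ _ (h.lg_mem_min _ _) (h.exp_lg _ _) (max_eq_left hz)
        fun _ => le_max_left _ _⟩
  have s₀ := key x _ _ m₀ rfl (by simp [hψ]) fun _ => le_max_left _ _
  have s₁ := key x _ _ m₁ rfl (by simp [hψ]) fun _ => le_max_right _ _
  have s₂ := h.sup_min zero_le_one (h.good_one hm hc hne x (convex_convexHull ℝ _
    (subset_convexHull ℝ _ s₀) (subset_convexHull ℝ _ s₁) hα hβ hab))
  have e1 : (1 : ℝ) • (α • a • v₀ + β • a • v₁) = a • (α • v₀ + β • v₁) := by module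
  rw [e1] at s₂
  refine ⟨a, ha, ?_⟩
  rw [show dist x (e x (a • (α • v₀ + β • v₁))) = ‖a • (α • v₀ + β • v₁)‖ from s₂, norm_smul,
    Real.norm_eq_abs, abs_of_pos (by linarith)]

end Geo

end Vale.Agent.P234
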