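import Mathlib

/-! The objects of the problem, for the Riemannian manifolds of Mathlib. -/

open scoped Bundle

noncomputable section

namespace Vale.Agent.P234

/-- The cost: half of the squared distance. -/
def cost {M : Type*} [MetricSpace M] (x y : M) : ℝ := dist x y ^ 2 / 2

/-- A geodesic: a curve of constant speed which locally realizes the distance. -/
def IsGeodesic {M : Type*} [MetricSpace M] (γ : ℝ → M) : Prop :=
  ∃ k : ℝ, ∀ t₀ : ℝ, ∃ δ : ℝ, 0 < δ ∧
    ∀ s t : ℝ, |s - t₀| < δ → |t - t₀| < δ → dist (γ s) (γ t) = |s - t| * k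

variable (E : Type*) [NormedAddCommGroup E] [NormedSpace ℝ E]
  {M : Type*} [MetricSpace M] [ChartedSpace E M]

/-- The curve `γ` is a geodesic with initial point `x` and initial velocity `v`. -/
def IsGeodesicFrom (x : M) (v : TangentSpace (modelWithCornersSelf ℝ E) x) (γ : ℝ → M) : Prop :=
  IsGeodesic γ ∧ MDifferentiableAt (modelWithCornersSelf ℝ ℝ) (modelWithCornersSelf ℝ E) γ 0 ∧
    (⟨γ 0, mfderiv (modelWithCornersSelf ℝ ℝ) (modelWithCornersSelf ℝ E) γ 0 1⟩ :
      TangentBundle (modelWithCornersSelf ℝ E) M) = ⟨x, v⟩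

open Classical in
/-- The exponential map: the position at time one of the geodesic with the given initial point
and initial velocity. -/
def expMap (x : M) (v : TangentSpace (modelWithCornersSelf ℝ E) x) : M :=
  if h : ∃ γ : ℝ → M, IsGeodesicFrom E x v γ then h.choose 1 else x

/-- The Ma-Trudinger-Wang tensor. -/
def mtw (x : M) (v ξ η : TangentSpace (modelWithCornersSelf ℝ E) x) : ℝ :=
  -(3 / 2) * iteratedDeriv 2 (fun s : ℝ =>
    iteratedDeriv 2 (fun t : ℝ => cost (expMap E x (t • ξ)) (expMap E x (v + s • η))) 0) 0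

variable [Bundle.RiemannianBundle fun x : M => TangentSpace (modelWithCornersSelf ℝ E) x]

/-- The tangent injectivity domain. -/
def injDomain (x : M) : Set (TangentSpace (modelWithCornersSelf ℝ E) x) :=
  {v | ∃ a : ℝ, 1 < a ∧ dist x (expMap E x (a • v)) = a * ‖v‖}

variable (M) in
/-- The weak MTW condition. -/
def WeakMTW : Prop :=
  ∀ (x : M), ∀ v ∈ injDomain E x, ∀ ξ η : TangentSpace (modelWithCornersSelf ℝ E) x,
    inner ℝ ξ η = 0 → 0 ≤ mtw E x v ξ η

end Vale.Agent.P234
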