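import Vale.Agent.P234.Basic

/-! From the local exponential map to the global one. -/

open scoped ContDiff Topology
open Filter Set

noncomputable section

namespace Vale.Agent.P234

variable {M : Type*} [MetricSpace M] {T : M → Type*} [∀ x, NormedAddCommGroup (T x)]
  [∀ x, InnerProductSpace ℝ (T x)] {l : ∀ x, T x → M} {r : ℝ}

namespace Loc

theorem ext_upper (h : Loc l r) {x : M} {v : T x} (hv : ‖v‖ < r) {s t : ℝ} (hs : -1 ≤ s)
    (hst : s ≤ t) (ht : t ≤ 1) : dist (l x (s • v)) (l x (t • v)) ≤ (t - s) * ‖v‖ := by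
  have h1 : ∀ s t : ℝ, -1 ≤ s → s ≤ t → t ≤ 0 →
      dist (l x (s • v)) (l x (t • v)) = (t - s) * ‖v‖ := fun s t hs hst ht => by
    have h2 := h.ray x (-v) (by rwa [norm_neg]) (-t) (-s) (by linarith) (by linarith) (by linarith)
    rw [neg_smul_neg, neg_smul_neg, norm_neg, dist_comm] at h2
    linarith
  rcases le_total 0 s with h0 | h0
  · exact (h.ray x v hv s t h0 hst ht).le
  rcases le_total t 0 with h2 | h2
  · exact (h1 s t hs hst h2).le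
  have h3 := dist_triangle (l x (s • v)) (l x ((0 : ℝ) • v)) (l x (t • v))
  rw [h1 s 0 hs h0 le_rfl, h.ray x v hv 0 t le_rfl h2 ht] at h3
  linarith

/-- Let `p = l x (-v)`, `x = l p ρ`, `y = l p (2 • ρ)`. Then `x` is the midpoint of `p` and `y`,
so by `crit` (global minimum, `cost_le_split`) `y = l x v`; then use `between` and `ray` at `p`. -/
theorem opposite (h : Loc l r) {x : M} {v : T x} (hv : 2 * ‖v‖ < r) {s t : ℝ}
    (hs : |s| ≤ 1) (ht : |t| ≤ 1) : dist (l x (s • v)) (l x (t • v)) = |s - t| * ‖v‖ := by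
  have hv1 : ‖v‖ < r := by linarith [norm_nonneg v]
  have hv2 : ‖-v‖ < r := by rwa [norm_neg]
  have h1 : dist (l x (-v)) x = ‖v‖ := by rw [dist_comm, h.dist_exp hv2, norm_neg]
  obtain ⟨ρ, hρ, hx⟩ := h.surj (l x (-v)) x (h1 ▸ hv1)
  rw [h1] at hρ
  have h2 : ‖(2 : ℝ) • ρ‖ = 2 * ‖v‖ := by rw [norm_smul, hρ, Real.norm_ofNat]
  have h3 : dist x (l _ ((2 : ℝ) • ρ)) = ‖v‖ := by
    have h4 := h.ray _ _ (h2 ▸ hv) (1 / 2) 1 (by norm_num) (by norm_num) le_rfl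
    rw [one_smul, smul_smul, show (1 / 2 : ℝ) * 2 = 1 by norm_num, one_smul, hx, h2] at h4
    linarith
  have h4 : dist (l x (-v)) (l _ ((2 : ℝ) • ρ)) = 2 * ‖v‖ := by rw [h.dist_exp (h2 ▸ hv), h2]
  obtain ⟨b, hb, hy⟩ := h.surj x _ (h3 ▸ hv1)
  rw [h3] at hb
  rw [← hy] at h3 h4
  have h5 := h.crit (α := 1) (β := 1) hv2 (hb ▸ hv1) (Eventually.of_forall fun m => by
    have h6 := cost_le_split (l x (-v)) m (l x b) one_pos one_pos
    rw [cost, h4] at h6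
    beta_reduce
    rw [cost, cost, h1, h3]
    linarith)
  rw [inv_one, one_smul, one_smul, neg_add_eq_zero] at h5
  subst h5
  wlog hst : s ≤ t generalizing s t
  · rw [dist_comm, abs_sub_comm]
    exact this ht hs (le_of_not_ge hst)
  obtain ⟨s1, s2⟩ := abs_le.mp hs
  obtain ⟨t1, t2⟩ := abs_le.mp ht
  rw [abs_sub_comm, abs_of_nonneg (sub_nonneg.mpr hst)]
  refine le_antisymm (h.ext_upper hv1 s1 hst t2) ?_
  have h6 := h.ext_upper hv1 le_rfl s1 s2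
  have h7 := h.ext_upper hv1 t1 t2 le_rfl
  have h8 := dist_triangle4 (l x (-v)) (l x (s • v)) (l x (t • v)) (l x v)
  rw [neg_one_smul] at h6
  rw [one_smul] at h7
  linarith

theorem ext_ray2 (h : Loc l r) {p : M} {ρ : T p} (hρ : 2 * ‖ρ‖ < r) (s t : ℝ) (hs : 0 ≤ s)
    (hst : s ≤ t) (ht : t ≤ 2) : dist (l p (s • ρ)) (l p (t • ρ)) = (t - s) * ‖ρ‖ := by
  have h2 : ‖(2 : ℝ) • ρ‖ = 2 * ‖ρ‖ := by rw [norm_smul, Real.norm_ofNat]
  have h4 := h.ray p _ (h2 ▸ hρ) (s / 2) (t / 2) (by linarith) (by linarith) (by linarith)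
  rw [smul_smul, smul_smul, div_mul_cancel₀ _ two_ne_zero, div_mul_cancel₀ _ two_ne_zero, h2] at h4
  linarith

/-- one step of the extension -/
theorem step (h : Loc l r) {p : M} {ρ : T p} (hρ : 2 * ‖ρ‖ < r) :
    ∃ ρ' : T (l p ρ), ‖ρ'‖ = ‖ρ‖ ∧
      ∀ s : ℝ, 0 ≤ s → s ≤ 1 → l p ((1 + s) • ρ) = l (l p ρ) (s • ρ') := by
  have h1 := h.ext_ray2 hρ
  have h2 : dist (l p ρ) (l p ((2 : ℝ) • ρ)) = ‖ρ‖ := by
    have h3 := h1 1 2 zero_le_one one_le_two le_rfl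
    rw [one_smul] at h3
    linarith
  have h3 : ‖ρ‖ < r := by linarith [norm_nonneg ρ]
  obtain ⟨ρ', hρ', hy⟩ := h.surj _ _ (h2 ▸ h3)
  rw [h2] at hρ'
  refine ⟨ρ', hρ', fun s s0 s1 => h.between (hρ' ▸ h3) s0 s1 ?_ ?_⟩
  · have h4 := h1 1 (1 + s) zero_le_one (by linarith) (by linarith)
    rwa [one_smul, add_sub_cancel_left, ← hρ'] at h4
  · rw [hy, h1 (1 + s) 2 (by linarith) (by linarith) le_rfl, hρ']
    ring

theorem ext_half (h : Loc l r) {p : M} {ρ : T p} (hρ : 2 * ‖ρ‖ < r) :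
    ∃ η : ℝ → M, (∀ s : ℝ, 0 ≤ s → s ≤ 1 → η s = l p (s • ρ)) ∧
      ∀ s t : ℝ, 0 ≤ s → s ≤ t → t - s ≤ 1 → dist (η s) (η t) = (t - s) * ‖ρ‖ := by
  have h1 : ∀ σ : Σ q : M, {w : T q // ‖w‖ = ‖ρ‖}, ∃ σ' : Σ q : M, {w : T q // ‖w‖ = ‖ρ‖},
      ∀ s : ℝ, 0 ≤ s → s ≤ 1 → l σ.1 ((1 + s) • σ.2.1) = l σ'.1 (s • σ'.2.1) := fun σ => by
    obtain ⟨w, h2, h3⟩ := h.step (ρ := σ.2.1) (by rwa [σ.2.2])
    exact ⟨⟨_, w, h2.trans σ.2.2⟩, h3⟩
  choose f hf using h1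
  let σ : ℕ → Σ q : M, {w : T q // ‖w‖ = ‖ρ‖} := fun j => f^[j] ⟨p, ρ, rfl⟩
  have h2 : ∀ (j : ℕ) (s : ℝ), j ≤ s → s < j + 2 →
      l (σ ⌊s⌋₊).1 ((s - ⌊s⌋₊) • (σ ⌊s⌋₊).2.1) = l (σ j).1 ((s - j) • (σ j).2.1) := by
    intro j s s0 s1
    have s2 : 0 ≤ s := (Nat.cast_nonneg j).trans s0
    rcases lt_or_ge s (j + 1) with h3 | h3
    · rw [(Nat.floor_eq_iff s2).mpr ⟨s0, h3⟩]
    · have h4 : ⌊s⌋₊ = j + 1 := (Nat.floor_eq_iff s2).mpr (by push_cast; exact ⟨h3, by linarith⟩)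
      have h5 : σ (j + 1) = f (σ j) := Function.iterate_succ_apply' f j _
      rw [h4, h5, ← hf _ _ (by push_cast; linarith) (by push_cast; linarith)]
      congr 2
      push_cast
      ring
  refine ⟨fun s => l (σ ⌊s⌋₊).1 ((s - ⌊s⌋₊) • (σ ⌊s⌋₊).2.1), fun s s0 s1 => ?_,
    fun s t s0 hst h3 => ?_⟩
  · have h3 := h2 0 s (by simpa using s0) (by simp; linarith)
    rw [Nat.cast_zero, sub_zero] at h3
    exact h3
  · have h4 := Nat.floor_le s0
    have h5 := Nat.lt_floor_add_one s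
    beta_reduce
    rw [h2 ⌊s⌋₊ t (h4.trans hst) (by linarith), h.ext_ray2 (by rwa [(σ ⌊s⌋₊).2.2]) _ _
      (by linarith) (by linarith) (by linarith), (σ ⌊s⌋₊).2.2]
    ring

theorem ext_line (h : Loc l r) {p : M} {ρ : T p} (hρ : 2 * ‖ρ‖ < r) :
    ∃ η : ℝ → M, (∀ s : ℝ, |s| ≤ 1 → η s = l p (s • ρ)) ∧
      ∀ s t : ℝ, |s - t| ≤ 1 → dist (η s) (η t) = |s - t| * ‖ρ‖ := by
  obtain ⟨η₁, a₁, b₁⟩ := h.ext_half hρ
  obtain ⟨η₂, a₂, b₂⟩ := h.ext_half (ρ := -ρ) (by rwa [norm_neg])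
  have h1 : ∀ s : ℝ, |s| ≤ 1 → (if 0 ≤ s then η₁ s else η₂ (-s)) = l p (s • ρ) := fun s hs => by
    obtain ⟨s1, s2⟩ := abs_le.mp hs
    split_ifs with h0
    · exact a₁ s h0 s2
    · rw [a₂ _ (by linarith) (by linarith), neg_smul_neg]
  refine ⟨fun s => if 0 ≤ s then η₁ s else η₂ (-s), h1, fun s t hst => ?_⟩
  wlog h2 : s ≤ t generalizing s t
  · rw [dist_comm, abs_sub_comm]
    exact this t s (abs_sub_comm s t ▸ hst) (le_of_not_ge h2)
  have h3 : |s - t| = t - s := by rw [abs_sub_comm, abs_of_nonneg (sub_nonneg.mpr h2)]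
  rw [h3] at hst
  beta_reduce
  by_cases s0 : 0 ≤ s
  · rw [if_pos s0, if_pos (s0.trans h2), h3]
    exact b₁ s t s0 h2 hst
  by_cases t0 : 0 ≤ t
  · have h4 : |s| ≤ 1 := abs_le.mpr ⟨by linarith, by linarith⟩
    have h5 : |t| ≤ 1 := abs_le.mpr ⟨by linarith, by linarith⟩
    rw [h1 s h4, h1 t h5]
    exact h.opposite hρ h4 h5
  · rw [if_neg s0, if_neg t0, h3, dist_comm, b₂ _ _ (by linarith) (by linarith) (by linarith),
      norm_neg]
    ring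

/-- Global geodesic with a given initial vector. Choose `c > 0` with `c * ‖v‖ = r / 3` (constant
curve if `v = 0`), iterate `step` on the states `⟨p, ρ⟩ : Σ p, T p` starting from `c • v`, and put
`γ s = l p_j ((s / c - j) • ρ_j)` with `j = ⌊s / c⌋₊` for `s ≥ 0`; this formula then holds on
`[j c, (j + 2) c]`. For `s ≤ 0` use `-v`. -/
theorem exists_curve (h : Loc l r) (x : M) (v : T x) :
    ∃ γ : ℝ → M, UGeo γ ‖v‖ (r / 3) ∧ ∀ s : ℝ, |s| * ‖v‖ < r / 3 → γ s = l x (s • v) := by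
  have hr := h.pos
  rcases eq_or_ne v 0 with rfl | hv
  · exact ⟨fun _ => x, fun s t _ => by simp, fun s _ => by rw [smul_zero, h.zero]⟩
  have h0 := norm_pos_iff.mpr hv
  obtain ⟨c, hc, hcv⟩ : ∃ c : ℝ, 0 < c ∧ c * ‖v‖ = r / 3 :=
    ⟨r / 3 / ‖v‖, by positivity, div_mul_cancel₀ _ h0.ne'⟩
  have h1 : ‖c • v‖ = c * ‖v‖ := by rw [norm_smul, Real.norm_of_nonneg hc.le]
  obtain ⟨η, h2, h3⟩ := h.ext_line (ρ := c • v) (by rw [h1, hcv]; linarith)
  have h4 : ∀ s : ℝ, |s| * ‖v‖ < r / 3 → |s / c| ≤ 1 := fun s hs => by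
    rw [abs_div, abs_of_pos hc, div_le_one hc]
    exact (lt_of_mul_lt_mul_right (hcv ▸ hs) h0.le).le
  refine ⟨fun s => η (s / c), fun s t hst => ?_, fun s hs => ?_⟩
  · rw [h3 _ _ (sub_div s t c ▸ h4 _ hst), ← sub_div, abs_div, abs_of_pos hc, h1]
    field_simp
  · exact (h2 _ (h4 s hs)).trans (by rw [smul_smul, div_mul_cancel₀ _ hc.ne'])

/-- Put `e x v = γ_{x, v} 1`; `e x (s • v) = γ_{x, v} s` by `locGeo_ext` applied to
`θ ↦ γ_{x, s • v} θ` and `θ ↦ γ_{x, v} (θ * s)`. -/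
theorem exists_geo (h : Loc l r) : ∃ (e : ∀ x, T x → M) (r' : ℝ), Geo e r' ∧
    ∀ x (v : T x), ‖v‖ < r' → e x v = l x v := by
  have hr := h.pos
  have hr3 : r / 3 < r := by linarith
  choose γ h1 h2 using h.exists_curve
  have h3 : ∀ x (v : T x), ‖v‖ < r / 3 → γ x v 1 = l x v := fun x v hv => by
    rw [h2 x v 1 (by simpa using hv), one_smul]
  have h4 : ∀ x (v : T x) (s : ℝ), γ x (s • v) 1 = γ x v s := fun x v s => by
    have h5 : UGeo (fun θ : ℝ => γ x v (θ * s)) ‖s • v‖ (r / 3) := fun a b hab => by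
      have h6 : |a * s - b * s| * ‖v‖ = |a - b| * ‖s • v‖ := by
        rw [← sub_mul, abs_mul, norm_smul, Real.norm_eq_abs, mul_assoc]
      rw [← h6] at hab ⊢
      exact h1 x v _ _ hab
    have h6 := h.locGeo_ext ((h1 x (s • v)).locGeo (by positivity) (norm_nonneg _))
      (h5.locGeo (by positivity) (norm_nonneg _)) (a := 0) (b := r / 3 / (‖s • v‖ + 1))
      (by positivity) fun θ hθ => by
        have h7 : |θ| * ‖s • v‖ < r / 3 := by
          have h8 := (le_div_iff₀ (by positivity)).mp hθ.2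
          rcases hθ.1.eq_or_lt with rfl | h9
          · simpa using hr
          · rw [abs_of_pos h9]
            linarith
        rw [h2 x _ θ h7, h2 x v (θ * s) (by
          rwa [abs_mul, mul_assoc, ← Real.norm_eq_abs s, ← norm_smul]), smul_smul]
    simpa using congrFun h6 1
  refine ⟨fun x v => γ x v 1, r / 3, ⟨⟨by positivity, fun x => ?_, fun x v hv s t s0 hst t1 => ?_,
    fun x y hxy => ?_, fun x y a b ha hb hab => ?_, h.mid, h.rank⟩, fun x v => ?_⟩, h3⟩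
  · rw [h3 x 0 (by simpa using hr), h.zero]
  · have h5 : |s - t| = t - s := by rw [abs_sub_comm, abs_of_nonneg (sub_nonneg.mpr hst)]
    rw [h4, h4, h1 x v s t (h5 ▸ (mul_le_of_le_one_left (norm_nonneg v) (by linarith)).trans_lt hv),
      h5]
  · obtain ⟨v, hv, hy⟩ := h.surj x y (hxy.trans hr3)
    exact ⟨v, hv, (h3 x v (hv ▸ hxy)).trans hy⟩
  · rw [h3 x a ha, h3 y b hb] at hab
    refine (h.smooth x y a b (ha.trans hr3) (hb.trans hr3) (hab.trans hr3)).congr_of_eventuallyEq ?_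
    have h5 : ∀ᶠ z : T x × T y in 𝓝 (a, b), ‖z.1‖ < r / 3 :=
      continuous_fst.norm.continuousAt.eventually_lt continuousAt_const ha
    have h6 : ∀ᶠ z : T x × T y in 𝓝 (a, b), ‖z.2‖ < r / 3 :=
      continuous_snd.norm.continuousAt.eventually_lt continuousAt_const hb
    filter_upwards [h5, h6] with z z1 z2
    rw [h3 x _ z1, h3 y _ z2]
  · simp only [h4]
    exact h1 x v

end Loc

end Vale.Agent.P234
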