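import Vale.Agent.P234.FocalC

/-! The focal lemma: a statement of linear algebra and calculus. -/

open scoped ContDiff Topology
open Filter Set

noncomputable section

namespace Vale.Agent.P234

variable {V : Type*} [NormedAddCommGroup V] [InnerProductSpace ℝ V] [FiniteDimensional ℝ V]
  {I O : Set V} {κ : ℝ} {A : V → V → ℝ} {S K : V → V →L[ℝ] V}

namespace FData

theorem qf (h : FData I O κ A S K) {D : Set V} (hD : Convex ℝ D) (hO : D ⊆ O)
    (hI : ∀ p ∈ D, ∀ s : ℝ, 0 ≤ s → s < 1 → s • p ∈ I) {ι : Type*} [Fintype ι] {lam : ι → ℝ}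
    {u : ι → V} (h0 : ∀ i, 0 ≤ lam i) (h1 : ∑ i, lam i = 1) (huD : ∀ i, u i ∈ D)
    (huI : ∀ i, u i ∈ I) {ξ : V} (hξ : ∀ i, lam i * inner ℝ (u i - ∑ j, lam j • u j) ξ = 0)
    (μ : V) : ∑ i, lam i * A (u i) ξ ≤ inner ℝ (S (∑ j, lam j • u j) ξ) ξ - 2 * inner ℝ ξ μ
      + inner ℝ (K (∑ j, lam j • u j) μ) μ := by
  have := h.qf_unit hD hO hI h0 h1 huD (fun i => h.isUnit (huI i)) rfl hξ μ
  refine le_of_eq_of_le (Finset.sum_congr rfl fun i _ => ?_) this
  rw [h.eq_focalA (huI i)]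

omit [FiniteDimensional ℝ V] in
theorem pd_of_unit (h : FData I O κ A S K) {p : V} (hp : p ∈ O)
    (hI : ∀ s : ℝ, 0 ≤ s → s < 1 → s • p ∈ I) (hu : IsUnit (K p)) {μ : V} (hμ : μ ≠ 0) :
    0 < inner ℝ (K p μ) μ := by
  refine (h.psd' hp hI μ).lt_of_ne fun h0 => hμ (focal_ker hu ?_)
  have key := focal_cs (c := 0) (X := inner ℝ (K p (K p μ)) (K p μ)) (Y := inner ℝ (K p μ) μ)
    (b := inner ℝ (K p μ) (K p μ)) fun t => by
      have h1 := h.psd' hp hI (K p μ - t • μ)
      have h2 := h.symm p hp (K p μ) μ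
      rw [map_sub, map_smul, inner_sub_left, inner_sub_right, inner_sub_right,
        real_inner_smul_right, real_inner_smul_left, real_inner_smul_left, real_inner_smul_right,
        h2] at h1
      linarith
  rw [← h0, mul_zero] at key
  exact inner_self_eq_zero.1 (pow_eq_zero_iff two_ne_zero |>.1 (le_antisymm key (sq_nonneg _)))

theorem segment_of_ker (h : FData I O κ A S K) {W : Set V} (hW : W ⊆ I)
    (hO : convexHull ℝ W ⊆ O)
    (hI : ∀ p ∈ convexHull ℝ W, ∀ s : ℝ, 0 ≤ s → s < 1 → s • p ∈ I) {p η : V}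
    (hp : p ∈ convexHull ℝ W) (hη : K p η = 0) :
    ∃ s₀ : ℝ, 0 < s₀ ∧ ∀ s : ℝ, |s| ≤ s₀ → p + s • η ∈ convexHull ℝ W := by
  obtain ⟨ι, _, z, w, hz, -, hw0, hw1, hzp⟩ := eq_pos_convex_span_of_mem_convexHull hp
  have hzW : ∀ i, z i ∈ W := fun i => hz ⟨i, rfl⟩
  have hspan : η ∈ Submodule.span ℝ (range fun i => z i - p) := by
    rw [← Submodule.orthogonal_orthogonal (Submodule.span ℝ (range fun i => z i - p)),
      Submodule.mem_orthogonal]
    intro ξ hξ
    have h1 : ∀ i, w i * inner ℝ (z i - p) ξ = 0 := fun i => by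
      rw [(Submodule.mem_orthogonal _ _).1 hξ _ (Submodule.subset_span ⟨i, rfl⟩), mul_zero]
    have h2 := h.cs_unit (convex_convexHull ℝ W) hO hI (fun i => (hw0 i).le) hw1
      (fun i => subset_convexHull ℝ W (hzW i)) (fun i => h.isUnit (hW (hzW i))) hzp h1 η
    rw [hη, inner_zero_left, mul_zero] at h2
    exact pow_eq_zero_iff two_ne_zero |>.1 (le_antisymm h2 (sq_nonneg _))
  obtain ⟨c, hc⟩ := (Submodule.mem_span_range_iff_exists_fun ℝ).1 hspan
  have hev : ∀ᶠ s : ℝ in 𝓝 0, ∀ i, 0 < w i + s * (c i - (∑ j, c j) * w i) := by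
    refine eventually_all.2 fun i => ?_
    have : Tendsto (fun s : ℝ => w i + s * (c i - (∑ j, c j) * w i)) (𝓝 0)
        (𝓝 (w i + 0 * (c i - (∑ j, c j) * w i))) :=
      (by fun_prop : Continuous fun s : ℝ => w i + s * (c i - (∑ j, c j) * w i)).tendsto 0
    exact this.eventually (lt_mem_nhds (by simpa using hw0 i))
  obtain ⟨ε, hε, hball⟩ := Metric.eventually_nhds_iff.1 hev
  refine ⟨ε / 2, by positivity, fun s hs => ?_⟩
  have h1 := hball (y := s) (by rw [Real.dist_eq, sub_zero]; linarith)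
  refine mem_convexHull_of_exists_fintype (fun i => w i + s * (c i - (∑ j, c j) * w i)) z
    (fun i => (h1 i).le) ?_ hzW ?_
  · rw [Finset.sum_add_distrib, ← Finset.mul_sum, Finset.sum_sub_distrib, ← Finset.mul_sum, hw1]
    ring
  · have e1 : ∀ i, (w i + s * (c i - (∑ j, c j) * w i)) • z i =
        w i • z i + s • (c i • z i - (∑ j, c j) • w i • z i) := fun i => by module
    have e2 : ∑ i, c i • (z i - p) = ∑ i, c i • z i - (∑ j, c j) • p := by
      simp only [smul_sub, Finset.sum_sub_distrib, Finset.sum_smul]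
    simp only [e1]
    rw [Finset.sum_add_distrib, ← Finset.smul_sum, Finset.sum_sub_distrib, ← Finset.smul_sum, hzp,
      ← e2, hc]

theorem pd (h : FData I O κ A S K) {W : Set V} (hW : W ⊆ I) (hc : IsCompact W)
    (hO : convexHull ℝ W ⊆ O)
    (hI : ∀ p ∈ convexHull ℝ W, ∀ s : ℝ, 0 ≤ s → s < 1 → s • p ∈ I) :
    ∀ p ∈ convexHull ℝ W, ∀ μ : V, μ ≠ 0 → 0 < inner ℝ (K p μ) μ := by
  have : CompleteSpace V := FiniteDimensional.complete ℝ V
  suffices hu : ∀ p ∈ convexHull ℝ W, IsUnit (K p) from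
    fun p hp μ hμ => h.pd_of_unit (hO hp) (hI p hp) (hu p hp) hμ
  by_contra hne
  push Not at hne
  have hD := isCompact_convexHull_of_isCompact hc
  have hZ : IsCompact (convexHull ℝ W ∩ K ⁻¹' {B | IsUnit B}ᶜ) :=
    hD.of_isClosed_subset ((h.smoothK.continuousOn.mono hO).preimage_isClosed_of_isClosed
      hD.isClosed Units.isOpen.isClosed_compl) inter_subset_left
  obtain ⟨p, ⟨hp, hpu⟩, hmax⟩ := hZ.exists_isMaxOn (f := fun v : V => ‖v‖)
    (hne.imp fun q hq => ⟨hq.1, hq.2⟩) continuous_norm.continuousOn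
  have hpu : ¬ IsUnit (K p) := hpu
  obtain ⟨η, hη1, hη⟩ : ∃ η : V, ‖η‖ = 1 ∧ K p η = 0 := by
    by_contra hc
    push Not at hc
    refine hpu (focal_isUnit fun μ hμ => ?_)
    by_contra h0
    refine hc (‖μ‖⁻¹ • μ) (norm_smul_inv_norm h0) ?_
    rw [map_smul, hμ, smul_zero]
  have hηη : inner ℝ η η = (1 : ℝ) := by rw [real_inner_self_eq_norm_sq, hη1]; norm_num
  obtain ⟨s₀, hs₀, hseg⟩ := h.segment_of_ker hW hO hI hp hη
  have hpη : inner ℝ p η = 0 := by
    have := h.symm p (hO hp) p η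
    rw [h.radial p (hO hp), hη, inner_zero_right, real_inner_smul_left] at this
    exact (mul_eq_zero.1 this).resolve_left h.kpos.ne'
  have hp0 : p ≠ 0 := by
    rintro rfl
    have := hI 0 hp 0 le_rfl one_pos
    rw [smul_zero] at this
    exact hpu (h.isUnit this)
  have hunit : ∀ s : ℝ, |s| ≤ s₀ → s ≠ 0 → IsUnit (K (p + s • η)) := by
    intro s hs hs0
    by_contra hn
    have h1 : ‖p + s • η‖ ≤ ‖p‖ := hmax ⟨hseg s hs, hn⟩
    have h2 : ‖p + s • η‖ ^ 2 = ‖p‖ ^ 2 + s ^ 2 := by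
      rw [norm_add_sq_real, real_inner_smul_right, hpη, norm_smul, hη1, Real.norm_eq_abs, mul_one,
        sq_abs]
      ring
    have h3 : ‖p + s • η‖ ^ 2 ≤ ‖p‖ ^ 2 := pow_le_pow_left₀ (norm_nonneg _) h1 2
    have h4 : 0 < s ^ 2 := by positivity
    linarith
  have hm : |(-s₀)| ≤ s₀ := by rw [abs_neg, abs_of_pos hs₀]
  have hpl : |s₀| ≤ s₀ := (abs_of_pos hs₀).le
  have hcs : ∀ ξ : V, inner ℝ η ξ = 0 → ∀ s : ℝ, |s| ≤ s₀ → ∀ ζ : V, inner ℝ ξ ζ ^ 2 ≤
      (inner ℝ (S (p + s • η) ξ) ξ + (|focalA S K (p + (-s₀) • η) ξ| +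
        |focalA S K (p + s₀ • η) ξ|)) * inner ℝ (K (p + s • η) ζ) ζ := by
    intro ξ hξ s hs ζ
    have hs1 : |s / s₀| ≤ 1 := by rw [abs_div, abs_of_pos hs₀, div_le_one hs₀]; exact hs
    obtain ⟨hs2, hs3⟩ := abs_le.1 hs1
    have key := h.cs_unit (convex_convexHull ℝ W) hO hI
      (lam := ![(1 - s / s₀) / 2, (1 + s / s₀) / 2]) (u := ![p + (-s₀) • η, p + s₀ • η])
      (p := p + s • η) (ξ := ξ)
      (by intro i; fin_cases i <;> simp <;> linarith)
      (by simp only [Fin.sum_univ_two, Matrix.cons_val_zero, Matrix.cons_val_one]; ring)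
      (by intro i; fin_cases i
          · exact hseg _ hm
          · exact hseg _ hpl)
      (by intro i; fin_cases i
          · exact hunit _ hm (by linarith)
          · exact hunit _ hpl hs₀.ne')
      (by simp only [Fin.sum_univ_two, Matrix.cons_val_zero, Matrix.cons_val_one]
          match_scalars
          · ring
          · field_simp; ring)
      (by intro i; fin_cases i
          · have : p + (-s₀) • η - (p + s • η) = (-s₀ - s) • η := by module
            change _ * inner ℝ (p + (-s₀) • η - (p + s • η)) ξ = 0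
            rw [this, real_inner_smul_left, hξ]; ring
          · have : p + s₀ • η - (p + s • η) = (s₀ - s) • η := by module
            change _ * inner ℝ (p + s₀ • η - (p + s • η)) ξ = 0
            rw [this, real_inner_smul_left, hξ]; ring) ζ
    refine key.trans (mul_le_mul_of_nonneg_right ?_
      (h.psd' (hO (hseg s hs)) (hI _ (hseg s hs)) ζ))
    simp only [Fin.sum_univ_two, Matrix.cons_val_zero, Matrix.cons_val_one]
    have a1 := neg_abs_le (focalA S K (p + (-s₀) • η) ξ)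
    have a2 := neg_abs_le (focalA S K (p + s₀ • η) ξ)
    have a3 := abs_nonneg (focalA S K (p + (-s₀) • η) ξ)
    have a4 := abs_nonneg (focalA S K (p + s₀ • η) ξ)
    nlinarith
  have hker : ∀ ζ : V, K p ζ = 0 → ζ = inner ℝ η ζ • η := by
    intro ζ hζ
    have h1 : inner ℝ η (ζ - inner ℝ η ζ • η) = 0 := by
      rw [inner_sub_right, real_inner_smul_right, hηη]; ring
    have h2 := hcs _ h1 0 (by simpa using hs₀.le) ζ
    simp only [zero_smul, add_zero, hζ, inner_zero_left, mul_zero] at h2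
    have h3 := pow_eq_zero_iff two_ne_zero |>.1 (le_antisymm h2 (sq_nonneg _))
    rw [← sub_eq_zero, ← inner_self_eq_zero (𝕜 := ℝ), inner_sub_right, h3, real_inner_smul_right,
      real_inner_comm η (ζ - inner ℝ η ζ • η), h1]
    ring
  have hu : IsUnit (focalK K η p) := focal_isUnit fun μ hμ => by
    rw [focalK_apply] at hμ
    have h1 := congrArg (fun v => inner ℝ v η) hμ
    simp only [inner_add_left, h.symm p (hO hp), hη, inner_zero_right, real_inner_smul_left, hηη,
      inner_zero_left, zero_add, mul_one] at h1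
    rw [h1, zero_smul, add_zero] at hμ
    rw [hker μ hμ, h1, zero_smul]
  have hcont : ContinuousOn (fun s : ℝ => inner ℝ (S (p + s • η) p) p) (Icc (-s₀) s₀) := by
    intro s hs
    have h1 : ContinuousAt (fun s : ℝ => S (p + s • η)) s :=
      ContinuousAt.comp (f := fun s : ℝ => p + s • η) (h.contS' (hO (hseg s (abs_le.2 hs))))
        (by fun_prop)
    exact ((h1.clm_apply continuousAt_const).inner continuousAt_const).continuousWithinAt
  obtain ⟨X, hX⟩ := isCompact_Icc.bddAbove_image hcont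
  refine h.core (hO hp) hu hη1 hpη hp0 hη hs₀ (fun s hs => hI _ (hseg s hs))
    (C := X + (|focalA S K (p + (-s₀) • η) p| + |focalA S K (p + s₀ • η) p|)) fun s hs ζ => ?_
  refine (hcs p (by rw [real_inner_comm, hpη]) s hs ζ).trans (mul_le_mul_of_nonneg_right ?_
    (h.psd' (hO (hseg s hs)) (hI _ (hseg s hs)) ζ))
  have := hX ⟨s, abs_le.1 hs, rfl⟩
  simp only at this
  linarith

end FData

end Vale.Agent.P234
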