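import Vale.Agent.P234.Calc
import Vale.Agent.P234.CalcB

/-! The focal lemma, first part: the quadratic form inequality. -/

open scoped ContDiff Topology
open Filter Set

noncomputable section

namespace Vale.Agent.P234

variable {V : Type*} [NormedAddCommGroup V] [InnerProductSpace ℝ V] [FiniteDimensional ℝ V]
  {I O : Set V} {κ : ℝ} {A : V → V → ℝ} {S K : V → V →L[ℝ] V}

theorem focal_isUnit {B : V →L[ℝ] V} (h : ∀ μ, B μ = 0 → μ = 0) : IsUnit B := by
  have : CompleteSpace V := FiniteDimensional.complete ℝ V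
  have hi : Function.Injective B := (injective_iff_map_eq_zero B).2 h
  exact ContinuousLinearMap.isUnit_iff_bijective.2
    ⟨hi, (LinearMap.injective_iff_surjective (f := (B : V →ₗ[ℝ] V))).1 hi⟩

theorem focal_isUnit_of_surj {B : V →L[ℝ] V} (h : Function.Surjective B) : IsUnit B := by
  have : CompleteSpace V := FiniteDimensional.complete ℝ V
  exact ContinuousLinearMap.isUnit_iff_bijective.2
    ⟨(LinearMap.injective_iff_surjective (f := (B : V →ₗ[ℝ] V))).2 h, h⟩

omit [FiniteDimensional ℝ V] in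
theorem focal_apply_inv {B : V →L[ℝ] V} (h : IsUnit B) (ξ : V) : B (Ring.inverse B ξ) = ξ := by
  have := congrArg (fun C : V →L[ℝ] V => C ξ) (Ring.mul_inverse_cancel B h)
  simpa using this

omit [FiniteDimensional ℝ V] in
theorem focal_inv_apply {B : V →L[ℝ] V} (h : IsUnit B) (ξ : V) : Ring.inverse B (B ξ) = ξ := by
  have := congrArg (fun C : V →L[ℝ] V => C ξ) (Ring.inverse_mul_cancel B h)
  simpa using this

omit [FiniteDimensional ℝ V] in
theorem focal_ker {B : V →L[ℝ] V} (h : IsUnit B) {μ : V} (hμ : B μ = 0) : μ = 0 := by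
  rw [← focal_inv_apply h μ, hμ, map_zero]

/-- the extension of `A` to the points where `K` is invertible -/
def focalA (S K : V → V →L[ℝ] V) (v ξ : V) : ℝ :=
  inner ℝ (S v ξ) ξ - inner ℝ ξ (Ring.inverse (K v) ξ)

omit [FiniteDimensional ℝ V] in
theorem focal_cs {c X Y b : ℝ} (h : ∀ t : ℝ, c ≤ X - 2 * (t * b) + t * t * Y) :
    b ^ 2 ≤ (X - c) * Y := by
  have := discrim_le_zero (a := Y) (b := -2 * b) (c := X - c) fun t => by nlinarith [h t]
  unfold discrim at this
  nlinarith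

omit [FiniteDimensional ℝ V] in
theorem focal_tendsto_smul (p : V) :
    Tendsto (fun s : ℝ => s • p) (𝓝[<] 1) (𝓝 p) := by
  have : Tendsto (fun s : ℝ => s • p) (𝓝 1) (𝓝 ((1 : ℝ) • p)) :=
    (continuous_id.smul continuous_const).tendsto 1
  rw [one_smul] at this
  exact this.mono_left nhdsWithin_le_nhds

theorem focal_ev : ∀ᶠ s : ℝ in 𝓝[<] 1, 0 ≤ s ∧ s < 1 := by
  filter_upwards [Ioo_mem_nhdsLT (show (0 : ℝ) < 1 by norm_num)] with s hs
  exact ⟨hs.1.le, hs.2⟩

namespace FData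

omit [FiniteDimensional ℝ V] in
theorem contK (h : FData I O κ A S K) {v : V} (hv : v ∈ O) : ContinuousAt K v :=
  h.smoothK.continuousOn.continuousAt (h.isOpen.mem_nhds hv)

omit [FiniteDimensional ℝ V] in
theorem contS' (h : FData I O κ A S K) {v : V} (hv : v ∈ O) : ContinuousAt S v :=
  h.contS.continuousAt (h.isOpen.mem_nhds hv)

theorem isUnit (h : FData I O κ A S K) {v : V} (hv : v ∈ I) : IsUnit (K v) :=
  focal_isUnit_of_surj fun ξ => (h.inv v hv ξ).imp fun _ hμ => hμ.1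

theorem eq_focalA (h : FData I O κ A S K) {v : V} (hv : v ∈ I) (ξ : V) :
    A v ξ = focalA S K v ξ := by
  obtain ⟨μ, h1, h2⟩ := h.inv v hv ξ
  rw [h2, focalA]
  congr 2
  rw [← h1, focal_inv_apply (h.isUnit hv)]

theorem continuousAt_focalA (h : FData I O κ A S K) {v : V} (hv : v ∈ O) (hu : IsUnit (K v))
    (ξ : V) : ContinuousAt (fun u => focalA S K u ξ) v := by
  have : CompleteSpace V := FiniteDimensional.complete ℝ V
  obtain ⟨w, hw⟩ := hu
  have h1 : ContinuousAt (fun u => Ring.inverse (K u)) v := by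
    have := NormedRing.inverse_continuousAt w
    rw [hw] at this
    exact ContinuousAt.comp (f := K) this (h.contK hv)
  unfold focalA
  exact (((h.contS' hv).clm_apply continuousAt_const).inner continuousAt_const).sub
    (continuousAt_const.inner (h1.clm_apply continuousAt_const))

omit [FiniteDimensional ℝ V] in
theorem qf_zero (h : FData I O κ A S K) {v : V} (hv : v ∈ I) (ξ μ : V) :
    A v ξ ≤ inner ℝ (S v ξ) ξ - 2 * inner ℝ ξ μ + inner ℝ (K v μ) μ := by
  obtain ⟨ν, h1, h2⟩ := h.inv v hv ξ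
  have h3 := h.psd v hv (μ - ν)
  have h4 := h.symm v (h.sub hv) μ ν
  rw [map_sub, inner_sub_left, inner_sub_right, inner_sub_right, h4, h1] at h3
  rw [h2, real_inner_comm ξ μ] at *
  linarith

omit [FiniteDimensional ℝ V] in
theorem psd' (h : FData I O κ A S K) {p : V} (hp : p ∈ O)
    (hI : ∀ s : ℝ, 0 ≤ s → s < 1 → s • p ∈ I) (μ : V) : 0 ≤ inner ℝ (K p μ) μ := by
  have h1 : Tendsto (fun s : ℝ => inner ℝ (K (s • p) μ) μ) (𝓝[<] 1) (𝓝 (inner ℝ (K p μ) μ)) :=
    (((h.contK hp).clm_apply continuousAt_const).inner continuousAt_const).tendsto.comp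
      (focal_tendsto_smul p)
  refine ge_of_tendsto h1 ?_
  filter_upwards [focal_ev] with s hs using h.psd _ (hI s hs.1 hs.2) μ

theorem qf_unit (h : FData I O κ A S K) {D : Set V} (hD : Convex ℝ D) (hO : D ⊆ O)
    (hI : ∀ p ∈ D, ∀ s : ℝ, 0 ≤ s → s < 1 → s • p ∈ I) {ι : Type*} [Fintype ι] {lam : ι → ℝ}
    {u : ι → V} (h0 : ∀ i, 0 ≤ lam i) (h1 : ∑ i, lam i = 1) (huD : ∀ i, u i ∈ D)
    (huI : ∀ i, IsUnit (K (u i))) {p ξ : V} (hp : ∑ j, lam j • u j = p)
    (hξ : ∀ i, lam i * inner ℝ (u i - p) ξ = 0) (μ : V) :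
    ∑ i, lam i * focalA S K (u i) ξ ≤
      inner ℝ (S p ξ) ξ - 2 * inner ℝ ξ μ + inner ℝ (K p μ) μ := by
  classical
  have hpD : p ∈ D := hp ▸ hD.sum_mem (fun i _ => h0 i) h1 fun i _ => huD i
  have t1 : Tendsto (fun s : ℝ => ∑ i, lam i * focalA S K (s • u i) ξ) (𝓝[<] 1)
      (𝓝 (∑ i, lam i * focalA S K (u i) ξ)) :=
    tendsto_finsetSum _ fun i _ => tendsto_const_nhds.mul
      ((h.continuousAt_focalA (hO (huD i)) (huI i) ξ).tendsto.comp (focal_tendsto_smul (u i)))
  have t2 : Tendsto (fun s : ℝ => inner ℝ (S (s • p) ξ) ξ - 2 * inner ℝ ξ μ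
      + inner ℝ (K (s • p) μ) μ) (𝓝[<] 1)
      (𝓝 (inner ℝ (S p ξ) ξ - 2 * inner ℝ ξ μ + inner ℝ (K p μ) μ)) :=
    (((((h.contS' (hO hpD)).clm_apply continuousAt_const).inner continuousAt_const).sub
      continuousAt_const).add (((h.contK (hO hpD)).clm_apply continuousAt_const).inner
        continuousAt_const)).tendsto.comp (focal_tendsto_smul p)
  refine le_of_tendsto_of_tendsto t1 t2 ?_
  filter_upwards [focal_ev] with s hs
  set C : Set V := (fun q => s • q) '' (D ∩ {q | inner ℝ (q - p) ξ = 0}) with hC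
  have hCc : Convex ℝ C := by
    have : Convex ℝ {q : V | inner ℝ (q - p) ξ = (0 : ℝ)} := by
      intro a ha b hb α β _ _ hαβ
      have e : α • a + β • b - p = α • (a - p) + β • (b - p) := by
        rw [smul_sub, smul_sub]
        calc α • a + β • b - p = α • a + β • b - (α + β) • p := by rw [hαβ, one_smul]
          _ = _ := by rw [add_smul]; abel
      change inner ℝ (α • a + β • b - p) ξ = 0
      rw [e, inner_add_left, real_inner_smul_left, real_inner_smul_left, ha, hb]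
      ring
    exact (hD.inter this).smul s
  have hCI : C ⊆ I := by
    rintro _ ⟨q, hq, rfl⟩
    exact hI q hq.1 s hs.1 hs.2
  have hCξ : ∀ a ∈ C, ∀ b ∈ C, inner ℝ (a - b) ξ = 0 := by
    rintro _ ⟨a, ha, rfl⟩ _ ⟨b, hb, rfl⟩
    have e : s • a - s • b = s • ((a - p) - (b - p)) := by
      rw [← smul_sub]; congr 1; abel
    have ha2 : inner ℝ (a - p) ξ = 0 := ha.2
    have hb2 : inner ℝ (b - p) ξ = 0 := hb.2
    rw [e, real_inner_smul_left, inner_sub_left, ha2, hb2]
    ring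
  have hcc := h.concave ξ C hCc hCI hCξ
  set t : Finset ι := Finset.univ.filter fun i => lam i ≠ 0 with ht
  have s1 : ∑ i ∈ t, lam i = 1 := by rw [ht, Finset.sum_filter_ne_zero, h1]
  have s2 : ∑ i ∈ t, lam i • s • u i = s • p := by
    rw [← hp, Finset.smul_sum, ht, Finset.sum_filter]
    refine Finset.sum_congr rfl fun i _ => ?_
    by_cases hi : lam i = 0
    · simp [hi]
    · simp only [ne_eq, hi, not_false_eq_true, if_true]; exact smul_comm _ _ _
  have j := hcc.le_map_sum (t := t) (w := lam) (p := fun i => s • u i) (fun i _ => h0 i) s1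
    fun i hi => ⟨u i, ⟨huD i, by
      have hi' : lam i ≠ 0 := (Finset.mem_filter.1 hi).2
      exact (mul_eq_zero.1 (hξ i)).resolve_left hi'⟩, rfl⟩
  simp only [s2, smul_eq_mul] at j
  have s3 : ∑ i, lam i * focalA S K (s • u i) ξ = ∑ i ∈ t, lam i * A (s • u i) ξ := by
    rw [ht, Finset.sum_filter]
    refine Finset.sum_congr rfl fun i _ => ?_
    by_cases hi : lam i = 0
    · simp [hi]
    · simp only [ne_eq, hi, not_false_eq_true, if_true]
      rw [h.eq_focalA (hI _ (huD i) s hs.1 hs.2)]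
  change ∑ i, lam i * focalA S K (s • u i) ξ ≤ _
  rw [s3]
  exact j.trans (h.qf_zero (hI p hpD s hs.1 hs.2) ξ μ)

theorem cs_unit (h : FData I O κ A S K) {D : Set V} (hD : Convex ℝ D) (hO : D ⊆ O)
    (hI : ∀ p ∈ D, ∀ s : ℝ, 0 ≤ s → s < 1 → s • p ∈ I) {ι : Type*} [Fintype ι] {lam : ι → ℝ}
    {u : ι → V} (h0 : ∀ i, 0 ≤ lam i) (h1 : ∑ i, lam i = 1) (huD : ∀ i, u i ∈ D)
    (huI : ∀ i, IsUnit (K (u i))) {p ξ : V} (hp : ∑ j, lam j • u j = p)
    (hξ : ∀ i, lam i * inner ℝ (u i - p) ξ = 0) (ζ : V) :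
    inner ℝ ξ ζ ^ 2 ≤
      (inner ℝ (S p ξ) ξ - ∑ i, lam i * focalA S K (u i) ξ) * inner ℝ (K p ζ) ζ := by
  refine focal_cs fun t => ?_
  have := h.qf_unit hD hO hI h0 h1 huD huI hp hξ (t • ζ)
  rw [map_smul, real_inner_smul_right, real_inner_smul_left, real_inner_smul_right] at this
  linarith

end FData

end Vale.Agent.P234
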