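import Vale.Agent.P234.FocalA

/-! The focal lemma, second part: the blow-up at a degenerate point with one dimensional kernel. -/

open scoped ContDiff Topology
open Filter Set

noncomputable section

namespace Vale.Agent.P234

variable {V : Type*} [NormedAddCommGroup V] [InnerProductSpace ℝ V] [FiniteDimensional ℝ V]
  {I O : Set V} {κ : ℝ} {A : V → V → ℝ} {S K : V → V →L[ℝ] V}

/-- the parabolic family of points -/
def focalP (p η : V) (β c s : ℝ) : V := p + (s • (β • η - (s * c) • p))

omit [FiniteDimensional ℝ V] in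
theorem focalP_dir (p η : V) (β c : ℝ) :
    Tendsto (fun s : ℝ => β • η - (s * c) • p) (𝓝[>] 0) (𝓝 (β • η)) := by
  have : Tendsto (fun s : ℝ => β • η - (s * c) • p) (𝓝 0) (𝓝 (β • η - ((0 : ℝ) * c) • p)) :=
    (by fun_prop : Continuous fun s : ℝ => β • η - (s * c) • p).tendsto 0
  simpa using this.mono_left nhdsWithin_le_nhds

omit [FiniteDimensional ℝ V] in
theorem focalP_tendsto (p η : V) (β c : ℝ) : Tendsto (focalP p η β c) (𝓝[>] 0) (𝓝 p) := by
  have : Tendsto (focalP p η β c) (𝓝 0) (𝓝 (focalP p η β c 0)) :=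
    (by unfold focalP; fun_prop : Continuous (focalP p η β c)).tendsto 0
  simpa [focalP] using this.mono_left nhdsWithin_le_nhds

omit [FiniteDimensional ℝ V] in
theorem focalP_eq (p η : V) (β c s : ℝ) :
    focalP p η β c s = (1 - s ^ 2 * c) • p + (s * β) • η := by
  unfold focalP
  module

omit [FiniteDimensional ℝ V] in
theorem focal_taylor {f : V → ℝ} {p η : V} (hf : ContDiffAt ℝ 2 f p) (h0 : f p = 0)
    (h1 : fderiv ℝ f p η = 0) (β c : ℝ) :
    Tendsto (fun s => f (focalP p η β c s) / s ^ 2) (𝓝[>] 0)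
      (𝓝 (D2 f p η η * β ^ 2 / 2 - c * fderiv ℝ f p p)) := by
  set k : ℝ → V := fun s => β • η - (s * c) • p with hk
  have hkt := focalP_dir p η β c
  have t1 : Tendsto (fun s => D2 f p (k s) (k s) / 2 - c * fderiv ℝ f p p) (𝓝[>] 0)
      (𝓝 (D2 f p η η * β ^ 2 / 2 - c * fderiv ℝ f p p)) := by
    have : Tendsto (fun s => D2 f p (k s) (k s)) (𝓝[>] 0) (𝓝 (D2 f p (β • η) (β • η))) :=
      ((D2 f p).continuous₂.tendsto (β • η, β • η)).comp (hkt.prodMk_nhds hkt)
    have e : D2 f p (β • η) (β • η) = D2 f p η η * β ^ 2 := by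
      simp only [map_smul, smul_apply, smul_eq_mul]; ring
    rw [e] at this
    exact (this.div_const 2).sub_const _
  have t2 : Tendsto (fun s => f (focalP p η β c s) / s ^ 2 -
      (D2 f p (k s) (k s) / 2 - c * fderiv ℝ f p p)) (𝓝[>] 0) (𝓝 0) := by
    rw [Metric.tendsto_nhds]
    intro ε hε
    set B : ℝ := (‖β • η‖ + 1) ^ 2 with hB
    have hB0 : 0 < B := by positivity
    have ht := taylor2_uniform hf (ε := ε / (2 * B)) (by positivity)
    have hp : Tendsto (fun s => (p, focalP p η β c s)) (𝓝[>] 0) (𝓝 (p, p)) :=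
      tendsto_const_nhds.prodMk_nhds (focalP_tendsto p η β c)
    have hn : ∀ᶠ s in 𝓝[>] (0 : ℝ), ‖k s‖ < ‖β • η‖ + 1 :=
      hkt.norm.eventually (gt_mem_nhds (lt_add_one _))
    filter_upwards [hp.eventually ht, hn, self_mem_nhdsWithin] with s hs hn hs0
    have hs0 : 0 < s := hs0
    have e1 : focalP p η β c s - p = s • k s := by simp [focalP, hk]
    simp only [e1, h0, sub_zero] at hs
    have e2 : fderiv ℝ f p (s • k s) = -(s ^ 2 * (c * fderiv ℝ f p p)) := by
      simp only [hk, map_smul, map_sub, h1, smul_eq_mul]; ring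
    have e3 : D2 f p (s • k s) (s • k s) = s ^ 2 * D2 f p (k s) (k s) := by
      simp only [map_smul, smul_apply, smul_eq_mul]; ring
    have e4 : ‖s • k s‖ ^ 2 = s ^ 2 * ‖k s‖ ^ 2 := by
      rw [norm_smul, mul_pow, Real.norm_eq_abs, sq_abs]
    rw [e2, e3, e4] at hs
    have hs2 : 0 < s ^ 2 := by positivity
    have e5 : f (focalP p η β c s) / s ^ 2 - (D2 f p (k s) (k s) / 2 - c * fderiv ℝ f p p) =
        (f (focalP p η β c s) - -(s ^ 2 * (c * fderiv ℝ f p p))
          - s ^ 2 * D2 f p (k s) (k s) / 2) / s ^ 2 := by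
      field_simp
      ring
    rw [dist_zero_right, Real.norm_eq_abs, e5, abs_div, abs_of_pos hs2, div_lt_iff₀ hs2]
    refine hs.trans_lt ?_
    have hk2 : ‖k s‖ ^ 2 ≤ B := pow_le_pow_left₀ (norm_nonneg _) hn.le 2
    have : ε / (2 * B) * (s ^ 2 * ‖k s‖ ^ 2) ≤ ε / (2 * B) * (s ^ 2 * B) := by gcongr
    refine this.trans_lt ?_
    have e6 : ε / (2 * B) * (s ^ 2 * B) = ε * s ^ 2 / 2 := by field_simp
    rw [e6]
    have := mul_pos hε hs2
    linarith
  simpa using t2.add t1

/-- the perturbed operator -/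
def focalK (K : V → V →L[ℝ] V) (η v : V) : V →L[ℝ] V := K v + (innerSL ℝ η).smulRight η

/-- its inverse -/
def focalR (K : V → V →L[ℝ] V) (η v : V) : V →L[ℝ] V := Ring.inverse (focalK K η v)

/-- the degenerating eigenvalue -/
def focalL (K : V → V →L[ℝ] V) (η v : V) : ℝ := 1 - inner ℝ (focalR K η v η) η

omit [FiniteDimensional ℝ V] in
theorem focalK_apply (η v μ : V) : focalK K η v μ = K v μ + inner ℝ η μ • η := by
  simp [focalK]

omit [FiniteDimensional ℝ V] in
theorem focal_a {η v : V} (hu : IsUnit (focalK K η v)) :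
    K v (focalR K η v η) = focalL K η v • η := by
  have := focal_apply_inv hu η
  rw [focalK_apply] at this
  rw [focalL, sub_smul, one_smul, real_inner_comm]
  exact eq_sub_of_add_eq this

namespace FData

omit [FiniteDimensional ℝ V] in
theorem focal_b (h : FData I O κ A S K) {η v : V} (hv : v ∈ O) (hu : IsUnit (focalK K η v)) :
    κ * inner ℝ (focalR K η v η) v = focalL K η v * inner ℝ η v := by
  have := h.symm v hv (focalR K η v η) v
  rw [focal_a hu, h.radial v hv, real_inner_smul_left, real_inner_smul_right] at this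
  exact this.symm

omit [FiniteDimensional ℝ V] in
theorem focal_c {η v : V} (hu : IsUnit (focalK K η v)) :
    inner ℝ (K v (focalR K η v η)) (focalR K η v η) = focalL K η v * (1 - focalL K η v) := by
  rw [focal_a hu, real_inner_smul_left, real_inner_comm]
  simp [focalL]

theorem focal_pos (h : FData I O κ A S K) {η v : V} (hη : η ≠ 0) (hv : v ∈ I)
    (hu : IsUnit (focalK K η v)) (hl : focalL K η v < 1) : 0 < focalL K η v := by
  have h1 := h.psd v hv (focalR K η v η)
  rw [focal_c hu] at h1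
  have h2 : 0 ≤ focalL K η v := by
    by_contra hc
    push Not at hc
    nlinarith
  refine h2.lt_of_ne fun h3 => hη ?_
  have h4 := focal_a hu
  rw [← h3, zero_smul] at h4
  have h5 := focal_ker (h.isUnit hv) h4
  have h6 := focal_apply_inv hu η
  change focalK K η v (focalR K η v η) = η at h6
  rw [h5, map_zero] at h6
  exact h6.symm

omit [FiniteDimensional ℝ V] in
theorem focal_d (h : FData I O κ A S K) {η v : V} (hv : v ∈ I) (hu : IsUnit (focalK K η v))
    (hl : focalL K η v ≠ 0) (ξ : V) : A v ξ = inner ℝ (S v ξ) ξ - inner ℝ ξ (focalR K η v ξ)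
      - inner ℝ (focalR K η v η) ξ ^ 2 / focalL K η v := by
  obtain ⟨μ, h1, h2⟩ := h.inv v hv ξ
  have e1 : μ = focalR K η v ξ + inner ℝ η μ • focalR K η v η := by
    have := focal_inv_apply hu μ
    rw [focalK_apply, h1, map_add, map_smul] at this
    exact this.symm
  have e2 : inner ℝ (focalR K η v η) ξ = focalL K η v * inner ℝ η μ := by
    have := h.symm v (h.sub hv) (focalR K η v η) μ
    rw [focal_a hu, h1, real_inner_smul_left] at this
    exact this.symm
  have e3 : inner ℝ ξ μ = inner ℝ ξ (focalR K η v ξ)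
      + inner ℝ η μ * inner ℝ (focalR K η v η) ξ := by
    conv_lhs => rw [e1]
    rw [inner_add_right, real_inner_smul_right, real_inner_comm ξ (focalR K η v η)]
  rw [h2, e3, e2]
  field_simp
  ring

theorem focal_smooth (h : FData I O κ A S K) {η p : V} (hp : p ∈ O)
    (hu : IsUnit (focalK K η p)) : ContDiffAt ℝ 2 (focalR K η) p := by
  have : CompleteSpace V := FiniteDimensional.complete ℝ V
  obtain ⟨w, hw⟩ := hu
  have h1 : ContDiffAt ℝ 2 (focalK K η) p :=
    (h.smoothK.contDiffAt (h.isOpen.mem_nhds hp)).add contDiffAt_const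
  have h2 : ContDiffAt ℝ 2 Ring.inverse (focalK K η p) := hw ▸ contDiffAt_ringInverse ℝ w
  exact h2.comp p h1

theorem focal_ev_unit (h : FData I O κ A S K) {η p : V} (hp : p ∈ O)
    (hu : IsUnit (focalK K η p)) : ∀ᶠ v in 𝓝 p, IsUnit (focalK K η v) := by
  have : CompleteSpace V := FiniteDimensional.complete ℝ V
  have h1 : ContinuousAt (focalK K η) p := (h.contK hp).add continuousAt_const
  exact h1.eventually (Units.isOpen.mem_nhds hu)

end FData

end Vale.Agent.P234
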