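import Vale.Agent.P234.FocalB

/-! The focal lemma, third part: the contradiction. -/

open scoped ContDiff Topology
open Filter Set

noncomputable section

namespace Vale.Agent.P234

variable {V : Type*} [NormedAddCommGroup V] [InnerProductSpace ℝ V] [FiniteDimensional ℝ V]
  {I O : Set V} {κ : ℝ} {A : V → V → ℝ} {S K : V → V →L[ℝ] V}

theorem focal_sq_tendsto (c : ℝ) : Tendsto (fun s : ℝ => 1 - s ^ 2 * c) (𝓝[>] 0) (𝓝 1) := by
  have : Tendsto (fun s : ℝ => 1 - s ^ 2 * c) (𝓝 0) (𝓝 (1 - (0 : ℝ) ^ 2 * c)) :=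
    (by fun_prop : Continuous fun s : ℝ => 1 - s ^ 2 * c).tendsto 0
  simpa using this.mono_left nhdsWithin_le_nhds

namespace FData

theorem focal_G (h : FData I O κ A S K) {η p : V} (hp : p ∈ O) (hu : IsUnit (focalK K η p))
    (hη : ‖η‖ = 1) (hpη : inner ℝ p η = 0) (hl : focalL K η p = 0) (β c : ℝ) :
    Tendsto (fun s => inner ℝ (focalR K η (focalP p η β c s) η) p / s) (𝓝[>] 0) (𝓝 (-β)) := by
  have hP := focalP_tendsto p η β c
  have hR := (h.focal_smooth hp hu).continuousAt
  have hL : ContinuousAt (focalL K η) p :=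
    continuousAt_const.sub ((hR.clm_apply continuousAt_const).inner continuousAt_const)
  have hL' : Tendsto (fun s => focalL K η (focalP p η β c s)) (𝓝[>] 0) (𝓝 0) := by
    have := hL.tendsto.comp hP
    rwa [hl] at this
  have hα := focal_sq_tendsto c
  have t1 : Tendsto (fun s => β * (focalL K η (focalP p η β c s) / κ
      - (1 - focalL K η (focalP p η β c s))) / (1 - s ^ 2 * c)) (𝓝[>] 0)
      (𝓝 (β * (0 / κ - (1 - 0)) / 1)) :=
    (tendsto_const_nhds.mul ((hL'.div_const κ).sub (tendsto_const_nhds.sub hL'))).div hα one_ne_zero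
  have e : β * (0 / κ - (1 - 0)) / 1 = -β := by simp
  rw [e] at t1
  refine t1.congr' ?_
  filter_upwards [hP.eventually (h.focal_ev_unit hp hu), hP.eventually (h.isOpen.mem_nhds hp),
    hα.eventually (lt_mem_nhds (show (0 : ℝ) < 1 by norm_num)), self_mem_nhdsWithin]
    with s h1 h2 h3 h4
  have h4 : 0 < s := h4
  have hb := h.focal_b h2 h1
  have hηη : inner ℝ η η = (1 : ℝ) := by rw [real_inner_self_eq_norm_sq, hη]; norm_num
  have hz : inner ℝ (focalR K η (focalP p η β c s) η) η = 1 - focalL K η (focalP p η β c s) := by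
    simp [focalL]
  generalize focalR K η (focalP p η β c s) η = ζ at hb hz ⊢
  generalize focalL K η (focalP p η β c s) = ℓ at hb hz ⊢
  rw [focalP_eq, inner_add_right, inner_add_right, real_inner_smul_right, real_inner_smul_right,
    real_inner_smul_right, real_inner_smul_right, hz, hηη, real_inner_comm p η, hpη] at hb
  have hκ := h.kpos
  generalize 1 - s ^ 2 * c = α at hb h3 ⊢
  field_simp
  linear_combination (-1 : ℝ) * hb

theorem core (h : FData I O κ A S K) {η p : V} (hp : p ∈ O) (hu : IsUnit (focalK K η p))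
    (hη : ‖η‖ = 1) (hpη : inner ℝ p η = 0) (hp0 : p ≠ 0) (hK : K p η = 0) {s₀ : ℝ} (hs₀ : 0 < s₀)
    (hI : ∀ s : ℝ, |s| ≤ s₀ → ∀ α : ℝ, 0 ≤ α → α < 1 → α • (p + s • η) ∈ I) {C : ℝ}
    (hC : ∀ s : ℝ, |s| ≤ s₀ → ∀ ζ : V, inner ℝ p ζ ^ 2 ≤ C * inner ℝ (K (p + s • η) ζ) ζ) :
    False := by
  have hη0 : η ≠ 0 := by rintro rfl; simp at hη
  have hηη : inner ℝ η η = (1 : ℝ) := by rw [real_inner_self_eq_norm_sq, hη]; norm_num
  have hζ : focalR K η p η = η := by
    have := focal_inv_apply hu η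
    rwa [focalK_apply, hK, zero_add, hηη, one_smul] at this
  have hl : focalL K η p = 0 := by rw [focalL, hζ, hηη, sub_self]
  have hR := h.focal_smooth hp hu
  have hL : ContDiffAt ℝ 2 (focalL K η) p :=
    contDiffAt_const.sub ((hR.clm_apply contDiffAt_const).inner ℝ contDiffAt_const)
  have hU := h.focal_ev_unit hp hu
  have hO : ∀ᶠ v in 𝓝 p, v ∈ O := h.isOpen.mem_nhds hp
  have hl1 : ∀ᶠ v in 𝓝 p, focalL K η v < 1 :=
    hL.continuousAt.eventually (gt_mem_nhds (by rw [hl]; norm_num))
  -- the first derivative vanishes in the direction of the kernel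
  have hd1 : fderiv ℝ (focalL K η) p η = 0 := by
    have hline : Tendsto (fun s : ℝ => p + s • η) (𝓝 0) (𝓝 p) := by
      have : Tendsto (fun s : ℝ => p + s • η) (𝓝 0) (𝓝 (p + (0 : ℝ) • η)) :=
        (by fun_prop : Continuous fun s : ℝ => p + s • η).tendsto 0
      simpa using this
    have hmin : IsLocalMin (fun s : ℝ => focalL K η (p + s • η)) 0 := by
      have hs : ∀ᶠ s : ℝ in 𝓝 0, |s| ≤ s₀ := by
        filter_upwards [Icc_mem_nhds (neg_lt_zero.2 hs₀) hs₀] with s hs using abs_le.2 hs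
      filter_upwards [hline.eventually hU, hline.eventually hO, hline.eventually hl1, hs]
        with s h1 h2 h3 h4
      have h5 := h.psd' h2 (hI s h4) (focalR K η (p + s • η) η)
      rw [focal_c h1] at h5
      simp only [zero_smul, add_zero, hl]
      by_contra hc
      push Not at hc
      nlinarith
    have hder : HasDerivAt (fun s : ℝ => focalL K η (p + s • η)) (fderiv ℝ (focalL K η) p η) 0 := by
      have h1 : HasDerivAt (fun s : ℝ => p + s • η) η 0 := by
        simpa using ((hasDerivAt_id (0 : ℝ)).smul_const η).const_add p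
      have h2 : HasFDerivAt (focalL K η) (fderiv ℝ (focalL K η) p) (p + (0 : ℝ) • η) := by
        simpa using (hL.differentiableAt (by norm_num)).hasFDerivAt
      exact h2.comp_hasDerivAt (0 : ℝ) h1
    exact hmin.hasDerivAt_eq_zero hder
  have hT := focal_taylor hL hl hd1
  have hG := h.focal_G hp hu hη hpη hl
  set a := D2 (focalL K η) p η η with ha
  set b := fderiv ℝ (focalL K η) p p with hb
  have hsm : ∀ᶠ s : ℝ in 𝓝[>] 0, 0 < s ∧ s ≤ s₀ := by
    filter_upwards [Ioc_mem_nhdsGT hs₀] with s hs using hs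
  have hLt : ∀ β c : ℝ, Tendsto (fun s => focalL K η (focalP p η β c s)) (𝓝[>] 0) (𝓝 0) := by
    intro β c
    have := hL.continuousAt.tendsto.comp (focalP_tendsto p η β c)
    rwa [hl] at this
  -- the second derivative is positive
  have ha0 : 0 < a := by
    have t1 := (hG 1 0).pow 2
    have t2 : Tendsto (fun s => C * (focalL K η (focalP p η 1 0 s) / s ^ 2 *
        (1 - focalL K η (focalP p η 1 0 s)))) (𝓝[>] 0)
        (𝓝 (C * ((a * 1 ^ 2 / 2 - 0 * b) * (1 - 0)))) :=
      tendsto_const_nhds.mul ((hT 1 0).mul (tendsto_const_nhds.sub (hLt 1 0)))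
    have t3 : (-1 : ℝ) ^ 2 ≤ C * ((a * 1 ^ 2 / 2 - 0 * b) * (1 - 0)) := by
      refine le_of_tendsto_of_tendsto t1 t2 ?_
      filter_upwards [hsm, (focalP_tendsto p η 1 0).eventually hU] with s hs h1
      have e : focalP p η 1 0 s = p + s • η := by simp [focalP]
      have h2 := hC s (by rw [abs_of_pos hs.1]; exact hs.2) (focalR K η (focalP p η 1 0 s) η)
      rw [← e, focal_c h1, real_inner_comm] at h2
      have hs2 : 0 < s ^ 2 := pow_pos hs.1 2
      rw [div_pow, div_le_iff₀ hs2]
      refine h2.trans_eq ?_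
      have := hs.1.ne'
      field_simp
    have t4 : 0 ≤ a * 1 ^ 2 / 2 - 0 * b := by
      refine ge_of_tendsto (hT 1 0) ?_
      filter_upwards [hsm, (focalP_tendsto p η 1 0).eventually hU,
        (focalP_tendsto p η 1 0).eventually hO, (focalP_tendsto p η 1 0).eventually hl1]
        with s hs h1 h2 h3
      have e : focalP p η 1 0 s = p + s • η := by simp [focalP]
      have h5 := h.psd' h2 (e ▸ hI s (by rw [abs_of_pos hs.1]; exact hs.2))
        (focalR K η (focalP p η 1 0 s) η)
      rw [focal_c h1] at h5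
      refine div_nonneg ?_ (sq_nonneg s)
      by_contra hc
      push Not at hc
      nlinarith
    have t5 : 0 ≤ a := by linarith
    refine t5.lt_of_ne fun h0 => ?_
    rw [← h0] at t3
    norm_num at t3
  -- the radial derivative is not positive
  have hb0 : b ≤ 0 := by
    have t4 : 0 ≤ a * 0 ^ 2 / 2 - 1 * b := by
      refine ge_of_tendsto (hT 0 1) ?_
      filter_upwards [self_mem_nhdsWithin, (focalP_tendsto p η 0 1).eventually hU,
        (focalP_tendsto p η 0 1).eventually hl1,
        (focal_sq_tendsto 1).eventually (lt_mem_nhds (show (0 : ℝ) < 1 by norm_num))]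
        with s hs h1 h3 h4
      have hs : 0 < s := hs
      have h5 : focalP p η 0 1 s ∈ I := by
        have := hI 0 (by simpa using hs₀.le) (1 - s ^ 2 * 1) h4.le (by nlinarith)
        simpa [focalP_eq] using this
      exact div_nonneg (h.focal_pos hη0 h5 h1 h3).le (sq_nonneg s)
    linarith
  have hN : 0 < ‖p‖ ^ 2 := by positivity
  set N := ‖p‖ ^ 2 with hNdef
  set b' := -b / N with hb'
  have hb'0 : 0 ≤ b' := div_nonneg (by linarith) hN.le
  set B := 5 + 2 * b' / a with hB
  have hB5 : 5 ≤ B := by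
    have : 0 ≤ 2 * b' / a := by positivity
    linarith
  -- the points are in `I`
  have hPI : ∀ᶠ s : ℝ in 𝓝[>] 0, ∀ β : ℝ, 1 ≤ β → β ≤ 2 * B → focalP p η β (β / N) s ∈ I := by
    have e1 : ∀ᶠ s : ℝ in 𝓝[>] 0, 1 / 2 < 1 - s ^ 2 * (2 * B / N) :=
      (focal_sq_tendsto _).eventually (lt_mem_nhds (by norm_num))
    have e2 : ∀ᶠ s : ℝ in 𝓝[>] 0, s ∈ Ioc 0 (s₀ / (4 * B)) := Ioc_mem_nhdsGT (by positivity)
    filter_upwards [e1, e2] with s h1 h2 β hβ1 hβ2
    have hs := h2.1
    have h3 : s * (4 * B) ≤ s₀ := (le_div_iff₀ (by positivity)).1 h2.2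
    have h4 : s ^ 2 * (β / N) ≤ s ^ 2 * (2 * B / N) := by gcongr
    have h5 : 0 < s ^ 2 * (β / N) := by positivity
    have hα : 1 / 2 < 1 - s ^ 2 * (β / N) := by linarith
    rw [focalP_eq]
    generalize hαd : 1 - s ^ 2 * (β / N) = α at hα
    have hα0 : 0 < α := by linarith
    have h6 : |s * β / α| ≤ s₀ := by
      rw [abs_of_pos (by positivity), div_le_iff₀ hα0]
      nlinarith
    have := hI _ h6 α hα0.le (by linarith)
    rwa [smul_add, smul_smul, mul_div_cancel₀ _ hα0.ne'] at this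
  -- limit of the quadratic form along the parabolic family
  have hξ : Tendsto (fun s : ℝ => p + s • η) (𝓝[>] 0) (𝓝 p) := by
    have : Tendsto (fun s : ℝ => p + s • η) (𝓝 0) (𝓝 (p + (0 : ℝ) • η)) :=
      (by fun_prop : Continuous fun s : ℝ => p + s • η).tendsto 0
    simpa using this.mono_left nhdsWithin_le_nhds
  set T₀ := inner ℝ (S p p) p - inner ℝ p (focalR K η p p) with hT₀
  have hden : ∀ β : ℝ, 1 ≤ β → 0 < a * β ^ 2 / 2 + b' * β := fun β hβ => by positivity
  have hlim : ∀ β : ℝ, 1 ≤ β → β ≤ 2 * B →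
      Tendsto (fun s => A (focalP p η β (β / N) s) (p + s • η)) (𝓝[>] 0)
        (𝓝 (T₀ - (1 - β) ^ 2 / (a * β ^ 2 / 2 + b' * β))) := by
    intro β hβ1 hβ2
    have hP := focalP_tendsto p η β (β / N)
    have t1 : Tendsto (fun s => inner ℝ (S (focalP p η β (β / N) s) (p + s • η)) (p + s • η))
        (𝓝[>] 0) (𝓝 (inner ℝ (S p p) p)) :=
      (((isBoundedBilinearMap_apply (𝕜 := ℝ) (E := V) (F := V)).continuous.tendsto (S p, p)).comp
        (((h.contS' hp).tendsto.comp hP).prodMk_nhds hξ)).inner hξ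
    have t2 : Tendsto (fun s => inner ℝ (p + s • η)
        (focalR K η (focalP p η β (β / N) s) (p + s • η))) (𝓝[>] 0)
        (𝓝 (inner ℝ p (focalR K η p p))) :=
      hξ.inner (((isBoundedBilinearMap_apply (𝕜 := ℝ) (E := V) (F := V)).continuous.tendsto
        (focalR K η p, p)).comp ((hR.continuousAt.tendsto.comp hP).prodMk_nhds hξ))
    have t3 : Tendsto (fun s => inner ℝ (focalR K η (focalP p η β (β / N) s) η) p / s +
        (1 - focalL K η (focalP p η β (β / N) s))) (𝓝[>] 0) (𝓝 (-β + (1 - 0))) :=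
      (hG β (β / N)).add (tendsto_const_nhds.sub (hLt β (β / N)))
    have t4 := hT β (β / N)
    have e1 : a * β ^ 2 / 2 - β / N * b = a * β ^ 2 / 2 + b' * β := by rw [hb']; ring
    have e2 : -β + (1 - 0) = 1 - β := by ring
    rw [e1] at t4
    rw [e2] at t3
    refine ((t1.sub t2).sub ((t3.pow 2).div t4 (hden β hβ1).ne')).congr' ?_
    filter_upwards [hPI, hP.eventually hU, hP.eventually hl1, self_mem_nhdsWithin]
      with s h1 h2 h3 hs
    have hs : 0 < s := hs
    have h4 := h.focal_pos hη0 (h1 β hβ1 hβ2) h2 h3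
    rw [h.focal_d (h1 β hβ1 hβ2) h2 h4.ne']
    have hz : inner ℝ (focalR K η (focalP p η β (β / N) s) η) η =
        1 - focalL K η (focalP p η β (β / N) s) := by simp [focalL]
    rw [inner_add_right (focalR K η (focalP p η β (β / N) s) η), real_inner_smul_right, hz]
    simp only [Pi.div_apply]
    congr 1
    field_simp
  -- midpoint concavity
  have hmid : ∀ᶠ s : ℝ in 𝓝[>] 0,
      1 / 2 * A (focalP p η 1 (1 / N) s) (p + s • η) +
        1 / 2 * A (focalP p η (2 * B - 1) ((2 * B - 1) / N) s) (p + s • η) ≤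
        A (focalP p η B (B / N) s) (p + s • η) := by
    filter_upwards [hPI] with s h1
    set d : V := s • η - (s ^ 2 / N) • p with hd
    have eP : ∀ β : ℝ, focalP p η β (β / N) s = p + β • d := fun β => by
      rw [focalP_eq, hd]; match_scalars <;> ring
    have hdξ : inner ℝ d (p + s • η) = 0 := by
      rw [hd, inner_sub_left, inner_add_right, inner_add_right, real_inner_smul_left,
        real_inner_smul_left, real_inner_smul_left, real_inner_smul_right, real_inner_smul_left,
        real_inner_smul_right, hηη, real_inner_comm p η, hpη, real_inner_self_eq_norm_sq, ← hNdef]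
      field_simp
      ring
    have hCc : Convex ℝ ((fun β : ℝ => p + β • d) '' Icc 1 (2 * B)) := by
      rintro _ ⟨β, hβ, rfl⟩ _ ⟨γ, hγ, rfl⟩ x y hx hy hxy
      refine ⟨x • β + y • γ, convex_Icc 1 (2 * B) hβ hγ hx hy hxy, ?_⟩
      have : y = 1 - x := by linarith
      subst this
      simp only [smul_eq_mul]
      module
    have hcc := h.concave (p + s • η) _ hCc (by
      rintro _ ⟨β, hβ, rfl⟩
      have := h1 β hβ.1 hβ.2
      rwa [eP β] at this) (by
      rintro _ ⟨β, hβ, rfl⟩ _ ⟨γ, hγ, rfl⟩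
      have : p + β • d - (p + γ • d) = (β - γ) • d := by module
      simp only [this, real_inner_smul_left, hdξ, mul_zero])
    have := @hcc.2 (p + (1 : ℝ) • d) ⟨1, ⟨le_rfl, by linarith⟩, rfl⟩
      (p + (2 * B - 1) • d) ⟨2 * B - 1, ⟨by linarith, by linarith⟩, rfl⟩
      (1 / 2) (1 / 2) (by norm_num) (by norm_num) (by norm_num)
    have e : (1 / 2 : ℝ) • (p + (1 : ℝ) • d) + (1 / 2 : ℝ) • (p + (2 * B - 1) • d) = p + B • d := by
      module
    simp only [e, smul_eq_mul] at this
    rw [eP, eP, eP]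
    exact this
  have hfin := le_of_tendsto_of_tendsto
    ((tendsto_const_nhds.mul (hlim 1 le_rfl (by linarith))).add
      (tendsto_const_nhds.mul (hlim (2 * B - 1) (by linarith) (by linarith))))
    (hlim B (by linarith) (by linarith)) hmid
  have f1 : (1 - (2 * B - 1)) ^ 2 / (a * (2 * B - 1) ^ 2 / 2 + b' * (2 * B - 1)) ≤ 2 / a := by
    rw [div_le_div_iff₀ (hden _ (by linarith)) ha0]
    have : 0 ≤ b' * (2 * B - 1) := mul_nonneg hb'0 (by linarith)
    nlinarith
  have f2 : (1 - B) ^ 2 / (a * B ^ 2 / 2 + b' * B) ≤ 1 / a := by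
    have : (2 : ℝ) / a = 2 * (1 / a) := by ring
    norm_num at hfin
    linarith
  rw [div_le_div_iff₀ (hden _ (by linarith)) ha0] at f2
  have f3 : a * B = 5 * a + 2 * b' := by rw [hB]; field_simp
  have f4 : 0 < a * B := by positivity
  nlinarith

end FData

end Vale.Agent.P234
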