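import Vale.Agent.P234.Basic

/-! Metric consequences of the global structure. -/

open scoped ContDiff Topology
open Filter Set

noncomputable section

namespace Vale.Agent.P234

variable {M : Type*} [MetricSpace M] {T : M → Type*} [∀ x, NormedAddCommGroup (T x)]
  [∀ x, InnerProductSpace ℝ (T x)] {e : ∀ x, T x → M} {r : ℝ}

namespace Geo

/-- subdivide and use `ugeo` -/
theorem dist_le (h : Geo e r) (x : M) (v : T x) (s t : ℝ) :
    dist (e x (s • v)) (e x (t • v)) ≤ |s - t| * ‖v‖ := by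
  have key : ∀ n : ℕ, ∀ s t : ℝ, |s - t| * ‖v‖ < (n + 1) * r →
      dist (e x (s • v)) (e x (t • v)) ≤ |s - t| * ‖v‖ := by
    intro n
    induction n with
    | zero =>
      intro s t hst
      exact (h.ugeo x v s t (by simpa using hst)).le
    | succ n ih =>
      intro s t hst
      have hn : (0 : ℝ) < (n : ℝ) + 2 := by positivity
      have hn1 : (0 : ℝ) < (n : ℝ) + 1 := by positivity
      set c : ℝ := 1 / ((n : ℝ) + 2) with hc
      have hc0 : 0 < c := by positivity
      have hc1 : 1 - c = ((n : ℝ) + 1) * c := by rw [hc]; field_simp; ring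
      have hc2 : ((n : ℝ) + 2) * c = 1 := by rw [hc]; field_simp
      have e1 : |s - (s + c * (t - s))| = c * |s - t| := by
        rw [show s - (s + c * (t - s)) = c * (s - t) by ring, abs_mul, abs_of_pos hc0]
      have e2 : |s + c * (t - s) - t| = ((n : ℝ) + 1) * c * |s - t| := by
        rw [show s + c * (t - s) - t = (1 - c) * (s - t) by ring, abs_mul, hc1,
          abs_of_pos (mul_pos hn1 hc0)]
      have hlt : c * (|s - t| * ‖v‖) < r := by
        have h3 : c * (|s - t| * ‖v‖) < c * (((n : ℝ) + 2) * r) := by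
          apply mul_lt_mul_of_pos_left _ hc0
          push_cast at hst
          linarith
        calc c * (|s - t| * ‖v‖) < c * (((n : ℝ) + 2) * r) := h3
          _ = (((n : ℝ) + 2) * c) * r := by ring
          _ = r := by rw [hc2, one_mul]
      have a1 := (h.ugeo x v s (s + c * (t - s)) (by rw [e1]; linarith)).le
      have a2 := ih (s + c * (t - s)) t (by
        rw [e2]
        have := mul_lt_mul_of_pos_left hlt hn1
        linarith)
      rw [e1] at a1
      rw [e2] at a2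
      have a3 := dist_triangle (e x (s • v)) (e x ((s + c * (t - s)) • v)) (e x (t • v))
      have a4 : c * |s - t| * ‖v‖ + ((n : ℝ) + 1) * c * |s - t| * ‖v‖ = |s - t| * ‖v‖ := by
        calc _ = (((n : ℝ) + 2) * c) * (|s - t| * ‖v‖) := by ring
          _ = _ := by rw [hc2, one_mul]
      linarith
  obtain ⟨n, hn⟩ := exists_nat_gt (|s - t| * ‖v‖ / r)
  refine key n s t ?_
  rw [div_lt_iff₀ h.pos] at hn
  have := h.pos
  linarith

theorem dist_exp_le (h : Geo e r) (x : M) (v : T x) : dist x (e x v) ≤ ‖v‖ := by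
  have := h.dist_le x v 0 1
  simpa [h.zero] using this

theorem locGeo (h : Geo e r) (x : M) (v : T x) : LocGeo (fun s : ℝ => e x (s • v)) ‖v‖ :=
  (h.ugeo x v).locGeo h.pos (norm_nonneg v)

/-- `γ (t₀ + δ) = e p u` with `u` short; `ρ = δ⁻¹ • u`; `between` and `locGeo_ext`. -/
theorem exists_eq_of_locGeo (h : Geo e r) {γ : ℝ → M} {k t₀ : ℝ} {p : M} (hγ : LocGeo γ k)
    (hp : γ t₀ = p) : ∃ ρ : T p, ‖ρ‖ = k ∧ ∀ s : ℝ, γ (t₀ + s) = e p (s • ρ) := by
  have hk := hγ.nonneg
  obtain ⟨δ₀, hδ₀, hd⟩ := hγ t₀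
  have hr := h.pos
  obtain ⟨δ, hδ, hδ1, hδ2⟩ : ∃ δ : ℝ, 0 < δ ∧ δ < δ₀ ∧ δ * k < r := by
    refine ⟨min (δ₀ / 2) (r / (k + 1)), lt_min (by linarith) (by positivity),
      lt_of_le_of_lt (min_le_left _ _) (by linarith), ?_⟩
    have h1 : min (δ₀ / 2) (r / (k + 1)) * k ≤ r / (k + 1) * k :=
      mul_le_mul_of_nonneg_right (min_le_right _ _) hk
    have h2 : r / (k + 1) * k < r := by
      rw [div_mul_eq_mul_div, div_lt_iff₀ (by linarith)]
      nlinarith
    linarith
  have hdd : ∀ s t : ℝ, 0 ≤ s → s ≤ t → t ≤ δ →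
      dist (γ (t₀ + s)) (γ (t₀ + t)) = (t - s) * k := by
    intro s t h0 hst ht
    rw [hd (t₀ + s) (t₀ + t) (by rw [abs_lt]; constructor <;> linarith)
      (by rw [abs_lt]; constructor <;> linarith),
      show t₀ + s - (t₀ + t) = -(t - s) by ring, abs_neg, abs_of_nonneg (by linarith)]
  have h0 : dist p (γ (t₀ + δ)) = δ * k := by
    have := hdd 0 δ le_rfl hδ.le le_rfl
    rwa [add_zero, hp, sub_zero] at this
  obtain ⟨u, hu, heu⟩ := h.surj p (γ (t₀ + δ)) (by rw [h0]; exact hδ2)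
  rw [h0] at hu
  have hn : ‖δ⁻¹ • u‖ = k := by
    rw [norm_smul, hu, Real.norm_eq_abs, abs_of_pos (inv_pos.2 hδ)]
    field_simp
  refine ⟨δ⁻¹ • u, hn, ?_⟩
  have hγ' : LocGeo (fun s : ℝ => γ (t₀ + s)) k := by
    intro t₁
    obtain ⟨η, hη, hh⟩ := hγ (t₀ + t₁)
    refine ⟨η, hη, fun s t hs ht => ?_⟩
    have := hh (t₀ + s) (t₀ + t) (by simpa using hs) (by simpa using ht)
    simpa using this
  have hext := h.toLoc.locGeo_ext hγ' (h.locGeo p (δ⁻¹ • u)) hδ (by
    intro s hs
    have hs1 : s * δ⁻¹ ≤ 1 := by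
      rw [← div_eq_mul_inv, div_le_one hδ]
      exact hs.2
    have hb := h.toLoc.between (x := p) (m := γ (t₀ + s)) (u := u) (by rw [hu]; exact hδ2)
      (τ := s * δ⁻¹) (mul_nonneg hs.1 (inv_pos.2 hδ).le) hs1
      (by
        have := hdd 0 s le_rfl hs.1 hs.2
        rw [add_zero, hp, sub_zero] at this
        rw [this, hu]
        field_simp)
      (by
        rw [heu, hdd s δ hs.1 hs.2 le_rfl, hu]
        field_simp)
    simp only [smul_smul]
    exact hb)
  intro s
  exact congrFun hext s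

theorem flow (h : Geo e r) {x m : M} {v : T x} {θ : ℝ} (hm : e x (θ • v) = m) :
    ∃ ρ : T m, ‖ρ‖ = ‖v‖ ∧ ∀ s : ℝ, e x ((θ + s) • v) = e m (s • ρ) :=
  h.exists_eq_of_locGeo (h.locGeo x v) hm

/-- two geodesics with a common short segment: `flow` at time `s`, then `inj` -/
theorem ray_ext (h : Geo e r) {x x' : M} {q : T x} {q' : T x'} {s : ℝ} (hs : s < 1)
    (h1 : e x (s • q) = e x' (s • q')) (h2 : e x q = e x' q') (hq : (1 - s) * ‖q‖ < r)
    (hq' : (1 - s) * ‖q'‖ < r) (θ : ℝ) : e x (θ • q) = e x' (θ • q') := by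
  obtain ⟨ρ, hρ, hf⟩ := h.flow (x := x) (v := q) (θ := s) rfl
  obtain ⟨ρ', hρ', hf'⟩ := h.flow (x := x') (v := q') (θ := s) h1.symm
  have hs' : 0 < 1 - s := by linarith
  have a1 := hf (1 - s)
  have a2 := hf' (1 - s)
  rw [show s + (1 - s) = 1 by ring, one_smul] at a1 a2
  have a3 : (1 - s) • ρ = (1 - s) • ρ' := by
    refine h.toLoc.inj ?_ ?_ (by rw [← a1, ← a2, h2])
    · rw [norm_smul, Real.norm_eq_abs, abs_of_pos hs', hρ]
      exact hq
    · rw [norm_smul, Real.norm_eq_abs, abs_of_pos hs', hρ']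
      exact hq'
  have a4 : ρ = ρ' := smul_right_injective _ hs'.ne' a3
  have b1 := hf (θ - s)
  have b2 := hf' (θ - s)
  rw [show s + (θ - s) = θ by ring] at b1 b2
  rw [b1, b2, a4]

theorem smul_mem_min (h : Geo e r) {x : M} {v : T x} (hv : v ∈ MinSet e x) {s : ℝ} (h0 : 0 ≤ s)
    (h1 : s ≤ 1) : s • v ∈ MinSet e x := by
  have hv' : dist x (e x v) = ‖v‖ := hv
  have a1 := h.dist_exp_le x (s • v)
  have a2 := h.dist_le x v s 1
  rw [one_smul, abs_of_nonpos (by linarith)] at a2
  have a3 := dist_triangle x (e x (s • v)) (e x v)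
  have a4 : ‖s • v‖ = s * ‖v‖ := by rw [norm_smul, Real.norm_eq_abs, abs_of_nonneg h0]
  change dist x (e x (s • v)) = ‖s • v‖
  linarith

theorem dist_of_min (h : Geo e r) {x : M} {v : T x} (hv : v ∈ MinSet e x) {s t : ℝ} (h0 : 0 ≤ s)
    (hst : s ≤ t) (h1 : t ≤ 1) : dist (e x (s • v)) (e x (t • v)) = (t - s) * ‖v‖ := by
  have a1 : dist x (e x (s • v)) = ‖s • v‖ := h.smul_mem_min hv h0 (hst.trans h1)
  have a2 : dist x (e x (t • v)) = ‖t • v‖ := h.smul_mem_min hv (h0.trans hst) h1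
  rw [norm_smul, Real.norm_eq_abs, abs_of_nonneg h0] at a1
  rw [norm_smul, Real.norm_eq_abs, abs_of_nonneg (h0.trans hst)] at a2
  have a3 := h.dist_le x v s t
  rw [abs_of_nonpos (by linarith)] at a3
  have a4 := dist_triangle x (e x (s • v)) (e x (t • v))
  linarith

theorem short_mem_min (h : Geo e r) {x : M} {v : T x} (hv : ‖v‖ < r) : v ∈ MinSet e x :=
  h.toLoc.dist_exp hv

theorem inj_subset_min (h : Geo e r) (x : M) : Inj e x ⊆ MinSet e x := by
  rintro v ⟨a, ha, hd⟩
  have ha0 : 0 < a := by linarith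
  have hm : a • v ∈ MinSet e x := by
    change dist x (e x (a • v)) = ‖a • v‖
    rw [hd, norm_smul, Real.norm_eq_abs, abs_of_pos ha0]
  have := h.smul_mem_min hm (s := a⁻¹) (inv_pos.2 ha0).le (inv_le_one_of_one_le₀ ha.le)
  rwa [smul_smul, inv_mul_cancel₀ ha0.ne', one_smul] at this

theorem smul_mem_inj (h : Geo e r) {x : M} {v : T x} (hv : v ∈ MinSet e x) {s : ℝ} (h0 : 0 ≤ s)
    (h1 : s < 1) : s • v ∈ Inj e x := by
  rcases h0.eq_or_lt with h0 | h0
  · subst h0
    exact ⟨2, by norm_num, by simp [h.zero]⟩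
  · have hv' : dist x (e x v) = ‖v‖ := hv
    refine ⟨s⁻¹, (one_lt_inv₀ h0).2 h1, ?_⟩
    rw [smul_smul, inv_mul_cancel₀ h0.ne', one_smul, hv', norm_smul, Real.norm_eq_abs,
      abs_of_pos h0, ← mul_assoc, inv_mul_cancel₀ h0.ne', one_mul]

theorem short_mem_inj (h : Geo e r) {x : M} {v : T x} (hv : ‖v‖ < r) : v ∈ Inj e x := by
  have hr := h.pos
  have hn := norm_nonneg v
  have hp : 0 < r + ‖v‖ := by linarith
  have ha : 1 < 2 * r / (r + ‖v‖) := by
    rw [one_lt_div hp]
    linarith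
  have hb : ‖(2 * r / (r + ‖v‖)) • v‖ = 2 * r / (r + ‖v‖) * ‖v‖ := by
    rw [norm_smul, Real.norm_eq_abs, abs_of_pos (by linarith)]
  refine ⟨2 * r / (r + ‖v‖), ha, ?_⟩
  rw [← hb]
  refine h.toLoc.dist_exp ?_
  rw [hb, div_mul_eq_mul_div, div_lt_iff₀ hp]
  nlinarith

theorem exists_smul_mem_inj (h : Geo e r) {x : M} {v : T x} (hv : v ∈ Inj e x) :
    ∃ a : ℝ, 1 < a ∧ ∀ b : ℝ, 0 ≤ b → b ≤ a → b • v ∈ Inj e x := by
  obtain ⟨a, ha, hd⟩ := hv
  have ha0 : 0 < a := by linarith
  have hm : a • v ∈ MinSet e x := by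
    change dist x (e x (a • v)) = ‖a • v‖
    rw [hd, norm_smul, Real.norm_eq_abs, abs_of_pos ha0]
  refine ⟨(1 + a) / 2, by linarith, fun b hb0 hb => ?_⟩
  have := h.smul_mem_inj hm (s := b / a) (div_nonneg hb0 ha0.le)
    (by rw [div_lt_one ha0]; linarith)
  rwa [smul_smul, div_mul_cancel₀ _ ha0.ne'] at this

/-- A local minimum of the broken geodesic functional is a geodesic. With `m₁ = e x ((1 - ε) • u)`
one has `cost x m' / α ≤ cost x m₁ / (α (1 - ε)) + cost m₁ m' / (α ε)` with equality at `m' = e x u`,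
so `crit` applies to the short pieces; use `flow` at time one. -/
theorem u2 (h : Geo e r) {x y : M} {u : T x} (hu : u ∈ MinSet e x) {α β : ℝ} (hα : 0 < α)
    (hβ : 0 < β) (hy : dist (e x u) y < r)
    (hm : IsLocalMin (fun m' => cost x m' / α + cost m' y / β) (e x u)) :
    y = e x ((1 + β / α) • u) := by
  obtain ⟨ρ, hρ, hf⟩ := h.flow (x := x) (v := u) (θ := 1) (m := e x u) (by rw [one_smul])
  obtain ⟨b, hb, heb⟩ := h.surj _ _ hy
  have hr := h.pos
  have hn := norm_nonneg u
  obtain ⟨ε, hε0, hε1, hε2⟩ : ∃ ε : ℝ, 0 < ε ∧ ε < 1 ∧ ε * ‖u‖ < r := by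
    refine ⟨r / (r + ‖u‖ + 1), by positivity, ?_, ?_⟩
    · rw [div_lt_one (by positivity)]
      linarith
    · rw [div_mul_eq_mul_div, div_lt_iff₀ (by positivity)]
      nlinarith
  have hε3 : 0 < 1 - ε := by linarith
  have hm1 : e (e x u) (-ε • ρ) = e x ((1 - ε) • u) := by
    rw [← hf (-ε), sub_eq_add_neg]
  have d1 : dist x (e x ((1 - ε) • u)) = (1 - ε) * ‖u‖ := by
    have := h.dist_of_min hu (s := 0) (t := 1 - ε) le_rfl hε3.le (by linarith)
    rwa [zero_smul, h.zero, sub_zero] at this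
  have d2 : dist (e x ((1 - ε) • u)) (e x u) = ε * ‖u‖ := by
    have := h.dist_of_min hu (s := 1 - ε) (t := 1) hε3.le (by linarith) le_rfl
    rwa [one_smul, sub_sub_cancel] at this
  have d3 : dist x (e x u) = ‖u‖ := hu
  have hc := h.toLoc.crit (m := e x u) (a := -ε • ρ) (b := b)
    (by rw [norm_smul, Real.norm_eq_abs, abs_neg, abs_of_pos hε0, hρ]; exact hε2)
    (by rw [hb]; exact hy) (α := α * ε) (β := β) (by
      rw [hm1, heb]
      refine hm.mono fun m' hm' => ?_
      have s1 := cost_le_split x (e x ((1 - ε) • u)) m' (mul_pos hα hε3) (mul_pos hα hε0)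
      rw [show α * (1 - ε) + α * ε = α by ring] at s1
      have s2 : cost x (e x u) / α = cost x (e x ((1 - ε) • u)) / (α * (1 - ε)) +
          cost (e x ((1 - ε) • u)) (e x u) / (α * ε) := by
        simp only [cost, d1, d2, d3]
        field_simp
        ring
      simp only at hm' ⊢
      linarith)
  have hb' : b = (β / α) • ρ := by
    have h1 : β⁻¹ • b = α⁻¹ • ρ := by
      rw [smul_smul, show (α * ε)⁻¹ * -ε = -α⁻¹ by field_simp, neg_smul] at hc
      exact (neg_add_eq_zero.1 hc).symm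
    calc b = β • β⁻¹ • b := by rw [smul_smul, mul_inv_cancel₀ hβ.ne', one_smul]
      _ = (β / α) • ρ := by rw [h1, smul_smul, div_eq_mul_inv]
  rw [hf, ← hb', heb]

/-- Hopf-Rinow: induction on `N` with `dist x y < N * (r / 2)`, using `mid` and `u2`. -/
theorem hr (h : Geo e r) (x y : M) : ∃ v : T x, ‖v‖ = dist x y ∧ e x v = y := by
  have hr := h.pos
  have key : ∀ n : ℕ, ∀ y : M, dist x y < r + n * (r / 2) →
      ∃ v : T x, ‖v‖ = dist x y ∧ e x v = y := by
    intro n
    induction n with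
    | zero =>
      intro y hy
      exact h.surj x y (by simpa using hy)
    | succ n ih =>
      intro y hy
      by_cases hd : dist x y < r
      · exact h.surj x y hd
      · push Not at hd
        have hd0 : 0 < dist x y := by linarith
        set β : ℝ := r / (2 * dist x y) with hβ
        have hβ0 : 0 < β := by positivity
        have hβ1 : β < 1 := by
          rw [hβ, div_lt_one (by positivity)]
          linarith
        have hβd : β * dist x y = r / 2 := by
          rw [hβ]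
          field_simp
        have hα0 : 0 < 1 - β := by linarith
        obtain ⟨m, hm1, hm2⟩ := h.mid x y (1 - β) hα0.le (by linarith)
        rw [sub_sub_cancel] at hm2
        obtain ⟨u, hu, heu⟩ := ih m (by
          push_cast at hy
          rw [hm1]
          linarith)
        have hmin : u ∈ MinSet e x := by
          change dist x (e x u) = ‖u‖
          rw [heu, hu]
        have hy' := h.u2 (y := y) hmin hα0 hβ0 (by rw [heu, hm2, hβd]; linarith) (by
          rw [heu]
          refine Filter.Eventually.of_forall fun m' => ?_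
          have s1 := cost_le_split x m' y hα0 hβ0
          have s2 : cost x m / (1 - β) + cost m y / β = cost x y / (1 - β + β) := by
            simp only [cost, hm1, hm2]
            field_simp
            ring
          simp only
          linarith)
        refine ⟨(1 + β / (1 - β)) • u, ?_, hy'.symm⟩
        rw [norm_smul, Real.norm_eq_abs, abs_of_pos (by positivity), hu, hm1]
        field_simp
        ring
  obtain ⟨n, hn⟩ := exists_nat_gt (dist x y / (r / 2))
  refine key n y ?_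
  rw [div_lt_iff₀ (by linarith)] at hn
  linarith

theorem norm_lg (h : Geo e r) (p q : M) : ‖lg e p q‖ = dist p q :=
  (Classical.epsilon_spec (h.hr p q)).1

theorem exp_lg (h : Geo e r) (p q : M) : e p (lg e p q) = q :=
  (Classical.epsilon_spec (h.hr p q)).2

theorem lg_mem_min (h : Geo e r) (p q : M) : lg e p q ∈ MinSet e p := by
  change dist p (e p (lg e p q)) = ‖lg e p q‖
  rw [h.exp_lg, h.norm_lg]

theorem lg_self (h : Geo e r) (p : M) : lg e p p = 0 := by
  rw [← norm_eq_zero, h.norm_lg, dist_self]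

/-- Let `a • v` be minimizing, `a > 1` close to one, `z = e x (a • v)`. Then `y = e x v` lies
between `z` and `e x ((1 - ε) • q)`, and between `z` and `e x ((1 - ε) • v)`; `between` and `inj` at
the base point `z` show that these points agree; then `ray_ext` and `inj` at `x`. -/
theorem unique_min (h : Geo e r) {x : M} {v q : T x} (hv : v ∈ Inj e x) (hq : q ∈ MinSet e x)
    (he : e x q = e x v) : q = v := by
  obtain ⟨a, ha, hav⟩ := h.exists_smul_mem_inj hv
  have hr := h.pos
  have hn := norm_nonneg v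
  have dv : dist x (e x v) = ‖v‖ := h.inj_subset_min x hv
  have dq : dist x (e x q) = ‖q‖ := hq
  have hqv : ‖q‖ = ‖v‖ := by rw [← dq, he, dv]
  obtain ⟨ε, hε0, hε1, hε2⟩ : ∃ ε : ℝ, 0 < ε ∧ 1 + ε ≤ a ∧ ε * ‖v‖ < r := by
    refine ⟨min (a - 1) (r / (‖v‖ + 1)), lt_min (by linarith) (by positivity),
      by linarith [min_le_left (a - 1) (r / (‖v‖ + 1))], ?_⟩
    have h1 : min (a - 1) (r / (‖v‖ + 1)) * ‖v‖ ≤ r / (‖v‖ + 1) * ‖v‖ :=
      mul_le_mul_of_nonneg_right (min_le_right _ _) hn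
    have h2 : r / (‖v‖ + 1) * ‖v‖ < r := by
      rw [div_mul_eq_mul_div, div_lt_iff₀ (by linarith)]
      nlinarith
    linarith
  have hε3 : 0 < 1 + ε := by linarith
  have hz : (1 + ε) • v ∈ MinSet e x := h.inj_subset_min x (hav _ hε3.le hε1)
  have nz : ‖(1 + ε) • v‖ = (1 + ε) * ‖v‖ := by
    rw [norm_smul, Real.norm_eq_abs, abs_of_pos hε3]
  have nq : ‖(1 + ε) • q‖ = (1 + ε) * ‖v‖ := by
    rw [norm_smul, Real.norm_eq_abs, abs_of_pos hε3, hqv]
  have dz : dist x (e x ((1 + ε) • v)) = (1 + ε) * ‖v‖ := by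
    rw [← nz]
    exact hz
  have dyz : dist (e x v) (e x ((1 + ε) • v)) = ε * ‖v‖ := by
    have := h.ugeo x v 1 (1 + ε) (by
      rw [show (1 : ℝ) - (1 + ε) = -ε by ring, abs_neg, abs_of_pos hε0]
      exact hε2)
    simp only [one_smul] at this
    rw [this, show (1 : ℝ) - (1 + ε) = -ε by ring, abs_neg, abs_of_pos hε0]
  have hu := h.u2 (y := e x ((1 + ε) • v)) hq one_pos hε0 (by rw [he, dyz]; exact hε2) (by
    rw [he]
    refine Filter.Eventually.of_forall fun m' => ?_
    have s1 := cost_le_split x m' (e x ((1 + ε) • v)) one_pos hε0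
    have s2 : cost x (e x v) / 1 + cost (e x v) (e x ((1 + ε) • v)) / ε =
        cost x (e x ((1 + ε) • v)) / (1 + ε) := by
      simp only [cost, dv, dz, dyz]
      field_simp
    simp only
    linarith)
  rw [div_one] at hu
  have hs : (1 - (1 + ε)⁻¹) * ((1 + ε) * ‖v‖) = ε * ‖v‖ := by
    field_simp
    ring
  have hx := h.ray_ext (x := x) (x' := x) (q := (1 + ε) • q) (q' := (1 + ε) • v) (s := (1 + ε)⁻¹)
    (inv_lt_one_of_one_lt₀ (by linarith))
    (by rw [smul_smul, smul_smul, inv_mul_cancel₀ hε3.ne', one_smul, one_smul, he]) hu.symm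
    (by rw [nq, hs]; exact hε2) (by rw [nz, hs]; exact hε2) (ε / (1 + ε))
  rw [smul_smul, smul_smul, div_mul_cancel₀ _ hε3.ne'] at hx
  have hi := h.toLoc.inj (by rw [norm_smul, Real.norm_eq_abs, abs_of_pos hε0, hqv]; exact hε2)
    (by rw [norm_smul, Real.norm_eq_abs, abs_of_pos hε0]; exact hε2) hx
  exact smul_right_injective _ hε0.ne' hi

theorem lg_exp (h : Geo e r) {x : M} {v : T x} (hv : v ∈ Inj e x) : lg e x (e x v) = v :=
  h.unique_min hv (h.lg_mem_min x _) (h.exp_lg x _)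

theorem fv_min (h : Geo e r) {x : M} {u : T x} (hu : u ∈ MinSet e x)
    (hd : DifferentiableAt ℝ (fun a : T x => cost (e x a) (e x u)) 0) :
    HasFDerivAt (fun a : T x => cost (e x a) (e x u)) (-(innerSL ℝ u)) 0 := by
  refine h.toLoc.fv_of_ray one_pos (fun s h0 h1 => ?_) hd
  have := h.dist_of_min hu h0 h1 le_rfl
  rwa [one_smul] at this

theorem cost_of_min {x : M} {u : T x} (hu : u ∈ MinSet e x) :
    cost x (e x u) = ‖u‖ ^ 2 / 2 := by
  have d : dist x (e x u) = ‖u‖ := hu
  rw [cost, d]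

/-- take `x' = x` -/
theorem sup_min (h : Geo e r) {ψ : M → ℝ} {t : ℝ} (ht : 0 ≤ t) {x : M} {w : T x}
    (hw : w ∈ Sup e ψ t x) : t • w ∈ MinSet e x := by
  have h1 := hw x
  have h2 := h.dist_exp_le x (t • w)
  have h3 : ‖t • w‖ = t * ‖w‖ := by rw [norm_smul, Real.norm_eq_abs, abs_of_nonneg ht]
  have h4 : ‖t • w‖ ^ 2 ≤ dist x (e x (t • w)) ^ 2 := by
    rw [h3, mul_pow]
    simp only [cost] at h1
    linarith
  exact le_antisymm h2 ((pow_le_pow_iff_left₀ (norm_nonneg _) dist_nonneg two_ne_zero).1 h4)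

/-- `cost x' (e x (t • w)) / t ≤ cost x' (e x (s • w)) / s + cost (e x (s • w)) (e x (t • w)) / (t - s)`
and `dist_le` -/
theorem sup_mono (h : Geo e r) {ψ : M → ℝ} {s t : ℝ} (hs : 0 ≤ s) (hst : s ≤ t) {x : M} {w : T x}
    (hw : w ∈ Sup e ψ t x) : w ∈ Sup e ψ s x := by
  rcases hst.eq_or_lt with hst | hst
  · rw [hst]
    exact hw
  intro x'
  rcases hs.eq_or_lt with hs | hs
  · subst hs
    have := cost_nonneg x' (e x ((0 : ℝ) • w))
    simpa using this
  have ht : 0 < t := by linarith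
  have hts : 0 < t - s := by linarith
  have h1 := hw x'
  have h2 := cost_le_split x' (e x (s • w)) (e x (t • w)) hs hts
  rw [show s + (t - s) = t by ring] at h2
  have h3 := h.dist_le x w s t
  rw [abs_of_neg (by linarith), neg_sub] at h3
  have h4 : cost (e x (s • w)) (e x (t • w)) / (t - s) ≤ (t - s) * ‖w‖ ^ 2 / 2 := by
    rw [div_le_iff₀ hts, cost]
    have := pow_le_pow_left₀ dist_nonneg h3 2
    nlinarith
  have h5 : ψ x + t * ‖w‖ ^ 2 / 2 ≤ ψ x' + cost x' (e x (t • w)) / t := by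
    have : cost x' (e x (t • w)) = t * (cost x' (e x (t • w)) / t) := by field_simp
    rw [this] at h1
    refine le_of_mul_le_mul_left ?_ ht
    nlinarith
  have h6 : ψ x + s * ‖w‖ ^ 2 / 2 ≤ ψ x' + cost x' (e x (s • w)) / s := by linarith
  have h7 := mul_le_mul_of_nonneg_left h6 hs.le
  have h8 : s * (cost x' (e x (s • w)) / s) = cost x' (e x (s • w)) := by field_simp
  nlinarith

theorem good_mono (h : Geo e r) {ψ : M → ℝ} {s t : ℝ} (hs : 0 ≤ s) (hst : s ≤ t)
    (hg : Good e ψ t) : Good e ψ s :=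
  fun x _ hw => h.sup_mono hs hst (hg x hw)

end Geo

end Vale.Agent.P234
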