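import Vale.Agent.P234.Hess
import Vale.Agent.P234.Focal
import Vale.Agent.P234.ConvSum

/-! The growth lemma. -/

open scoped ContDiff Topology Pointwise
open Filter Set

noncomputable section

namespace Vale.Agent.P234

variable {M : Type*} [MetricSpace M] [CompactSpace M] {T : M → Type*}
  [∀ x, NormedAddCommGroup (T x)] [∀ x, InnerProductSpace ℝ (T x)]
  [∀ x, FiniteDimensional ℝ (T x)] {e : ∀ x, T x → M} {r : ℝ}

/-- the functions to which the blow-up lemma is applied -/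
def growF (e : ∀ x, T x → M) (x y : M) (τ σ : ℝ) {N : ℕ} (i : Fin N)
    (w : (T x × T x) × (ℝ × (Fin N → T x) × T y)) : ℝ :=
  -(w.2.1 * (cost (e x w.1.1) (e x (w.2.2.1 i)) / σ)) + Ff e x τ (e y w.2.2.2) w.1

namespace Geo

omit [CompactSpace M] [∀ x, FiniteDimensional ℝ (T x)] in
theorem grow_min (h : Geo e r) {ψ : M → ℝ} {x : M} {v : T x} (hv : v ∈ Sup e ψ 1 x) :
    v ∈ MinSet e x := by simpa using h.sup_min zero_le_one hv

/-- The limiting second variation is positive. -/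
theorem second_var (h : Geo e r) (hm : AMTW e) {ψ : M → ℝ} {τ : ℝ} (h0 : 0 < τ) (h1 : τ < 1)
    (hr : ∀ p q : M, (1 - τ) * dist p q < r) {t₀ σ : ℝ} (ht0 : 0 ≤ t₀) (hσ : t₀ < σ) (hσ1 : σ < 1)
    (hg : Good e ψ t₀) {x : M} {ι : Type*} [Fintype ι] {lam : ι → ℝ} {v : ι → T x}
    (hl0 : ∀ i, 0 ≤ lam i) (hl1 : ∑ i, lam i = 1) (hv : ∀ i, v i ∈ Sup e ψ 1 x) {ξ μ : T x}
    (hne : (ξ, μ) ≠ 0) (hξ : ∀ i, t₀ * inner ℝ (v i - ∑ j, lam j • v j) ξ ≤ 0) :
    t₀ * ∑ i, lam i * (Aq e x (σ • v i) ξ / σ) <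
      D2 (Ff e x τ (e x (t₀ • ∑ j, lam j • v j))) (0, t₀ • ∑ j, lam j • v j) (ξ, μ) (ξ, μ) := by
  obtain ⟨O, S, K, hF, hMO, hD2⟩ := h.exists_fdata hm x h0 h1 hr
  have hσ0 : 0 < σ := ht0.trans_lt hσ
  have ht1 : t₀ < 1 := hσ.trans hσ1
  set W : Set (T x) := t₀ • Sup e ψ 1 x with hW
  have hWI : W ⊆ Inj e x := by
    rintro _ ⟨u, hu, rfl⟩
    exact h.smul_mem_inj (h.grow_min hu) ht0 ht1
  have hWc : IsCompact W := (h.isCompact_sup ψ x).smul t₀
  have hDM : convexHull ℝ W ⊆ MinSet e x := by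
    rw [hW, convexHull_smul]
    rintro _ ⟨u, hu, rfl⟩
    exact h.sup_min ht0 (hg x hu)
  have hDI : ∀ p ∈ convexHull ℝ W, ∀ s : ℝ, 0 ≤ s → s < 1 → s • p ∈ Inj e x :=
    fun p hp s hs0 hs1 => h.smul_mem_inj (hDM hp) hs0 hs1
  have huW : ∀ i, t₀ • v i ∈ W := fun i => ⟨v i, hv i, rfl⟩
  have e1 : ∑ j, lam j • t₀ • v j = t₀ • ∑ j, lam j • v j := by
    rw [Finset.smul_sum]
    exact Finset.sum_congr rfl fun j _ => smul_comm _ _ _
  have hpD : t₀ • ∑ j, lam j • v j ∈ convexHull ℝ W :=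
    e1 ▸ (convex_convexHull ℝ W).sum_mem (fun i _ => hl0 i) hl1
      fun i _ => subset_convexHull ℝ W (huW i)
  rw [hD2 _ (hMO (hDM hpD))]
  by_cases hξ0 : ξ = 0
  · have hμ : μ ≠ 0 := by
      rintro rfl
      exact hne (by rw [hξ0]; rfl)
    have := hF.pd hWI hWc (hDM.trans hMO) hDI _ hpD μ hμ
    simpa [hξ0, Aq] using this
  have hsum : ∑ i, lam i * (t₀ * inner ℝ (v i - ∑ j, lam j • v j) ξ) = 0 := by
    have : ∑ i, lam i * (t₀ * inner ℝ (v i - ∑ j, lam j • v j) ξ) =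
        t₀ * inner ℝ (∑ i, lam i • (v i - ∑ j, lam j • v j)) ξ := by
      rw [sum_inner, Finset.mul_sum]
      exact Finset.sum_congr rfl fun i _ => by rw [real_inner_smul_left]; ring
    rw [this]
    simp only [smul_sub, Finset.sum_sub_distrib, ← Finset.sum_smul, hl1, one_smul, sub_self,
      inner_zero_left, mul_zero]
  have hz := (Finset.sum_eq_zero_iff_of_nonpos fun i _ =>
    mul_nonpos_of_nonneg_of_nonpos (hl0 i) (hξ i)).1 hsum
  have hq := hF.qf (convex_convexHull ℝ W) (hDM.trans hMO) hDI hl0 hl1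
    (fun i => subset_convexHull ℝ W (huW i)) (fun i => hWI (huW i)) (ξ := ξ) (fun i => by
      rw [e1, ← smul_sub, real_inner_smul_left]
      exact hz i (Finset.mem_univ i)) μ
  rw [e1] at hq
  refine lt_of_lt_of_le ?_ hq
  have hlt : ∀ i, t₀ * (Aq e x (σ • v i) ξ / σ) < Aq e x (t₀ • v i) ξ := fun i => by
    have := h.mono_inj (h.smul_mem_inj (h.grow_min (hv i)) hσ0.le hσ1) (θ := t₀ / σ)
      (by positivity) ((div_lt_one hσ0).2 hσ) hξ0
    rw [smul_smul, div_mul_cancel₀ _ hσ0.ne'] at this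
    refine lt_of_eq_of_lt ?_ this
    ring
  obtain ⟨i₀, hi₀⟩ : ∃ i, 0 < lam i := by
    by_contra hc
    push Not at hc
    have : ∑ i, lam i ≤ 0 := Finset.sum_nonpos fun i _ => hc i
    linarith
  rw [Finset.mul_sum]
  refine Finset.sum_lt_sum (fun i _ => ?_) ⟨i₀, Finset.mem_univ _, ?_⟩
  · have := mul_le_mul_of_nonneg_left (hlt i).le (hl0 i)
    linarith
  · have := mul_lt_mul_of_pos_left (hlt i₀) hi₀
    linarith

omit [∀ x, FiniteDimensional ℝ (T x)] in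
/-- if `t₀ > 0` take `τ (t₀ + δ) < t₀` and use `sup_min`, `smul_mem_inj`; if `t₀ = 0` use
`exists_bound` and `short_mem_inj` -/
theorem base_inj (h : Geo e r) {ψ : M → ℝ} {τ : ℝ} (h0 : 0 < τ) (h1 : τ < 1) {t₀ : ℝ}
    (ht0 : 0 ≤ t₀) (hg : Good e ψ t₀) : ∃ δ : ℝ, 0 < δ ∧ ∀ x,
      ∀ w ∈ convexHull ℝ (Sup e ψ 1 x), ∀ t : ℝ, 0 ≤ t → |t - t₀| < δ →
      τ • t • w ∈ Inj e x := by
  rcases ht0.eq_or_lt with rfl | hpos
  · obtain ⟨R, hR, -, hw⟩ := h.exists_bound ψ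
    have hr := h.pos
    refine ⟨r / R, by positivity, fun x w hw' t ht hδ => h.short_mem_inj ?_⟩
    rw [sub_zero, abs_of_nonneg ht, lt_div_iff₀ hR] at hδ
    rw [norm_smul, norm_smul, Real.norm_eq_abs, Real.norm_eq_abs, abs_of_pos h0, abs_of_nonneg ht]
    have a1 : t * ‖w‖ ≤ t * R := mul_le_mul_of_nonneg_left (hw x w hw') ht
    have a2 : 0 ≤ t * ‖w‖ := by positivity
    nlinarith
  · refine ⟨(1 - τ) * t₀, mul_pos (by linarith) hpos, fun x w hw t ht hδ => ?_⟩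
    have a1 := (abs_lt.1 hδ).2
    have a2 : τ * t / t₀ < 1 := by
      rw [div_lt_one hpos]
      nlinarith [mul_pos (sq_pos_of_pos (sub_pos.2 h1)) hpos]
    have := h.smul_mem_inj (h.sup_min ht0 (hg x hw)) (s := τ * t / t₀) (by positivity) a2
    rwa [smul_smul, div_mul_cancel₀ _ hpos.ne', ← smul_smul] at this

omit [CompactSpace M] [∀ x, FiniteDimensional ℝ (T x)] in
theorem base_value (h : Geo e r) {τ : ℝ} (h0 : 0 < τ) (h1 : τ < 1) {x : M} {w : T x}
    (hw : τ • w ∈ MinSet e x) (hr : (1 - τ) * ‖w‖ < r) :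
    cost x (e x (τ • w)) / τ + cost (e x (τ • w)) (e x w) / (1 - τ) = ‖w‖ ^ 2 / 2 := by
  have a1 : |τ - 1| = 1 - τ := by rw [abs_sub_comm, abs_of_pos (by linarith)]
  have a2 := h.ugeo x w τ 1 (by rwa [a1])
  simp only [one_smul, a1] at a2
  have a3 : (1 : ℝ) - τ ≠ 0 := by linarith
  rw [cost_of_min hw, norm_smul, Real.norm_eq_abs, abs_of_pos h0, cost, a2]
  field_simp
  ring

omit [CompactSpace M] [∀ x, FiniteDimensional ℝ (T x)] in
theorem hull_short (h : Geo e r) {ψ : M → ℝ} {τ : ℝ} (h1 : τ < 1)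
    (hr : ∀ p q : M, (1 - τ) * dist p q < r) {x : M} {w : T x}
    (hw : w ∈ convexHull ℝ (Sup e ψ 1 x)) : (1 - τ) * ‖w‖ < r := by
  have a1 : (0 : ℝ) < 1 - τ := by linarith
  have : convexHull ℝ (Sup e ψ 1 x) ⊆ Metric.ball 0 (r / (1 - τ)) := by
    refine convexHull_min (fun v hv => ?_) (convex_ball _ _)
    have a2 : dist x (e x v) = ‖v‖ := h.grow_min hv
    rw [mem_ball_zero_iff, lt_div_iff₀ a1, ← a2, mul_comm]
    exact hr _ _
  have a3 := this hw
  rwa [mem_ball_zero_iff, lt_div_iff₀ a1, mul_comm] at a3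

omit [CompactSpace M] [∀ x, FiniteDimensional ℝ (T x)] in
theorem grow_sp (h : Geo e r) {τ : ℝ} (h1 : τ < 1) {x : M} {w : T x} (hr : (1 - τ) * ‖w‖ < r) :
    SP e (e x (τ • w)) (e x w) := by
  refine h.sp_short ?_
  have := h.dist_le x w τ 1
  rw [one_smul, abs_sub_comm, abs_of_pos (by linarith)] at this
  exact this.trans_lt hr

theorem growF_smooth (h : Geo e r) {x y : M} {τ σ t : ℝ} (h1 : τ < 1) {N : ℕ} (i : Fin N)
    {n : Fin N → T x} (hn : n i ∈ Inj e x) {p : T x} (hp : τ • p ∈ Inj e x)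
    (hr : (1 - τ) * ‖p‖ < r) (hy : e x p = y) :
    ContDiffAt ℝ ∞ (growF e x y τ σ i) ((0, p), (t, n, 0)) := by
  have c1 := smooth_comp (h.contDiffAt_cost (h.sp_of_inj hn) (h.zero x) rfl)
    (fun w : (T x × T x) × (ℝ × (Fin N → T x) × T y) => (w.1.1, w.2.2.1 i))
    ((0, p), (t, n, 0)) (by fun_prop) rfl
  have c2 := smooth_comp (h.contDiffAt_cost (h.sp_of_inj hp) (h.zero x) rfl)
    (fun w : (T x × T x) × (ℝ × (Fin N → T x) × T y) => (w.1.1, τ • w.1.2))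
    ((0, p), (t, n, 0)) (by fun_prop) rfl
  have c3 := smooth_comp (h.contDiffAt_cost (hy ▸ h.grow_sp h1 hr) rfl (h.zero y))
    (fun w : (T x × T x) × (ℝ × (Fin N → T x) × T y) => (τ • w.1.2, w.2.2.2))
    ((0, p), (t, n, 0)) (by fun_prop) rfl
  unfold growF Ff
  exact ((contDiffAt_snd.fst.mul (c1.div_const σ)).neg).add
    ((c2.div_const τ).add (c3.div_const (1 - τ)))

theorem growF_deriv (h : Geo e r) {x y q : M} {τ σ t : ℝ} (h0 : 0 < τ) (h1 : τ < 1) (hσ : σ ≠ 0)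
    {N : ℕ} (i : Fin N) {n : Fin N → T x} {b : T y} {a u : T x} {v w : T q} (ha : e x a = q)
    (hv : σ • v ∈ Inj e q) (hn : e x (n i) = e q (σ • v)) (hw : τ • w ∈ Inj e q)
    (hr : (1 - τ) * ‖w‖ < r) (hu : e x (τ • u) = e q (τ • w)) (hb : e y b = e q w) :
    HasFDerivAt (fun z => growF e x y τ σ i (z, (t, n, b)))
      (((innerSL ℝ (t • v - w)).comp (Lmap e x a q)).comp (ContinuousLinearMap.fst ℝ (T x) (T x)))
      (a, u) := by
  have d1 := (h.fv_move ha (h.inj_subset_min q hv) (h.sp_of_inj hv)).comp (a, u)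
    (hasFDerivAt_fst (𝕜 := ℝ) (p := (a, u)))
  have d2 := h.ff_crit h0 h1 ha hw hr hu
  have d3 := (((d1.mul_const σ⁻¹).const_mul t).neg).add d2
  unfold growF
  simp only [hn, hb, div_eq_mul_inv]
  refine d3.congr_fderiv ?_
  ext z
  · simp
    field_simp
    ring
  · simp

theorem growF_D2 (h : Geo e r) {x y : M} {τ σ t : ℝ} (h1 : τ < 1) {N : ℕ} (i : Fin N)
    {n : Fin N → T x} (hn : n i ∈ Inj e x) {p : T x} (hp : τ • p ∈ Inj e x)
    (hr : (1 - τ) * ‖p‖ < r) (hy : e x p = y) (ξ μ : T x) :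
    D2 (fun z => growF e x y τ σ i (z, (t, n, 0))) (0, p) (ξ, μ) (ξ, μ) =
      -(t * (Aq e x (n i) ξ / σ)) + D2 (Ff e x τ y) (0, p) (ξ, μ) (ξ, μ) := by
  have c0 : ContDiffAt ℝ 2 (fun a : T x => cost (e x a) (e x (n i))) 0 :=
    (h.contDiffAt_cost_left (h.sp_of_inj hn) (h.zero x)).of_le Mono_two
  have c1 : ContDiffAt ℝ 2 (fun z : T x × T x => cost (e x z.1) (e x (n i))) (0, p) :=
    ContDiffAt.comp (f := fun z : T x × T x => z.1) (0, p) c0 contDiffAt_fst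
  have c2 : ContDiffAt ℝ 2 (Ff e x τ y) (0, p) :=
    (h.ff_smooth (by rw [h.zero]; exact h.sp_of_inj hp) (hy ▸ h.grow_sp h1 hr)).of_le Mono_two
  have e1 : (fun z => growF e x y τ σ i (z, (t, n, 0))) =
      fun z : T x × T x => (-(t / σ)) * cost (e x z.1) (e x (n i)) + Ff e x τ y z := by
    funext z
    simp only [growF, h.zero]
    ring
  have e2 := D2_comp_clm (f := fun a : T x => cost (e x a) (e x (n i)))
    (ContinuousLinearMap.fst ℝ (T x) (T x)) 0 (b := (0, p)) (by simpa using c0) (ξ, μ) (ξ, μ)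
  simp only [ContinuousLinearMap.coe_fst', add_zero] at e2
  rw [e1, D2_add (contDiffAt_const.mul c1) c2, D2_const_mul c1]
  simp only [add_apply, smul_apply, smul_eq_mul, e2, Aq]
  ring

theorem growth (h : Geo e r) (hm : AMTW e) {ψ : M → ℝ} (hψ : Continuous ψ) {τ : ℝ} (h0 : 0 < τ)
    (h1 : τ < 1) (hr : ∀ p q : M, (1 - τ) * dist p q < r) {t₀ : ℝ} (ht0 : 0 ≤ t₀) (ht1 : t₀ < 1)
    (hg : Good e ψ t₀) : ∃ δ : ℝ, 0 < δ ∧ ∀ x, ∀ w ∈ convexHull ℝ (Sup e ψ 1 x), ∀ t : ℝ,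
      0 ≤ t → t ≤ 1 → |t - t₀| < δ → ∀ x' m' : M, dist x' x < δ →
      dist m' (e x (τ • t • w)) < δ → (x', m') ≠ (x, e x (τ • t • w)) →
      t * ψ x + t ^ 2 * ‖w‖ ^ 2 / 2 <
        t * ψ x' + (cost x' m' / τ + cost m' (e x (t • w)) / (1 - τ)) := by
  by_contra hcon
  push Not at hcon
  choose xs ws hws ts ht0s ht1s htδ xs' ms' hxδ hmδ hne hle using
    fun k : ℕ => hcon (1 / ((k : ℝ) + 1)) (by positivity)
  obtain ⟨δ₁, hδ₁, hbase⟩ := h.base_inj h0 h1 ht0 hg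
  set U : Ultrafilter ℕ := Ultrafilter.of atTop with hU
  have hδ : Tendsto (fun k : ℕ => 1 / ((k : ℝ) + 1)) U (𝓝 0) :=
    tendsto_one_div_add_atTop_nhds_zero_nat.mono_left (Ultrafilter.of_le _)
  obtain ⟨x, -, hx⟩ := isCompact_univ.ultrafilter_le_nhds (U.map xs) (by simp)
  have hx : Tendsto xs U (𝓝 x) := hx
  obtain ⟨N, lam, vs, lam₀, v, hl0, hl1, hvs, hrep, hl00, hl01, hv, hlam, hcv, hcw⟩ :=
    h.exists_conv_rep hψ U hx hws
  set w := ∑ i, lam₀ i • v i with hw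
  have hwD : w ∈ convexHull ℝ (Sup e ψ 1 x) :=
    (convex_convexHull ℝ _).sum_mem (fun i _ => hl00 i) hl01
      fun i _ => subset_convexHull ℝ _ (hv i)
  have ht : Tendsto ts U (𝓝 t₀) := by
    rw [tendsto_iff_dist_tendsto_zero]
    exact squeeze_zero (fun _ => dist_nonneg) (fun k => (htδ k).le) hδ
  have hx' : Tendsto xs' U (𝓝 x) :=
    hx.congr_dist (squeeze_zero (fun _ => dist_nonneg)
      (fun k => by rw [dist_comm]; exact (hxδ k).le) hδ)
  have hy : Tendsto (fun k => e (xs k) (ts k • ws k)) U (𝓝 (e x (t₀ • w))) :=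
    h.conv_tendsto hcw ht
  have hms : Tendsto (fun k => e (xs k) (τ • ts k • ws k)) U (𝓝 (e x (τ • t₀ • w))) := by
    simpa only [smul_smul] using h.conv_tendsto hcw (ht.const_mul τ)
  have hms' : Tendsto ms' U (𝓝 (e x (τ • t₀ • w))) :=
    hms.congr_dist (squeeze_zero (fun _ => dist_nonneg)
      (fun k => by rw [dist_comm]; exact (hmδ k).le) hδ)
  set σ := (1 + t₀) / 2 with hσ
  have hσ0 : 0 < σ := by positivity
  have hσ1 : σ < 1 := by linarith
  have hσt : t₀ < σ := by linarith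
  have hpI : τ • t₀ • w ∈ Inj e x := h.smul_mem_inj (h.sup_min ht0 (hg x hwD)) h0.le h1
  have hshort : ∀ {z : M} {u : T z} {t : ℝ}, u ∈ convexHull ℝ (Sup e ψ 1 z) → 0 ≤ t → t ≤ 1 →
      (1 - τ) * ‖t • u‖ < r := fun {z u t} hu a1 a2 => by
    refine lt_of_le_of_lt ?_ (h.hull_short h1 hr hu)
    rw [norm_smul, Real.norm_eq_abs, abs_of_nonneg a1]
    exact mul_le_mul_of_nonneg_left (mul_le_of_le_one_left (norm_nonneg _) a2) (by linarith)
  have hvI : ∀ i, σ • v i ∈ Inj e x := fun i => h.smul_mem_inj (h.grow_min (hv i)) hσ0.le hσ1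
  have hlg : ∀ {z : M} {u : T z}, u ∈ Inj e z → ∀ {f : ℕ → M}, Tendsto f U (𝓝 (e z u)) →
      Tendsto (fun k => lg e z (f k)) U (𝓝 u) := fun {z u} hu f hf => by
    have := (h.continuousAt_lg hu).tendsto.comp hf
    rwa [h.lg_exp hu] at this
  have h0I : ∀ z : M, (0 : T z) ∈ Inj e z := fun z => h.short_mem_inj (by simpa using h.pos)
  have hτu : ∀ {f : ℕ → M}, Tendsto f U (𝓝 (e x (τ • t₀ • w))) →
      Tendsto (fun k => τ⁻¹ • lg e x (f k)) U (𝓝 (t₀ • w)) := fun {f} hf => by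
    have := (hlg hpI hf).const_smul τ⁻¹
    rwa [inv_smul_smul₀ h0.ne'] at this
  have hτe : ∀ m : M, e x (τ • τ⁻¹ • lg e x m) = m := fun m => by
    rw [smul_inv_smul₀ h0.ne', h.exp_lg]
  have hev : ∀ᶠ k in U, τ • ts k • ws k ∈ Inj e (xs k) := by
    filter_upwards [hδ.eventually (gt_mem_nhds hδ₁)] with k hk
    exact hbase _ _ (hws k) _ (ht0s k) ((htδ k).trans hk)
  obtain ⟨⟨ξ, μ⟩, hne0, hfirst, hsecond⟩ := blowup U
    (F := fun i => growF e x (e x (t₀ • w)) τ σ i) (a := (0, t₀ • w))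
    (p := (t₀, fun i => σ • v i, 0))
    (fun i => (h.growF_smooth h1 i (hvI i) hpI (hshort hwD ht0 ht1.le) rfl).of_le Mono_two)
    (zs := fun k => (lg e x (xs k), τ⁻¹ • lg e x (e (xs k) (τ • ts k • ws k))))
    (zs' := fun k => (lg e x (xs' k), τ⁻¹ • lg e x (ms' k)))
    (ps := fun k => (ts k, fun i => lg e x (e (xs k) (σ • vs i k)),
      lg e (e x (t₀ • w)) (e (xs k) (ts k • ws k))))
    ((hlg (h0I x) (by rwa [h.zero])).prodMk_nhds (hτu hms))
    ((hlg (h0I x) (by rwa [h.zero])).prodMk_nhds (hτu hms'))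
    (ht.prodMk_nhds ((tendsto_pi_nhds.2 fun i => hlg (hvI i) ((hcv i).2.2 σ)).prodMk_nhds
      (hlg (h0I _) (by rwa [h.zero]))))
    (Eventually.of_forall fun k hk => hne k (by
      have a1 := congrArg (fun z : T x × T x => e x z.1) hk
      have a2 := congrArg (fun z : T x × T x => e x (τ • z.2)) hk
      simp only [h.exp_lg, hτe] at a1 a2
      rw [a1, a2]))
    hl0 hlam (fun i => by
      filter_upwards [hev] with k hk
      have a1 := h.base_value h0 h1 (h.inj_subset_min _ hk) (hshort (hws k) (ht0s k) (ht1s k))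
      have a2 := h.sup_mono hσ0.le hσ1.le (hvs i k) (xs' k)
      have a3 := cost_of_min (h.smul_mem_min (h.grow_min (hvs i k)) hσ0.le hσ1.le)
      have a4 := hle k
      rw [norm_smul, Real.norm_eq_abs, mul_pow, sq_abs] at a1 a3
      simp only [growF, Ff, h.exp_lg, hτe]
      rw [a1, a3]
      have a5 : ψ (xs k) - ψ (xs' k) + σ ^ 2 * ‖vs i k‖ ^ 2 / 2 / σ ≤
          cost (xs' k) (e (xs k) (σ • vs i k)) / σ := by
        rw [le_div_iff₀ hσ0]
        have : σ ^ 2 * ‖vs i k‖ ^ 2 / 2 / σ * σ = σ ^ 2 * ‖vs i k‖ ^ 2 / 2 := by field_simp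
        nlinarith
      have a6 := mul_le_mul_of_nonneg_left a5 (ht0s k)
      linarith)
    (by
      filter_upwards [hev] with k hk
      have a1 : ∀ i, fderiv ℝ (fun z => growF e x (e x (t₀ • w)) τ σ i (z, (ts k,
          fun i => lg e x (e (xs k) (σ • vs i k)), lg e (e x (t₀ • w)) (e (xs k) (ts k • ws k)))))
          (lg e x (xs k), τ⁻¹ • lg e x (e (xs k) (τ • ts k • ws k))) = _ := fun i =>
        (h.growF_deriv h0 h1 hσ0.ne' i (h.exp_lg _ _)
          (h.smul_mem_inj (h.grow_min (hvs i k)) hσ0.le hσ1) (h.exp_lg _ _) hk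
          (hshort (hws k) (ht0s k) (ht1s k)) (hτe _) (h.exp_lg _ _)).fderiv
      simp only [a1]
      refine ContinuousLinearMap.ext fun z => ?_
      have a2 : ∑ i, lam k i • (ts k • vs i k - ts k • ws k) = 0 := by
        simp only [smul_sub, Finset.sum_sub_distrib, ← Finset.sum_smul, hl1 k, one_smul]
        rw [sub_eq_zero, hrep k, Finset.smul_sum]
        exact Finset.sum_congr rfl fun j _ => smul_comm _ _ _
      have a3 := congrArg (fun u => inner ℝ u (Lmap e x (lg e x (xs k)) (xs k) z.1)) a2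
      simp only [sum_inner, real_inner_smul_left, inner_zero_left] at a3
      simpa [inner_sub_left, real_inner_smul_left] using a3)
  have hξ : ∀ i, t₀ * inner ℝ (v i - w) ξ ≤ 0 := fun i => by
    have a1 := hfirst i
    rw [(h.growF_deriv h0 h1 hσ0.ne' i (h.zero x) (hvI i) rfl hpI (hshort hwD ht0 ht1.le) rfl
      (h.zero _)).fderiv, h.Lmap_zero, ← smul_sub] at a1
    simpa [inner_sub_left] using a1
  have key := h.second_var hm h0 h1 hr ht0 hσt hσ1 hg hl00 hl01 hv hne0 hξ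
  have a8 := fun i => h.growF_D2 (σ := σ) (t := t₀) h1 i (n := fun i => σ • v i) (hvI i) hpI
    (hshort hwD ht0 ht1.le) rfl ξ μ
  simp only [a8, mul_add,
    Finset.sum_add_distrib, ← Finset.sum_mul, hl01, one_mul] at hsecond
  rw [← hw, Finset.mul_sum] at key
  have a7 : ∑ i, lam₀ i * -(t₀ * (Aq e x (σ • v i) ξ / σ)) =
      -∑ i, t₀ * (lam₀ i * (Aq e x (σ • v i) ξ / σ)) := by
    rw [← Finset.sum_neg_distrib]
    exact Finset.sum_congr rfl fun i _ => by ring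
  linarith

end Geo

end Vale.Agent.P234
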