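import Vale.Agent.P234.Inj

/-! The data of the focal lemma. -/

open scoped ContDiff Topology
open Filter Set

noncomputable section

namespace Vale.Agent.P234

variable {M : Type*} [MetricSpace M] [CompactSpace M] {T : M → Type*}
  [∀ x, NormedAddCommGroup (T x)] [∀ x, InnerProductSpace ℝ (T x)]
  [∀ x, FiniteDimensional ℝ (T x)] {e : ∀ x, T x → M} {r : ℝ}

theorem hess_two : (2 : WithTop ℕ∞) ≤ ∞ := by
  exact ENat.LEInfty.out

theorem hess_blocks {V : Type*} [NormedAddCommGroup V] [InnerProductSpace ℝ V]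
    [FiniteDimensional ℝ V] (F : V → V × V → ℝ) (O : Set V)
    (hF : ∀ v ∈ O, ContDiffAt ℝ ∞ (fun w : (V × V) × V => F w.2 w.1) ((0, v), v))
    (i : V →L[ℝ] V × V) : ∃ K : V → V →L[ℝ] V, (∀ v ∈ O, ContDiffAt ℝ ∞ K v) ∧
      ∀ v ξ η, inner ℝ (K v ξ) η = D2 (F v) (0, v) (i ξ) (i η) := by
  obtain ⟨sh, hsh, -⟩ := smooth_sharp V
  refine ⟨fun v => sh.comp (((ContinuousLinearMap.compL ℝ V (V × V) ℝ).flip i).comp
    ((D2 (F v) (0, v)).comp i)), fun v hv => ?_, fun v ξ η => by simp [hsh]⟩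
  have h1 := smooth_comp (contDiffAt_D2_fst (hF v hv)) (fun u : V => (((0 : V), u), u)) v
    (by fun_prop) rfl
  exact contDiffAt_const.clm_comp (contDiffAt_const.clm_comp (h1.clm_comp contDiffAt_const))

namespace Geo

/-- On a segment `u + s • η` of `C` the function `φ s = Aq e x (u + s • η) ξ` is smooth
(`contDiffAt_Aq`); by `D2_line` and `isOpen_inj` its second derivative at `s₀` is the expression of
`AMTW` at `u + s₀ • η`; use `concaveOn_of_deriv2_nonpos`. -/
theorem concave_Aq (h : Geo e r) (hm : AMTW e) {x : M} (ξ : T x) (C : Set (T x)) (hC : Convex ℝ C)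
    (hI : C ⊆ Inj e x) (hξ : ∀ u ∈ C, ∀ u' ∈ C, inner ℝ (u - u') ξ = 0) :
    ConcaveOn ℝ C (fun u => Aq e x u ξ) := by
  refine ⟨hC, fun u hu u' hu' a b ha hb hab => ?_⟩
  set η := u' - u with hη
  have hmem : ∀ s ∈ Icc (0 : ℝ) 1, u + s • η ∈ Inj e x := fun s hs =>
    hI (hC.add_smul_sub_mem hu hu' hs)
  have hsm : ∀ s ∈ Icc (0 : ℝ) 1, ContDiffAt ℝ ∞ (fun s : ℝ => Aq e x (u + s • η) ξ) s :=
    fun s hs => smooth_comp (h.contDiffAt_Aq (hmem s hs) ξ) (fun s : ℝ => u + s • η) s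
      (by fun_prop) rfl
  have hc : ConcaveOn ℝ (Icc (0 : ℝ) 1) (fun s : ℝ => Aq e x (u + s • η) ξ) := by
    refine concaveOn_of_deriv2_nonpos' (convex_Icc 0 1)
      (fun s hs => ((hsm s hs).differentiableAt (by simp)).differentiableWithinAt)
      (fun s hs => (((hsm s hs).derivWithin (m := 1) (by
        rw [one_add_one_eq_two]; exact hess_two)).differentiableAt
        (by simp)).differentiableWithinAt) fun s hs => ?_
    have h1 := hm x _ (hmem s hs) ξ η (by rw [real_inner_comm]; exact hξ u' hu' u hu)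
    have h2 := congrFun (iteratedDeriv_comp_const_add 2 (fun s : ℝ => Aq e x (u + s • η) ξ) s) 0
    rw [add_zero] at h2
    rw [← iteratedDeriv_eq_iterate, ← h2]
    refine le_trans (le_of_eq (Filter.EventuallyEq.iteratedDeriv_eq 2 ?_)) h1
    have h3 : ContinuousAt (fun t : ℝ => u + s • η + t • η) 0 := by fun_prop
    have h4 : ∀ᶠ t : ℝ in 𝓝 0, u + s • η + t • η ∈ Inj e x :=
      h3.eventually ((h.isOpen_inj x).mem_nhds (by simpa using hmem s hs))
    filter_upwards [h4] with t ht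
    have h5 := D2_line ((h.contDiffAt_cost_left (h.sp_of_inj ht) (h.zero x)).of_le hess_two) ξ
    simp only [zero_add] at h5
    rw [h5, add_smul, ← add_assoc]
    rfl
  have h6 := hc.2 (left_mem_Icc.2 zero_le_one) (right_mem_Icc.2 zero_le_one) ha hb hab
  have e1 : u + (a • (0 : ℝ) + b • (1 : ℝ)) • η = a • u + b • u' := by
    obtain rfl : a = 1 - b := by linarith
    rw [hη]
    simp only [smul_eq_mul]
    module
  have e2 : u + (1 : ℝ) • η = u' := by
    rw [hη]
    module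
  simp only [e1, e2, zero_smul, add_zero] at h6
  exact h6

theorem hess_lg_eq (h : Geo e r) {p q : M} (hs : SP e p q) {u : T p} (hu : u ∈ MinSet e p)
    (he : e p u = q) : lg e p q = u := by
  subst he
  have hd := (h.contDiffAt_cost_left hs (h.zero p)).differentiableAt (by simp)
  exact smooth_innerSL_inj (neg_injective ((h.smooth_fderiv_eq hd).symm.trans
    (h.fv_min hu hd).fderiv))

theorem hess_ff_smooth (h : Geo e r) {x y : M} {τ : ℝ} {v : T x} (h1 : SP e x (e x (τ • v)))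
    (h2 : SP e (e x (τ • v)) y) : ContDiffAt ℝ ∞ (Ff e x τ y) (0, v) :=
  h.ff_smooth (by rwa [h.zero]) h2

omit [CompactSpace M] [∀ x, FiniteDimensional ℝ (T x)] in
theorem hess_sp_short (h : Geo e r) {x : M} {τ : ℝ} (h1 : τ < 1) {v : T x}
    (hr : (1 - τ) * ‖v‖ < r) : SP e (e x (τ • v)) (e x v) := by
  refine h.sp_short ?_
  have := h.dist_le x v τ 1
  rw [one_smul, abs_sub_comm, abs_of_pos (by linarith)] at this
  linarith

/-- With `y = e x v`, the map `u ξ = τ⁻¹ • lg e x (e y ((1 - τ) • lg e y (e x ξ)))` is smooth at zero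
(`contDiffAt_lg`), `u 0 = v` (`flow`, `unique_min`, `lg_exp`), and
`G z = Ff e x τ y z - cost (e x z.1) y ≥ 0` vanishes on its graph. Apply `D2_graph` with
`μ = fderiv u 0 ξ` and test against ` (0, ν)` and ` (ξ, 0)`. -/
theorem ff_inv (h : Geo e r) {x : M} {v : T x} (hv : v ∈ Inj e x) {τ : ℝ} (h0 : 0 < τ) (h1 : τ < 1)
    (ξ : T x) : ∃ μ : T x,
      (∀ ν : T x, D2 (Ff e x τ (e x v)) (0, v) (0, μ) (0, ν) = inner ℝ ξ ν) ∧
      Aq e x v ξ = Aq e x (τ • v) ξ / τ - inner ℝ ξ μ := by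
  have hvm := h.inj_subset_min x hv
  have hτ := h.smul_mem_inj hvm h0.le h1
  have s1 := h.sp_of_inj hτ
  have s2 : SP e (e x (τ • v)) (e x v) := by
    have := h.sp_sub hv h0.le h1.le le_rfl
    rwa [one_smul] at this
  have s3 := h.sp_of_inj hv
  set y := e x v with hy
  obtain ⟨ρ, hρ, hfl⟩ := h.flow (x := x) (m := y) (v := v) (θ := 1) (by rw [one_smul])
  have e1 : e y (-ρ) = x := by
    have := hfl (-1)
    rw [add_neg_cancel, zero_smul, h.zero, neg_one_smul] at this
    exact this.symm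
  have e2 : lg e y x = -ρ := by
    refine h.hess_lg_eq s3.symm ?_ e1
    show dist y (e y (-ρ)) = ‖-ρ‖
    rw [e1, norm_neg, hρ, dist_comm]
    exact hvm
  have e3 : e y ((1 - τ) • lg e y (e x 0)) = e x (τ • v) := by
    have := hfl (τ - 1)
    rw [add_sub_cancel] at this
    rw [this, h.zero, e2, smul_neg, ← neg_smul, neg_sub]
  set u : T x → T x := fun a => τ⁻¹ • lg e x (e y ((1 - τ) • lg e y (e x a))) with hu
  have hus : ContDiffAt ℝ ∞ u 0 :=
    (smooth_comp (h.contDiffAt_lg s1 e3) (fun a : T x => (1 - τ) • lg e y (e x a)) 0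
      ((h.contDiffAt_lg s3.symm (h.zero x)).const_smul (1 - τ)) rfl).const_smul τ⁻¹
  have hu0 : u 0 = v := by
    simp only [hu]
    rw [e3, h.lg_exp hτ, smul_smul, inv_mul_cancel₀ h0.ne', one_smul]
  have hF := h.hess_ff_smooth s1 s2
  have hc0 := h.contDiffAt_cost_left s3 (h.zero x)
  have hc : ContDiffAt ℝ ∞ (fun z : T x × T x => cost (e x z.1) y) (0, v) :=
    smooth_comp hc0 (fun z : T x × T x => z.1) (0, v) contDiffAt_fst rfl
  have hz : ∀ a, Ff e x τ y (a, u a) - cost (e x a) y = 0 := by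
    intro a
    have m1 := h.lg_mem_min y (e x a)
    have c1 := h.dist_of_min m1 (s := 1 - τ) (t := 1) (by linarith) (by linarith) le_rfl
    have c2 := h.dist_of_min m1 (s := 0) (t := 1 - τ) le_rfl (by linarith) (by linarith)
    rw [one_smul, h.exp_lg, h.norm_lg, dist_comm] at c1
    rw [zero_smul, h.zero, h.norm_lg, dist_comm] at c2
    have h1' : 1 - τ ≠ 0 := by linarith
    simp only [Ff, hu, smul_smul, mul_inv_cancel₀ h0.ne', one_smul, h.exp_lg, cost]
    rw [c1, c2, dist_comm (e x a) y]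
    field_simp
    ring
  have hz0 : Ff e x τ y (0, v) - cost (e x 0) y = 0 := hu0 ▸ hz 0
  have hG := D2_graph (G := fun z : T x × T x => Ff e x τ y z - cost (e x z.1) y) (a := 0) (b := v)
    ((hF.sub hc).of_le hess_two) (Eventually.of_forall fun z => by
      simp only [hz0]
      exact sub_nonneg.2 (cost_le_ff h0 h1 z))
    (hus.differentiableAt (by simp)).hasFDerivAt hu0
    (Eventually.of_forall fun a => (hz a).trans hz0.symm) ξ
  set μ := fderiv ℝ u 0 ξ with hμ
  have hD : ∀ a b : T x × T x, D2 (fun z : T x × T x => cost (e x z.1) y) (0, v) a b =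
      D2 (fun a : T x => cost (e x a) y) 0 a.1 b.1 := by
    intro a b
    have := D2_comp_clm (f := fun a : T x => cost (e x a) y)
      (ContinuousLinearMap.fst ℝ (T x) (T x)) 0 (b := (0, v))
      (by simpa using hc0.of_le hess_two) a b
    simpa using this
  have hsplit : ((ξ, μ) : T x × T x) = (ξ, 0) + (0, μ) := by simp
  have hτm := h.inj_subset_min x hτ
  refine ⟨μ, fun ν => ?_, ?_⟩
  · have c1 := hG (0, ν)
    rw [D2_sub (hF.of_le hess_two) (hc.of_le hess_two), sub_apply,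
      sub_apply, hD, map_zero, sub_zero, hsplit, map_add,
      add_apply, D2_symm (hF.of_le hess_two),
      h.ff_mixed h0.ne' hτm s1 s2, real_inner_comm] at c1
    linarith
  · have c1 := hG (ξ, 0)
    rw [D2_sub (hF.of_le hess_two) (hc.of_le hess_two), sub_apply,
      sub_apply, hD, hsplit, map_add,
      add_apply, h.ff_fst s1 s2,
      h.ff_mixed h0.ne' hτm s1 s2, real_inner_comm] at c1
    unfold Aq at c1 ⊢
    simp only [Prod.fst_add, add_zero] at c1
    linarith

/-- For `s` near zero apply `grad_rel` with `p = x`, `w = v`, `θ = τ (1 + s)`, and use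
`cost x (e x n') = ‖n'‖ ^ 2 / 2` near `n = θ • v`; then `D2_dir`. -/
theorem ff_radial (h : Geo e r) {x : M} {v : T x} {τ : ℝ} (h0 : 0 < τ) (h1 : τ < 1)
    (hv : τ • v ∈ Inj e x) (hr : (1 - τ) * ‖v‖ < r) (ν : T x) :
    D2 (Ff e x τ (e x v)) (0, v) (0, v) (0, ν) = τ / (1 - τ) * inner ℝ v ν := by
  have hF := h.hess_ff_smooth (h.sp_of_inj hv) (h.hess_sp_short h1 hr)
  have hD := D2_dir (hF.of_le hess_two) (0, v) (0, ν)
  have h1' : 1 - τ ≠ 0 := by linarith
  have hg : HasDerivAt (fun s : ℝ => inner ℝ v ν *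
      (τ * (1 + s) - (1 - τ * (1 + s)) * τ / (1 - τ))) (τ / (1 - τ) * inner ℝ v ν) 0 := by
    have c1 : HasDerivAt (fun s : ℝ => τ * (1 + s)) τ 0 := by
      simpa using ((hasDerivAt_id (0 : ℝ)).const_add 1).const_mul τ
    refine ((c1.fun_sub (((c1.const_sub 1).mul_const τ).div_const (1 - τ))).const_mul
      (inner ℝ v ν)).congr_deriv ?_
    field_simp
    ring
  refine hD.unique (hg.congr_of_eventuallyEq ?_)
  have t1 : ContinuousAt (fun s : ℝ => ((0, v) : T x × T x) + s • (0, v)) 0 := by fun_prop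
  have t2 : ContinuousAt (fun s : ℝ => (τ * (1 + s)) • v) 0 := by fun_prop
  have t3 : ContinuousAt (fun s : ℝ => |1 - τ * (1 + s)| * ‖v‖) 0 := by fun_prop
  have t4 : ContinuousAt (fun s : ℝ => τ * (1 + s)) 0 := by fun_prop
  filter_upwards [t1.eventually (by simpa using smooth_ev_diff hF),
    t2.eventually ((h.isOpen_inj x).mem_nhds (by simpa using hv)),
    t3.eventually (gt_mem_nhds (a := r) (by
      simpa only [add_zero, mul_one, abs_of_pos (sub_pos.2 h1)] using hr)),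
    t4.eventually (lt_mem_nhds (a := 0) (by simpa using h0))] with s c1 c2 c3 c4
  set θ := τ * (1 + s) with hθ
  obtain ⟨l, l1, l2⟩ := h.grad_rel (x := x) (p := x) (n := θ • v) c4.le c2 c3 rfl
  have l3 : HasFDerivAt (fun n' : T x => cost x (e x n')) (innerSL ℝ (θ • v)) (θ • v) := by
    have c5 := ((hasStrictFDerivAt_norm_sq (θ • v)).hasFDerivAt).const_mul (1 / 2 : ℝ)
    refine (c5.congr_fderiv ?_).congr_of_eventuallyEq ?_
    · ext w
      simp
    · filter_upwards [(h.isOpen_inj x).mem_nhds c2] with n' hn'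
      rw [cost_of_min (h.inj_subset_min x hn')]
      ring
  have l4 : l ν = inner ℝ v ν := by
    have c5 := congrArg (fun f : T x →L[ℝ] ℝ => f ν) (l1.unique l3)
    simp only [smul_apply, smul_eq_mul, innerSL_apply_apply,
      real_inner_smul_left] at c5
    exact mul_left_cancel₀ c4.ne' c5
  have e1 : ((0, v) : T x × T x) + s • (0, v) = (0, (1 + s) • v) := by
    simp [add_smul]
  rw [e1] at c1 ⊢
  have d0 : HasFDerivAt (fun u : T x => τ • u) (τ • ContinuousLinearMap.id ℝ (T x))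
      ((1 + s) • v) := (hasFDerivAt_id _).const_smul τ
  have e2 : θ • v = τ • (1 + s) • v := by rw [smul_smul]
  rw [e2] at l1 l2
  have d1 := ((l1.comp _ d0).mul_const τ⁻¹).fun_add ((l2.comp _ d0).mul_const (1 - τ)⁻¹)
  have d2 := c1.hasFDerivAt.comp ((1 + s) • v) (hasFDerivAt_prodMk_right (0 : T x) ((1 + s) • v))
  have e3 : (Ff e x τ (e x v) ∘ fun u : T x => ((0 : T x), u)) =
      fun u => cost x (e x (τ • u)) * τ⁻¹ + cost (e x (τ • u)) (e x v) * (1 - τ)⁻¹ := by
    funext u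
    simp only [Function.comp, Ff, h.zero, div_eq_mul_inv]
  rw [e3] at d2
  have c5 := congrArg (fun f : T x →L[ℝ] ℝ => f ν) (d2.unique d1)
  simp only [ContinuousLinearMap.comp_apply, ContinuousLinearMap.inr_apply] at c5
  rw [c5]
  simp [l4]
  field_simp
  ring

/-- `O = {v | τ • v ∈ Inj e x ∧ (1 - τ) * ‖v‖ < r}`; `S v` and `K v` are the operators of the two
diagonal blocks of `D2 (Ff e x τ (e x v)) (0, v)`, which is smooth in `v` on `O`
(`contDiffAt_D2_fst`). -/
theorem exists_fdata (h : Geo e r) (hm : AMTW e) (x : M) {τ : ℝ} (h0 : 0 < τ) (h1 : τ < 1)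
    (hr : ∀ p q : M, (1 - τ) * dist p q < r) :
    ∃ (O : Set (T x)) (S K : T x → T x →L[ℝ] T x),
      FData (Inj e x) O (τ / (1 - τ)) (Aq e x) S K ∧ MinSet e x ⊆ O ∧
      ∀ v ∈ O, ∀ ξ μ : T x, D2 (Ff e x τ (e x v)) (0, v) (ξ, μ) (ξ, μ) =
        inner ℝ (S v ξ) ξ - 2 * inner ℝ ξ μ + inner ℝ (K v μ) μ := by
  set O : Set (T x) := {v | τ • v ∈ Inj e x ∧ (1 - τ) * ‖v‖ < r} with hO
  have hMO : MinSet e x ⊆ O := fun v hv => ⟨h.smul_mem_inj hv h0.le h1, by
    have := hr x (e x v)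
    rwa [show dist x (e x v) = ‖v‖ from hv] at this⟩
  have s1 : ∀ v ∈ O, SP e x (e x (τ • v)) := fun v hv => h.sp_of_inj hv.1
  have s2 : ∀ v ∈ O, SP e (e x (τ • v)) (e x v) := fun v hv => h.hess_sp_short h1 hv.2
  have hBs : ∀ v ∈ O, ContDiffAt ℝ ∞
      (fun w : (T x × T x) × T x => Ff e x τ (e x w.2) w.1) ((0, v), v) := by
    intro v hv
    have c1 := smooth_comp (h.contDiffAt_cost (s1 v hv) (h.zero x) rfl)
      (fun w : (T x × T x) × T x => (w.1.1, τ • w.1.2)) ((0, v), v) (by fun_prop) rfl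
    have c2 := smooth_comp (h.contDiffAt_cost (s2 v hv) rfl rfl)
      (fun w : (T x × T x) × T x => (τ • w.1.2, w.2)) ((0, v), v) (by fun_prop) rfl
    exact (c1.div_const τ).add (c2.div_const (1 - τ))
  obtain ⟨S, hS1, hS2⟩ := hess_blocks (fun v => Ff e x τ (e x v)) O hBs
    (ContinuousLinearMap.inl ℝ _ _)
  obtain ⟨K, hK1, hin⟩ := hess_blocks (fun v => Ff e x τ (e x v)) O hBs
    (ContinuousLinearMap.inr ℝ _ _)
  have hF : ∀ v ∈ O, ContDiffAt ℝ 2 (Ff e x τ (e x v)) (0, v) := fun v hv =>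
    (h.hess_ff_smooth (s1 v hv) (s2 v hv)).of_le hess_two
  have hS : ∀ v ∈ O, ∀ ξ, inner ℝ (S v ξ) ξ = Aq e x (τ • v) ξ / τ := by
    intro v hv ξ
    rw [hS2, ← h.ff_fst (s1 v hv) (s2 v hv)]
    rfl
  have hIO : Inj e x ⊆ O := (h.inj_subset_min x).trans hMO
  refine ⟨O, S, K, ⟨?_, hIO, ?_, ?_, ?_, ?_, ?_, ?_, ?_, ?_⟩, hMO, ?_⟩
  · exact ((h.isOpen_inj x).preimage (by fun_prop : Continuous fun v : T x => τ • v)).inter
      (isOpen_lt (by fun_prop : Continuous fun v : T x => (1 - τ) * ‖v‖) continuous_const)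
  · exact fun v hv => ((hK1 v hv).of_le hess_two).contDiffWithinAt
  · exact fun v hv => (hS1 v hv).continuousAt.continuousWithinAt
  · intro v hv ξ η
    rw [real_inner_comm _ ξ, hin, hin]
    exact D2_symm (hF v hv) _ _
  · intro v hv ξ
    obtain ⟨μ, m1, m2⟩ := h.ff_inv hv h0 h1 ξ
    refine ⟨μ, ext_inner_right ℝ fun ν => ?_, ?_⟩
    · rw [hin, ← m1 ν]
      rfl
    · rw [hS v (hIO hv), m2]
  · intro v hv μ
    have hvm := h.inj_subset_min x hv
    have c0 : ContDiffAt ℝ 2 (Ff e x τ (e x v)) (ContinuousLinearMap.inr ℝ (T x) (T x) v + 0) := by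
      simpa using hF v (hIO hv)
    have c1 := D2_comp_clm (ContinuousLinearMap.inr ℝ (T x) (T x)) 0 c0 μ μ
    have c2 := D2_nonneg (f := fun z => Ff e x τ (e x v) (ContinuousLinearMap.inr ℝ _ _ z + 0))
      (a := v) (ContDiffAt.comp (f := fun z => ContinuousLinearMap.inr ℝ (T x) (T x) z + 0) v c0
        (by fun_prop)) (Eventually.of_forall fun u => by
        have c3 := cost_le_ff (e := e) (x := x) (y := e x v) h0 h1 (0, u)
        simp only [h.zero, cost_of_min hvm] at c3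
        simpa [h.ff_min h0 h1 hvm] using c3) μ
    rw [c1] at c2
    rw [hin]
    simpa using c2
  · exact div_pos h0 (sub_pos.2 h1)
  · intro v hv
    refine ext_inner_right ℝ fun ν => ?_
    rw [hin, real_inner_smul_left, ← h.ff_radial h0 h1 hv.1 hv.2 ν]
    rfl
  · exact fun ξ C => h.concave_Aq hm ξ C
  · intro v hv ξ μ
    rw [h.ff_split h0.ne' (h.inj_subset_min x hv.1) (s1 v hv) (s2 v hv), hS v hv, hin]
    rfl

end Geo

end Vale.Agent.P234
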