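import Vale.Agent.P234.Mono

/-! The cost is smooth on the injectivity domain. -/

open scoped ContDiff Topology
open Filter Set

noncomputable section

namespace Vale.Agent.P234

variable {M : Type*} [MetricSpace M] [CompactSpace M] {T : M → Type*}
  [∀ x, NormedAddCommGroup (T x)] [∀ x, InnerProductSpace ℝ (T x)]
  [∀ x, FiniteDimensional ℝ (T x)] {e : ∀ x, T x → M} {r : ℝ}

theorem inj_comp {A B C : Type*} [NormedAddCommGroup A] [NormedSpace ℝ A] [NormedAddCommGroup B]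
    [NormedSpace ℝ B] [NormedAddCommGroup C] [NormedSpace ℝ C] {g : B → C} {b : B}
    (hg : ContDiffAt ℝ ∞ g b) {f : A → B} {a : A} (hf : ContDiffAt ℝ ∞ f a) (hb : f a = b) :
    ContDiffAt ℝ ∞ (fun z => g (f z)) a := by
  subst hb
  exact hg.comp a hf

namespace Geo

omit [CompactSpace M] [∀ x, FiniteDimensional ℝ (T x)] in
theorem inj_exists_gt (h : Geo e r) {x : M} {v : T x} (hv : v ∈ Inj e x) {τ : ℝ}
    (hr : (1 - τ) * ‖v‖ < r) :
    ∃ a : ℝ, 1 < a ∧ dist x (e x (a • v)) = ‖a • v‖ ∧ (a - τ) * ‖v‖ < r := by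
  obtain ⟨a₀, h1, h2⟩ := h.exists_smul_mem_inj hv
  have c1 : ∀ᶠ a : ℝ in 𝓝 1, (a - τ) * ‖v‖ < r :=
    ContinuousAt.eventually_lt (f := fun a : ℝ => (a - τ) * ‖v‖) (by fun_prop) continuousAt_const hr
  have c2 : ∀ᶠ a : ℝ in 𝓝 1, a < a₀ := eventually_lt_nhds h1
  obtain ⟨a, ⟨h3, h4⟩, h5⟩ := (((c1.and c2).filter_mono nhdsWithin_le_nhds).and
    (self_mem_nhdsWithin (s := Ioi (1 : ℝ)))).exists
  have h6 : (1 : ℝ) < a := h5
  exact ⟨a, h6, h.inj_subset_min x (h2 a (by linarith) h4.le), h3⟩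

omit [CompactSpace M] [∀ x, FiniteDimensional ℝ (T x)] in
theorem inj_split (h : Geo e r) {τ : ℝ} (h0 : 0 < τ) (h1 : τ < 1) (p q : M) :
    cost p (e p (τ • lg e p q)) / τ + cost (e p (τ • lg e p q)) q / (1 - τ) = cost p q := by
  have h2 := h.ff_min h0 h1 (h.lg_mem_min p q)
  simp only [Ff, h.zero, h.exp_lg, h.norm_lg] at h2
  exact h2

theorem inj_pd (h : Geo e r) {x m : M} {ρ : T m} {τ a : ℝ} (h0 : 0 < τ) (h1 : τ < 1) (ha : 1 < a)
    (hr : ‖(a - τ) • ρ‖ < r) (hs : SP e m x)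
    (hd : dist m x = τ * ‖ρ‖ ∧ dist x (e m ((a - τ) • ρ)) = a * ‖ρ‖) {u : T m} (hu : u ≠ 0) :
    0 < D2 (fun b => cost (e m b) x / τ + cost (e m b) (e m ((1 - τ) • ρ)) / (1 - τ)) 0 u u := by
  have haτ : 0 < a - τ := by linarith
  have h1τ : 0 < 1 - τ := by linarith
  have hθ0 : 0 ≤ (1 - τ) / (a - τ) := by positivity
  have hθ1 : (1 - τ) / (a - τ) < 1 := by rw [div_lt_one haτ]; linarith
  have hθ : ((1 - τ) / (a - τ)) • (a - τ) • ρ = (1 - τ) • ρ := by
    rw [smul_smul, div_mul_cancel₀ _ haτ.ne']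
  have hn : ‖(a - τ) • ρ‖ = (a - τ) * ‖ρ‖ := by rw [norm_smul, Real.norm_of_nonneg haτ.le]
  have hr1 : ‖(1 - τ) • ρ‖ < r := by
    rw [norm_smul, Real.norm_of_nonneg h1τ.le]
    refine lt_of_le_of_lt ?_ hr
    rw [hn]
    exact mul_le_mul_of_nonneg_right (by linarith) (norm_nonneg _)
  have s1 : SP e m (e m ((a - τ) • ρ)) := h.sp_short (by rwa [h.toLoc.dist_exp hr])
  have s2 : SP e m (e m ((1 - τ) • ρ)) := h.sp_short (by rwa [h.toLoc.dist_exp hr1])
  have s3 : SP e (e m ((1 - τ) • ρ)) (e m ((a - τ) • ρ)) := by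
    refine h.sp_short ((h.dist_le m ρ _ _).trans_lt (lt_of_le_of_lt ?_ hr))
    rw [hn, abs_sub_comm, abs_of_nonneg (by linarith)]
    exact mul_le_mul_of_nonneg_right (by linarith) (norm_nonneg _)
  have h2 := h.mono (h.short_mem_min hr) s1 hθ0 hθ1 (by rwa [hθ]) (by rwa [hθ]) hu
  rw [hθ] at h2
  have two : ((2 : ℕ∞) : WithTop ℕ∞) ≤ ∞ := by exact_mod_cast le_top
  have d0 : ContDiffAt ℝ 2 (fun b => cost (e m b) x) 0 :=
    (h.contDiffAt_cost_left hs (h.zero m)).of_le two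
  have d1 : ContDiffAt ℝ 2 (fun b => cost (e m b) (e m ((a - τ) • ρ))) 0 :=
    (h.contDiffAt_cost_left s1 (h.zero m)).of_le two
  have d2 : ContDiffAt ℝ 2 (fun b => cost (e m b) (e m ((1 - τ) • ρ))) 0 :=
    (h.contDiffAt_cost_left s2 (h.zero m)).of_le two
  have h3 : 0 ≤ D2 (fun b => cost (e m b) x / τ +
      cost (e m b) (e m ((a - τ) • ρ)) / (a - τ)) 0 u u := by
    refine D2_nonneg ((d0.div_const _).add (d1.div_const _)) (Eventually.of_forall fun b => ?_) u
    have h4 := cost_le_split x (e m b) (e m ((a - τ) • ρ)) h0 haτ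
    rw [cost_comm x (e m b)] at h4
    refine le_trans (le_of_eq ?_) h4
    simp only [h.zero, cost, hd.1, hd.2, h.toLoc.dist_exp hr, hn]
    field_simp
    ring
  rw [D2_add (d0.div_const _) (d1.div_const _), D2_div_const d0, D2_div_const d1] at h3
  rw [D2_add (d0.div_const _) (d2.div_const _), D2_div_const d0, D2_div_const d2]
  simp only [add_apply, smul_apply, smul_eq_mul] at h3 ⊢
  have h5 : (a - τ)⁻¹ * Aq e m ((a - τ) • ρ) u < (1 - τ)⁻¹ * Aq e m ((1 - τ) • ρ) u := by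
    rw [lt_inv_mul_iff₀ h1τ, ← mul_assoc, ← div_eq_mul_inv]
    exact h2
  unfold Aq at h5
  linarith

/-- Inductive step. Let `m = e x (τ • v)`, `y = e x v`, `z = e x (a • v)` with `a > 1`, `a • v`
minimizing and ` (a - τ) ‖v‖ < r`, and `ρ` from `flow` at `m`. Let
`F ((ξ, b), μ) = cost (e x ξ) (e m μ) / τ + cost (e m μ) (e y b) / (1 - τ)`.
The Hessian of `F (0, ·)` at zero is positive definite: `cost x (e m μ) / τ + cost (e m μ) z / (a - τ)`
has a minimum at `μ = 0`, and `mono` at the base point `m`, for the short vector ` (a - τ) • ρ` and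
`θ = (1 - τ) / (a - τ)`, gives the strict inequality. The function
`μ (ξ, b) = lg e m (e (e x ξ) (τ • lg e (e x ξ) (e y b)))` is continuous at zero (`conv_lg`,
`continuousAt_lg`), minimizes `F ((ξ, b), ·)` with minimal value `cost (e x ξ) (e y b)`, and is smooth
by `contDiffAt_of_implicit` and `bijective_of_pd`. -/
theorem sp_step (h : Geo e r) {x : M} {v : T x} (hv : v ∈ Inj e x) {τ : ℝ} (h0 : 0 < τ) (h1 : τ < 1)
    (hr : (1 - τ) * ‖v‖ < r) (hs : SP e x (e x (τ • v))) : SP e x (e x v) := by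
  obtain ⟨a, ha1, ha, har⟩ := inj_exists_gt h hv hr
  obtain ⟨m, hm⟩ : ∃ m, m = e x (τ • v) := ⟨_, rfl⟩
  obtain ⟨y, hy⟩ : ∃ y, y = e x v := ⟨_, rfl⟩
  obtain ⟨ρ, hρ, hfl⟩ := h.flow hm.symm
  rw [← hm] at hs
  rw [← hy]
  have hym : e m ((1 - τ) • ρ) = y := by rw [← hfl, add_sub_cancel, one_smul, hy]
  have hzm : e m ((a - τ) • ρ) = e x (a • v) := by rw [← hfl, add_sub_cancel]
  have hn1 : ‖(1 - τ) • ρ‖ < r := by
    rwa [norm_smul, hρ, Real.norm_of_nonneg (by linarith)]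
  have hna : ‖(a - τ) • ρ‖ < r := by
    rwa [norm_smul, hρ, Real.norm_of_nonneg (by linarith)]
  have hsy : SP e m y := by
    rw [← hym]
    exact h.sp_short (by rwa [h.toLoc.dist_exp hn1])
  let F : T m × (T x × T y) → ℝ := fun w =>
    cost (e x w.2.1) (e m w.1) / τ + cost (e m w.1) (e y w.2.2) / (1 - τ)
  have hF : ContDiffAt ℝ ∞ F (0, 0) := by
    have h2 : ContDiffAt ℝ ∞ (fun w : T m × (T x × T y) => (w.2.1, w.1)) (0, 0) := by fun_prop
    have h3 : ContDiffAt ℝ ∞ (fun w : T m × (T x × T y) => (w.1, w.2.2)) (0, 0) := by fun_prop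
    exact ((inj_comp hs h2 rfl).div_const τ).add ((inj_comp hsy h3 rfl).div_const (1 - τ))
  have hpd : ∀ u : T m, u ≠ 0 → 0 < D2 (fun b => F (b, 0)) 0 u u := fun u hu => by
    have e1 : (fun b => F (b, 0)) =
        fun b => cost (e m b) x / τ + cost (e m b) (e m ((1 - τ) • ρ)) / (1 - τ) := by
      funext b
      simp only [F, Prod.fst_zero, Prod.snd_zero, h.zero, hym, cost_comm x]
    rw [e1]
    refine inj_pd h h0 h1 ha1 hna hs.symm ?_ hu
    have h2 : dist x m = ‖τ • v‖ := by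
      rw [hm]; exact h.smul_mem_min (h.inj_subset_min x hv) h0.le h1.le
    rw [hzm, ha, hρ, dist_comm m x, h2,
      norm_smul, norm_smul, Real.norm_of_nonneg h0.le, Real.norm_of_nonneg (by linarith)]
    exact ⟨rfl, rfl⟩
  let P : M → M → M := fun p q => e p (τ • lg e p q)
  let μ : T x × T y → T m := fun w => lg e m (P (e x w.1) (e y w.2))
  have hval : ∀ w, F (μ w, w) = cost (e x w.1) (e y w.2) := fun w => by
    simp only [F, μ, h.exp_lg]
    exact inj_split h h0 h1 _ _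
  have hmin : ∀ w, fderiv ℝ (fun b => F (b, w)) (μ w) = 0 := fun w => by
    refine IsLocalMin.fderiv_eq_zero (Eventually.of_forall fun b => ?_)
    have h2 := cost_le_split (e x w.1) (e m b) (e y w.2) h0 (sub_pos.2 h1)
    rw [add_sub_cancel, div_one] at h2
    exact (hval w).le.trans h2
  have hP0 : P (e x 0) (e y 0) = m := by
    rw [h.zero, h.zero]
    simp only [P, hy, h.lg_exp hv, hm]
  have hμ0 : μ 0 = 0 := by
    simp only [μ, Prod.fst_zero, Prod.snd_zero, hP0, h.lg_self]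
  have hμc : ContinuousAt μ 0 := by
    have c1 : Tendsto (fun w : T x × T y => e x w.1) (𝓝 0) (𝓝 x) := by
      have := ((h.continuous_exp x).comp (continuous_fst (Y := T y))).tendsto 0
      simpa only [Function.comp_def, Prod.fst_zero, h.zero] using this
    have c2 : Tendsto (fun w : T x × T y => e y w.2) (𝓝 0) (𝓝 (e x v)) := by
      have := ((h.continuous_exp y).comp (continuous_snd (X := T x))).tendsto 0
      simpa only [Function.comp_def, Prod.snd_zero, h.zero, ← hy] using this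
    have c3 := (h.conv_lg hv c1 c2).2.2 τ
    rw [← hm] at c3
    have c4 := h.continuousAt_lg (x := m) (v := 0) (h.short_mem_inj (by simpa using h.pos))
    rw [h.zero] at c4
    have c5 := Tendsto.comp c4 c3
    rw [h.lg_self] at c5
    unfold ContinuousAt
    rw [hμ0]
    exact c5
  have hΨ : ContDiffAt ℝ ∞ (fun z : (T x × T y) × T m => fderiv ℝ (fun b => F (b, z.1)) z.2)
      (0, μ 0) := by
    rw [hμ0]
    have h2 : ContDiffAt ℝ ∞ (fun z : (T x × T y) × T m => (z.2, z.1)) (0, 0) := by fun_prop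
    exact inj_comp (contDiffAt_fderiv_fst hF) h2 rfl
  have hμ : ContDiffAt ℝ ∞ μ 0 := by
    refine contDiffAt_of_implicit hΨ ?_ hμc (Eventually.of_forall fun w => ?_)
    · rw [hμ0]
      exact bijective_of_pd _ hpd
    · exact (hmin w).trans (hmin 0).symm
  have h4 : ContDiffAt ℝ ∞ (fun w => F (μ w, w)) 0 := by
    refine ContDiffAt.comp 0 (g := F) ?_ (hμ.prodMk contDiffAt_id)
    rw [hμ0]
    exact hF
  simp only [hval] at h4
  exact h4

/-- induction on `N` with `‖v‖ < N * (r / 2)` -/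
theorem sp_of_inj (h : Geo e r) {x : M} {v : T x} (hv : v ∈ Inj e x) : SP e x (e x v) := by
  have hr := h.pos
  have key : ∀ N : ℕ, ∀ v ∈ Inj e x, ‖v‖ < N * (r / 2) → SP e x (e x v) := by
    intro N
    induction N with
    | zero => intro v _ hN; exact absurd hN (by simp)
    | succ N ih =>
      intro v hv hN
      by_cases hs : ‖v‖ < r
      · exact h.sp_short (by rwa [h.toLoc.dist_exp hs])
      · have h2 : r ≤ ‖v‖ := not_lt.1 hs
        have h3 : 0 < ‖v‖ := hr.trans_le h2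
        have h4 : r / 2 / ‖v‖ < 1 := by rw [div_lt_one h3]; linarith
        have h5 : 0 < r / 2 / ‖v‖ := by positivity
        have h6 : r / 2 / ‖v‖ * ‖v‖ = r / 2 := div_mul_cancel₀ _ h3.ne'
        refine h.sp_step hv (τ := 1 - r / 2 / ‖v‖) (by linarith) (by linarith)
          (by rw [sub_sub_cancel, h6]; linarith) (ih _ (h.smul_mem_inj (h.inj_subset_min x hv)
            (by linarith) (by linarith)) ?_)
        rw [norm_smul, Real.norm_of_nonneg (by linarith), sub_mul, h6]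
        push_cast at hN
        linarith
  obtain ⟨N, hN⟩ := exists_nat_gt (‖v‖ / (r / 2))
  exact key N v hv (by rwa [div_lt_iff₀ (by positivity)] at hN)

/-- by `flow` at time `s`, the vector ` (t - s) • ρ` is in the injectivity domain -/
theorem sp_sub (h : Geo e r) {x : M} {v : T x} (hv : v ∈ Inj e x) {s t : ℝ} (h0 : 0 ≤ s)
    (hst : s ≤ t) (h1 : t ≤ 1) : SP e (e x (s • v)) (e x (t • v)) := by
  obtain ⟨a, ha1, ha⟩ := hv
  obtain ⟨ρ, hρ, hfl⟩ := h.flow (x := x) (v := v) (θ := s) rfl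
  have ha0 : 0 < a := by linarith
  have has : 0 < a - s := by linarith
  have h2 : a • v ∈ MinSet e x := by
    change dist _ _ = _
    rw [ha, norm_smul, Real.norm_of_nonneg ha0.le]
  have h3 : (a - s) • ρ ∈ MinSet e (e x (s • v)) := by
    change dist _ _ = _
    have h4 := h.dist_of_min h2 (s := s / a) (t := 1) (by positivity)
      (by rw [div_le_one ha0]; linarith) le_rfl
    rw [smul_smul, div_mul_cancel₀ _ ha0.ne', one_smul] at h4
    rw [← hfl, add_sub_cancel, h4, norm_smul, norm_smul, hρ, Real.norm_of_nonneg ha0.le,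
      Real.norm_of_nonneg has.le]
    field_simp
  have h5 := h.sp_of_inj (h.smul_mem_inj h3 (s := (t - s) / (a - s))
    (div_nonneg (by linarith) has.le) (by rw [div_lt_one has]; linarith))
  rwa [smul_smul, div_mul_cancel₀ _ has.ne', ← hfl, add_sub_cancel] at h5

theorem isOpen_inj (h : Geo e r) (x : M) : IsOpen (Inj e x) := by
  refine isOpen_iff_mem_nhds.2 fun v hv => ?_
  obtain ⟨a, ha1, ha⟩ := h.exists_smul_mem_inj hv
  have h1 := ha a (by linarith) le_rfl
  have h2 := h.min_nhds (h.inj_subset_min x h1) (h.sp_of_inj h1)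
  have h3 : Tendsto (fun u : T x => a • u) (𝓝 v) (𝓝 (a • v)) := (continuous_const_smul a).tendsto v
  filter_upwards [h3.eventually h2] with u hu
  refine ⟨a, ha1, ?_⟩
  rw [show dist x (e x (a • u)) = ‖a • u‖ from hu, norm_smul, Real.norm_of_nonneg (by linarith)]

theorem contDiffAt_Aq (h : Geo e r) {x : M} {v : T x} (hv : v ∈ Inj e x) (ξ : T x) :
    ContDiffAt ℝ ∞ (fun u => Aq e x u ξ) v := by
  have h1 := contDiffAt_D2_fst (h.contDiffAt_cost (h.sp_of_inj hv) (h.zero x) rfl)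
  have h2 : ContDiffAt ℝ ∞ (fun u : T x => ((0 : T x), u)) v := by fun_prop
  have h3 := ContDiffAt.comp v h1 h2
  exact (h3.clm_apply contDiffAt_const).clm_apply contDiffAt_const

theorem mono_inj (h : Geo e r) {x : M} {v : T x} (hv : v ∈ Inj e x) {θ : ℝ} (h0 : 0 ≤ θ)
    (h1 : θ < 1) {ξ : T x} (hξ : ξ ≠ 0) : θ * Aq e x v ξ < Aq e x (θ • v) ξ := by
  have h2 := h.sp_sub hv h0 h1.le le_rfl
  rw [one_smul] at h2
  exact h.mono (h.inj_subset_min x hv) (h.sp_of_inj hv) h0 h1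
    (h.sp_of_inj (h.smul_mem_inj (h.inj_subset_min x hv) h0 h1)) h2 hξ

/-- With `m = e p (θ • w)` and `ρ` from `flow`, `p = e m (-θ • ρ)`, `e p w = e m ((1 - θ) • ρ)`;
apply `fv_move` twice, `ℓ = (innerSL ρ).comp (Lmap e x n m)`. -/
theorem grad_rel (h : Geo e r) {x p : M} {n : T x} {w : T p} {θ : ℝ} (h0 : 0 ≤ θ)
    (hw : θ • w ∈ Inj e p) (hr : |1 - θ| * ‖w‖ < r) (hn : e x n = e p (θ • w)) :
    ∃ ℓ : T x →L[ℝ] ℝ, HasFDerivAt (fun n' => cost p (e x n')) (θ • ℓ) n ∧
      HasFDerivAt (fun n' => cost (e x n') (e p w)) (-(1 - θ) • ℓ) n := by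
  obtain ⟨m, hm⟩ : ∃ m, m = e p (θ • w) := ⟨_, rfl⟩
  obtain ⟨ρ, hρ, hfl⟩ := h.flow hm.symm
  rw [← hm] at hn
  have h1 : e m ((-θ) • ρ) = p := by rw [← hfl, add_neg_cancel, zero_smul, h.zero]
  have h2 : e m ((1 - θ) • ρ) = e p w := by rw [← hfl, add_sub_cancel, one_smul]
  have h3 : (-θ) • ρ ∈ MinSet e m := by
    change dist _ _ = _
    rw [h1, dist_comm, show dist p m = ‖θ • w‖ from hm ▸ h.inj_subset_min p hw, norm_smul, norm_smul,
      hρ, norm_neg]
  have h4 : ‖(1 - θ) • ρ‖ < r := by rwa [norm_smul, hρ, Real.norm_eq_abs]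
  have h5 := h.fv_move hn h3 (by rw [h1, hm]; exact (h.sp_of_inj hw).symm)
  have h6 := h.fv_move hn (h.short_mem_min h4) (h.sp_short (by rwa [h.toLoc.dist_exp h4]))
  rw [h1] at h5
  rw [h2] at h6
  refine ⟨(innerSL ℝ ρ).comp (Lmap e x n m), ?_, ?_⟩
  · simp only [cost_comm p]
    convert h5 using 1
    ext ξ
    simp
  · convert h6 using 1
    ext ξ
    simp only [smul_apply, ContinuousLinearMap.comp_apply, innerSL_apply_apply,
      neg_apply, real_inner_smul_left, smul_eq_mul]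
    ring

/-- derivative of the broken geodesic functional at a geodesic with moving base point -/
theorem ff_crit (h : Geo e r) {x p : M} {a u : T x} {w : T p} {τ : ℝ} (h0 : 0 < τ) (h1 : τ < 1)
    (ha : e x a = p) (hw : τ • w ∈ Inj e p) (hr : (1 - τ) * ‖w‖ < r)
    (hu : e x (τ • u) = e p (τ • w)) :
    HasFDerivAt (Ff e x τ (e p w))
      (-(((innerSL ℝ w).comp (Lmap e x a p)).comp (ContinuousLinearMap.fst ℝ (T x) (T x))))
      (a, u) := by
  have s1 : SP e (e x a) (e x (τ • u)) := by rw [ha, hu]; exact h.sp_of_inj hw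
  have s2 : SP e (e x (τ • u)) (e p w) := by
    rw [hu]
    refine h.sp_short ?_
    have h2 := h.dist_le p w τ 1
    rw [one_smul, abs_sub_comm, abs_of_nonneg (by linarith)] at h2
    exact h2.trans_lt hr
  have hD := ((h.ff_smooth s1 s2).differentiableAt (by simp)).hasFDerivAt
  set D := fderiv ℝ (Ff e x τ (e p w)) (a, u)
  have d1 := HasFDerivAt.comp (f := fun a' : T x => (a', u)) a hD
    (hasFDerivAt_prodMk_left (𝕜 := ℝ) a u)
  have d2 := HasFDerivAt.comp (f := fun u' : T x => (a, u')) u hD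
    (hasFDerivAt_prodMk_right (𝕜 := ℝ) a u)
  have e1 := ((h.fv_move ha (h.inj_subset_min p hw) (h.sp_of_inj hw)).const_mul τ⁻¹).add_const
    (cost (e p (τ • w)) (e p w) / (1 - τ))
  obtain ⟨ℓ, l1, l2⟩ := h.grad_rel h0.le hw (by rwa [abs_of_nonneg (by linarith)]) hu
  have hs : HasFDerivAt (fun u' : T x => τ • u') (τ • ContinuousLinearMap.id ℝ (T x)) u :=
    (hasFDerivAt_id u).const_smul τ
  have e2 := ((l1.comp u hs).const_mul τ⁻¹).add ((l2.comp u hs).const_mul (1 - τ)⁻¹)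
  have f1 := d1.unique (e1.congr_of_eventuallyEq (Eventually.of_forall fun a' => by
    simp only [Function.comp_def, Ff, hu, div_eq_inv_mul]))
  have f2 := d2.unique (e2.congr_of_eventuallyEq (Eventually.of_forall fun u' => by
    simp only [Function.comp_def, Ff, ha, div_eq_inv_mul, Pi.add_apply]))
  have h1τ : 1 - τ ≠ 0 := by linarith
  refine hD.congr_fderiv (ContinuousLinearMap.ext fun z => ?_)
  have g1 := congrArg (fun L : T x →L[ℝ] ℝ => L z.1) f1
  have g2 := congrArg (fun L : T x →L[ℝ] ℝ => L z.2) f2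
  have g3 : D z = D (z.1, 0) + D (0, z.2) := by rw [← map_add]; simp
  simp only [ContinuousLinearMap.comp_apply, ContinuousLinearMap.inl_apply,
    ContinuousLinearMap.inr_apply, smul_apply, neg_apply,
    add_apply, innerSL_apply_apply, smul_eq_mul,
    ContinuousLinearMap.id_apply, map_smul, ContinuousLinearMap.coe_fst'] at g1 g2 ⊢
  rw [g3, g1, g2]
  field_simp
  ring

end Geo

end Vale.Agent.P234
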