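import Vale.Agent.P234.Glob

/-! Limits of geodesics. -/

open scoped ContDiff Topology
open Filter Set

noncomputable section

namespace Vale.Agent.P234

variable {M : Type*} [MetricSpace M] [CompactSpace M] {T : M → Type*}
  [∀ x, NormedAddCommGroup (T x)] [∀ x, InnerProductSpace ℝ (T x)] {e : ∀ x, T x → M} {r : ℝ}
  {κ : Type*}

namespace Geo

omit [CompactSpace M] in
theorem Lim_small (h : Geo e r) (a : ℝ) (ha : 0 ≤ a) : ∃ s : ℝ, 0 < s ∧ s * a < r := by
  have hr := h.pos
  refine ⟨r / (a + 1), by positivity, ?_⟩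
  rw [div_mul_eq_mul_div, div_lt_iff₀ (by positivity)]
  nlinarith

theorem Lim_diam : ∃ R : ℝ, 0 < R ∧ ∀ x y : M, dist x y ≤ R := by
  refine ⟨Metric.diam (univ : Set M) + 1, by have := Metric.diam_nonneg (s := (univ : Set M)); linarith,
    fun x y => ?_⟩
  have := Metric.dist_le_diam_of_mem (isCompact_univ (X := M)).isBounded (mem_univ x) (mem_univ y)
  linarith

/-- The pointwise limit `γ s` of `e (xs k) (s • vs k)` along the ultrafilter is a `UGeo` of speed
`lim ‖vs k‖` with `γ 0 = x`; apply `exists_eq_of_locGeo`. -/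
theorem conv_exists (h : Geo e r) (U : Ultrafilter κ) {xs : κ → M} (vs : ∀ k, T (xs k)) {x : M}
    (hx : Tendsto xs U (𝓝 x)) {R : ℝ} (hR : ∀ᶠ k in U, ‖vs k‖ ≤ R) :
    ∃ v : T x, Conv e U xs vs x v := by
  obtain ⟨k₀, -, hk₀⟩ := (isCompact_Icc (a := (0 : ℝ)) (b := R)).ultrafilter_le_nhds
    (U.map fun k => ‖vs k‖) (by
      rw [Ultrafilter.coe_map, le_principal_iff, mem_map]
      filter_upwards [hR] with k hk using ⟨norm_nonneg _, hk⟩)
  have hk : Tendsto (fun k => ‖vs k‖) U (𝓝 k₀) := hk₀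
  have hγ : ∀ s : ℝ, ∃ p : M, Tendsto (fun k => e (xs k) (s • vs k)) U (𝓝 p) := fun s => by
    obtain ⟨p, -, hp⟩ := (isCompact_univ (X := M)).ultrafilter_le_nhds
      (U.map fun k => e (xs k) (s • vs k)) (by simp)
    exact ⟨p, hp⟩
  choose γ hγ using hγ
  have hk0 : 0 ≤ k₀ := ge_of_tendsto' hk fun k => norm_nonneg _
  have hu : UGeo γ k₀ r := by
    intro s t hst
    have h1 : Tendsto (fun k => |s - t| * ‖vs k‖) U (𝓝 (|s - t| * k₀)) := hk.const_mul _
    have h2 := (hγ s).dist (hγ t)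
    refine tendsto_nhds_unique h2 (h1.congr' ?_)
    filter_upwards [h1.eventually (gt_mem_nhds hst)] with k hk'
    exact (h.ugeo (xs k) (vs k) s t hk').symm
  have h0 : γ 0 = x := by
    refine tendsto_nhds_unique (hγ 0) (hx.congr fun k => ?_)
    rw [zero_smul, h.zero]
  obtain ⟨ρ, hρ, hρ'⟩ := h.exists_eq_of_locGeo (hu.locGeo h.pos hk0) h0
  refine ⟨ρ, hx, hρ ▸ hk, fun s => ?_⟩
  have := hρ' s
  rw [zero_add] at this
  rw [← this]
  exact hγ s

omit [CompactSpace M] in
/-- the limit is unique (small `s` and `inj`) -/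
theorem conv_unique (h : Geo e r) {l : Filter κ} [l.NeBot] {xs : κ → M} {vs : ∀ k, T (xs k)}
    {x : M} {v v' : T x} (h1 : Conv e l xs vs x v) (h2 : Conv e l xs vs x v') : v = v' := by
  have hn : ‖v‖ = ‖v'‖ := tendsto_nhds_unique h1.2.1 h2.2.1
  obtain ⟨s, hs, hsr⟩ := h.Lim_small ‖v‖ (norm_nonneg _)
  have he : e x (s • v) = e x (s • v') := tendsto_nhds_unique (h1.2.2 s) (h2.2.2 s)
  have := h.toLoc.inj (by rwa [norm_smul, Real.norm_of_nonneg hs.le])
    (by rwa [norm_smul, Real.norm_of_nonneg hs.le, ← hn]) he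
  exact smul_right_injective _ hs.ne' this

omit [CompactSpace M] in
theorem conv_tendsto (h : Geo e r) {l : Filter κ} {xs : κ → M} {vs : ∀ k, T (xs k)} {x : M}
    {v : T x} (hc : Conv e l xs vs x v) {ts : κ → ℝ} {t : ℝ} (ht : Tendsto ts l (𝓝 t)) :
    Tendsto (fun k => e (xs k) (ts k • vs k)) l (𝓝 (e x (t • v))) := by
  refine (hc.2.2 t).congr_dist ?_
  have h1 : Tendsto (fun k => |t - ts k| * ‖vs k‖) l (𝓝 (|t - t| * ‖v‖)) :=
    ((tendsto_const_nhds.sub ht).abs).mul hc.2.1
  rw [sub_self, abs_zero, zero_mul] at h1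
  exact squeeze_zero (fun _ => dist_nonneg) (fun k => h.dist_le _ _ _ _) h1

/-- `tendsto_iff_ultrafilter`, `conv_exists` with a constant base point, `Loc.continuousAt` for
small multiples and `inj` -/
theorem continuous_exp (h : Geo e r) (x : M) : Continuous (e x) := by
  refine continuous_iff_continuousAt.2 fun v => ?_
  refine (tendsto_iff_ultrafilter _ _ _).2 fun U hU => ?_
  have hn : Tendsto (fun u : T x => ‖u‖) U (𝓝 ‖v‖) := (continuous_norm.tendsto v).mono_left hU
  obtain ⟨v', hv'⟩ := h.conv_exists U (xs := fun _ => x) (fun u => u) tendsto_const_nhds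
    (R := ‖v‖ + 1) (hn.eventually (ge_mem_nhds (by linarith)))
  have hn' : ‖v'‖ = ‖v‖ := tendsto_nhds_unique hv'.2.1 hn
  obtain ⟨s, hs, hsr⟩ := h.Lim_small ‖v‖ (norm_nonneg _)
  have hs1 : ‖s • v‖ < r := by rwa [norm_smul, Real.norm_of_nonneg hs.le]
  have hs2 : ‖s • v'‖ < r := by rwa [norm_smul, Real.norm_of_nonneg hs.le, hn']
  have h1 : Tendsto (fun u : T x => e x (s • u)) U (𝓝 (e x (s • v))) :=
    (h.toLoc.continuousAt hs1).tendsto.comp (((continuous_const_smul s).tendsto v).mono_left hU)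
  have he : e x (s • v') = e x (s • v) := tendsto_nhds_unique (hv'.2.2 s) h1
  have hvv : v' = v := smul_right_injective _ hs.ne' (h.toLoc.inj hs2 hs1 he)
  have := hv'.2.2 1
  simpa only [one_smul, hvv] using this

theorem conv_const (h : Geo e r) {l : Filter κ} {x : M} {vs : κ → T x} {v : T x}
    (hv : Tendsto vs l (𝓝 v)) : Conv e l (fun _ => x) vs x v := by
  refine ⟨tendsto_const_nhds, hv.norm, fun s => ?_⟩
  exact ((h.continuous_exp x).tendsto _).comp (hv.const_smul s)

omit [CompactSpace M] in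
theorem conv_min {l : Filter κ} [l.NeBot] {xs : κ → M} {vs : ∀ k, T (xs k)} {x : M} {v : T x}
    (hc : Conv e l xs vs x v) (hm : ∀ᶠ k in l, vs k ∈ MinSet e (xs k)) : v ∈ MinSet e x := by
  have h1 := hc.1.dist (hc.2.2 1)
  rw [one_smul] at h1
  refine tendsto_nhds_unique h1 (hc.2.1.congr' ?_)
  filter_upwards [hm] with k hk
  rw [one_smul]
  exact hk.symm

/-- along every finer ultrafilter the limit is a minimizing vector to `e x v`; `unique_min` -/
theorem conv_lg (h : Geo e r) {l : Filter κ} {xs ms : κ → M} {x : M} {v : T x}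
    (hv : v ∈ Inj e x) (hx : Tendsto xs l (𝓝 x)) (hm : Tendsto ms l (𝓝 (e x v))) :
    Conv e l xs (fun k => lg e (xs k) (ms k)) x v := by
  have key : ∀ U : Ultrafilter κ, (U : Filter κ) ≤ l →
      Conv e U xs (fun k => lg e (xs k) (ms k)) x v := by
    intro U hU
    obtain ⟨R, -, hR⟩ := Lim_diam (M := M)
    obtain ⟨v', hv'⟩ := h.conv_exists U (fun k => lg e (xs k) (ms k)) (hx.mono_left hU) (R := R)
      (Eventually.of_forall fun k => by rw [h.norm_lg]; exact hR _ _)
    have hmin : v' ∈ MinSet e x := conv_min hv' (Eventually.of_forall fun k => h.lg_mem_min _ _)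
    have h1 := hv'.2.2 1
    simp only [one_smul, h.exp_lg] at h1
    have he : e x v' = e x v := tendsto_nhds_unique h1 (hm.mono_left hU)
    rw [← h.unique_min hv hmin he]
    exact hv'
  refine ⟨hx, (tendsto_iff_ultrafilter _ _ _).2 fun U hU => (key U hU).2.1, fun s =>
    (tendsto_iff_ultrafilter _ _ _).2 fun U hU => (key U hU).2.2 s⟩

/-- Finite dimension: along a finer ultrafilter the bounded family `lg e x m` converges in `T x`,
and the limit is minimizing with image `e x v` by `continuous_exp`. -/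
theorem continuousAt_lg [∀ x, FiniteDimensional ℝ (T x)] (h : Geo e r) {x : M} {v : T x}
    (hv : v ∈ Inj e x) : ContinuousAt (lg e x) (e x v) := by
  refine (tendsto_iff_ultrafilter _ _ _).2 fun U hU => ?_
  have : ProperSpace (T x) := FiniteDimensional.proper_real (T x)
  obtain ⟨R, -, hR⟩ := Lim_diam (M := M)
  obtain ⟨v', -, hv'⟩ := (isCompact_closedBall (0 : T x) R).ultrafilter_le_nhds
    (U.map (lg e x)) (by
      rw [Ultrafilter.coe_map, le_principal_iff, mem_map]
      refine univ_mem' fun m => ?_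
      rw [mem_preimage, mem_closedBall_zero_iff, h.norm_lg]
      exact hR _ _)
  have h1 : Tendsto (lg e x) U (𝓝 v') := hv'
  have h2 := h.conv_lg (l := (U : Filter M)) (xs := fun _ => x) (ms := fun m => m) hv
    tendsto_const_nhds hU
  have h3 := h.conv_unique (h.conv_const h1) h2
  rw [h.lg_exp hv, ← h3]
  exact h1

omit [CompactSpace M] in
theorem conv_sup {ψ : M → ℝ} (hψ : Continuous ψ) {l : Filter κ} [l.NeBot] {xs : κ → M}
    {vs : ∀ k, T (xs k)} {x : M} {v : T x} (hc : Conv e l xs vs x v)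
    (hm : ∀ᶠ k in l, vs k ∈ Sup e ψ 1 (xs k)) : v ∈ Sup e ψ 1 x := by
  intro x'
  have h1 : Tendsto (fun k => 1 * ψ (xs k) + 1 ^ 2 * ‖vs k‖ ^ 2 / 2) l
      (𝓝 (1 * ψ x + 1 ^ 2 * ‖v‖ ^ 2 / 2)) :=
    (((hψ.tendsto x).comp hc.1).const_mul 1).add (((hc.2.1.pow 2).const_mul _).div_const 2)
  have h2 : Tendsto (fun k => 1 * ψ x' + cost x' (e (xs k) ((1 : ℝ) • vs k))) l
      (𝓝 (1 * ψ x' + cost x' (e x ((1 : ℝ) • v)))) := by
    refine tendsto_const_nhds.add ?_
    unfold cost
    exact ((tendsto_const_nhds.dist (hc.2.2 1)).pow 2).div_const 2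
  exact le_of_tendsto_of_tendsto h1 h2 (hm.mono fun k hk => hk x')

theorem isCompact_sup [∀ x, FiniteDimensional ℝ (T x)] (h : Geo e r) (ψ : M → ℝ) (x : M) :
    IsCompact (Sup e ψ 1 x) := by
  have : ProperSpace (T x) := FiniteDimensional.proper_real (T x)
  obtain ⟨R, -, hR⟩ := Lim_diam (M := M)
  refine Metric.isCompact_of_isClosed_isBounded ?_
    ((Metric.isBounded_closedBall (x := (0 : T x)) (r := R)).subset fun w hw => ?_)
  · have : Sup e ψ 1 x = ⋂ x', {w : T x | 1 * ψ x + 1 ^ 2 * ‖w‖ ^ 2 / 2 ≤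
        1 * ψ x' + cost x' (e x ((1 : ℝ) • w))} := by
      ext w
      simp only [Sup, mem_ofPred_eq, mem_iInter]
    rw [this]
    refine isClosed_iInter fun x' => isClosed_le (by fun_prop) ?_
    exact continuous_const.add (continuous_cost.comp (continuous_const.prodMk
      ((h.continuous_exp x).comp (continuous_const_smul (1 : ℝ)))))
  · have h1 := h.sup_min zero_le_one hw
    rw [one_smul] at h1
    rw [mem_closedBall_zero_iff, ← show dist x (e x w) = ‖w‖ from h1]
    exact hR _ _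

/-- vectors of the convex hull are bounded like minimizing vectors -/
theorem exists_bound (h : Geo e r) (ψ : M → ℝ) : ∃ R : ℝ, 0 < R ∧ (∀ x y : M, dist x y ≤ R) ∧
    ∀ x, ∀ w ∈ convexHull ℝ (Sup e ψ 1 x), ‖w‖ ≤ R := by
  obtain ⟨R, hR0, hR⟩ := Lim_diam (M := M)
  refine ⟨R, hR0, hR, fun x w hw => ?_⟩
  have : convexHull ℝ (Sup e ψ 1 x) ⊆ Metric.closedBall 0 R := by
    refine convexHull_min (fun u hu => ?_) (convex_closedBall _ _)
    have h1 := h.sup_min zero_le_one hu
    rw [one_smul] at h1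
    rw [mem_closedBall_zero_iff, ← show dist x (e x u) = ‖u‖ from h1]
    exact hR _ _
  exact mem_closedBall_zero_iff.1 (this hw)

end Geo

end Vale.Agent.P234
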