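import Vale.Agent.P234.Spray

/-! Normal coordinates in a chart. -/

open scoped ContDiff Topology
open Filter Set Metric

noncomputable section

namespace Vale.Agent.P234

variable {E : Type*} [NormedAddCommGroup E] [NormedSpace ℝ E] [FiniteDimensional ℝ E]
  {G : E → E →L[ℝ] E →L[ℝ] ℝ}

/-- normal coordinates near `a₀`, inside the set `U` -/
structure Normal (G : E → E →L[ℝ] E →L[ℝ] ℝ) (a₀ : E) (U : Set E) (Y L : E × E → E)
    (δ ρ : ℝ) : Prop where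
  dpos : 0 < δ
  rpos : 0 < ρ
  sub : ball a₀ δ ⊆ U
  zero : ∀ a ∈ ball a₀ δ, Y (a, 0) = a
  deriv : ∀ a ∈ ball a₀ δ, HasFDerivAt (fun v => Y (a, v)) (ContinuousLinearMap.id ℝ E) 0
  smoothY : ∀ a ∈ ball a₀ δ, ∀ v, G a v v < ρ ^ 2 → ContDiffAt ℝ ∞ Y (a, v)
  memY : ∀ a ∈ ball a₀ δ, ∀ v, G a v v < ρ ^ 2 → Y (a, v) ∈ U
  left : ∀ a ∈ ball a₀ δ, ∀ v, G a v v < ρ ^ 2 → L (a, Y (a, v)) = v
  speed : ∀ a ∈ ball a₀ δ, ∀ v, G a v v < ρ ^ 2 → ∀ θ : ℝ, 0 ≤ θ → θ ≤ 1 →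
    G (Y (a, θ • v)) (_root_.deriv (fun s : ℝ => Y (a, s • v)) θ)
      (_root_.deriv (fun s : ℝ => Y (a, s • v)) θ) = G a v v
  smoothL : ∀ a ∈ ball a₀ δ, ∀ b ∈ ball a₀ δ, ContDiffAt ℝ ∞ L (a, b)
  right : ∀ a ∈ ball a₀ δ, ∀ b ∈ ball a₀ δ, Y (a, L (a, b)) = b
  grad : ∀ a ∈ ball a₀ δ, ∀ b ∈ ball a₀ δ, ∀ w,
    (G a (L (a, b)) (fderiv ℝ (fun b' => L (a, b')) b w)) ^ 2 ≤
      G a (L (a, b)) (L (a, b)) * G b w w

theorem normal_coercive (hG : IsMetric G) (a₀ : E) :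
    ∃ c : ℝ, 0 < c ∧ ∀ a ∈ ball a₀ 1, ∀ v, c * ‖v‖ ^ 2 ≤ G a v v := by
  have hc := hG.smooth.continuous
  have hK := (isCompact_closedBall a₀ 1).prod (isCompact_sphere (0 : E) 1)
  obtain ⟨c, c0, h⟩ := hK.exists_forall_le'
    (f := fun z : E × E => G z.1 z.2 z.2) (a := 0) (by fun_prop)
    (fun z hz => hG.pos _ _ (ne_zero_of_mem_unit_sphere ⟨z.2, hz.2⟩))
  refine ⟨c, c0, fun a ha v => ?_⟩
  rcases eq_or_ne v 0 with rfl | hv
  · simp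
  have h0 : 0 < ‖v‖ := norm_pos_iff.2 hv
  have h1 := h (a, ‖v‖⁻¹ • v) ⟨ball_subset_closedBall ha, by simp [norm_smul, h0.ne']⟩
  simp only [map_smul, smul_apply, smul_eq_mul] at h1
  have h2 : ‖v‖⁻¹ * (‖v‖⁻¹ * G a v v) * ‖v‖ ^ 2 = G a v v := by field_simp
  rw [← h2]
  exact mul_le_mul_of_nonneg_right h1 (sq_nonneg _)

omit [FiniteDimensional ℝ E] in
theorem normal_cs (hG : IsMetric G) (b x w : E) : (G b x w) ^ 2 ≤ G b x x * G b w w := by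
  have h0 : ∀ u, 0 ≤ G b u u := fun u => by
    rcases eq_or_ne u 0 with rfl | hu
    · simp
    · exact (hG.pos b u hu).le
  have h := discrim_le_zero (a := G b w w) (b := 2 * G b x w) (c := G b x x) fun t => by
    have h1 := h0 (x + t • w)
    simp only [map_add, map_smul, add_apply, smul_apply,
      smul_eq_mul, hG.symm b w x] at h1
    linarith
  rw [discrim] at h
  linarith

omit [FiniteDimensional ℝ E] in
theorem normal_fderiv {Y : E × E → E} {a₀ : E} (h : DifferentiableAt ℝ Y (a₀, 0))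
    (h0 : ∀ᶠ a in 𝓝 a₀, Y (a, 0) = a)
    (h1 : HasFDerivAt (fun v => Y (a₀, v)) (ContinuousLinearMap.id ℝ E) 0) :
    HasFDerivAt (fun z : E × E => (z.1, Y z))
      (((ContinuousLinearEquiv.refl ℝ E).skewProd (ContinuousLinearEquiv.refl ℝ E)
        (ContinuousLinearMap.id ℝ E) : (E × E) ≃L[ℝ] E × E) : E × E →L[ℝ] E × E) (a₀, 0) := by
  have e1 := (h.hasFDerivAt.comp a₀ (hasFDerivAt_prodMk_left a₀ (0 : E))).unique
    ((hasFDerivAt_id a₀).congr_of_eventuallyEq h0)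
  have e2 := (h.hasFDerivAt.comp (0 : E) (hasFDerivAt_prodMk_right a₀ (0 : E))).unique h1
  refine (hasFDerivAt_fst.prodMk h.hasFDerivAt).congr_fderiv ?_
  refine ContinuousLinearMap.ext fun z => Prod.ext rfl ?_
  have e3 : fderiv ℝ Y (a₀, 0) (z.1, 0) = z.1 := congrArg (fun f : E →L[ℝ] E => f z.1) e1
  have e4 : fderiv ℝ Y (a₀, 0) (0, z.2) = z.2 := congrArg (fun f : E →L[ℝ] E => f z.2) e2
  have e5 : z = (0, z.2) + (z.1, 0) := by simp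
  change fderiv ℝ Y (a₀, 0) z = z.2 + z.1
  rw [e5, map_add, e3, e4]
  simp

/-- The map ` (a, v) ↦ (a, Y (a, v))` has the invertible derivative ` (α, ν) ↦ (α, α + ν)` at
` (a₀, 0)`; `L` is the second component of the local inverse (restrict the source to the open set
where `Y` is smooth and the derivative is invertible). The form `G a` is uniformly coercive for `a`
near `a₀`, so `G a v v < ρ ^ 2` forces `v` small. `grad`: chain rule in `Y (a, L (a, b)) = b`, the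
Gauss lemma at `v = L (a, b)`, and Cauchy-Schwarz for `G b`. -/
theorem IsMetric.exists_normal (hG : IsMetric G) (a₀ : E) {U : Set E} (hU : U ∈ 𝓝 a₀) :
    ∃ (Y L : E × E → E) (δ ρ : ℝ), Normal G a₀ U Y L δ ρ := by
  obtain ⟨Y, δ₀, hδ₀, hY, h0, h1, hg⟩ := hG.exists_exp a₀
  obtain ⟨c, c0, hc⟩ := normal_coercive hG a₀
  have hW : IsOpen (ball a₀ δ₀ ×ˢ ball (0 : E) δ₀) := isOpen_ball.prod isOpen_ball
  have hYa : ∀ z ∈ ball a₀ δ₀ ×ˢ ball (0 : E) δ₀, ContDiffAt ℝ ∞ Y z := fun z hz =>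
    hY.contDiffAt (hW.mem_nhds hz)
  have hz₀ : (a₀, (0 : E)) ∈ ball a₀ δ₀ ×ˢ ball (0 : E) δ₀ :=
    ⟨mem_ball_self hδ₀, mem_ball_self hδ₀⟩
  have hΦ : ∀ z ∈ ball a₀ δ₀ ×ˢ ball (0 : E) δ₀,
      ContDiffAt ℝ ∞ (fun z : E × E => (z.1, Y z)) z := fun z hz =>
    contDiffAt_fst.prodMk (hYa z hz)
  have hd := normal_fderiv ((hYa _ hz₀).differentiableAt (by simp))
    (Filter.eventually_of_mem (ball_mem_nhds a₀ hδ₀) h0) (h1 a₀ hz₀.1)
  obtain ⟨Φ, hΦc, hΦs⟩ : ∃ Φ : OpenPartialHomeomorph (E × E) (E × E),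
      (Φ : E × E → E × E) = (fun z : E × E => (z.1, Y z)) ∧ (a₀, 0) ∈ Φ.source :=
    ⟨(hΦ _ hz₀).toOpenPartialHomeomorph _ hd (by simp), rfl,
      (hΦ _ hz₀).mem_toOpenPartialHomeomorph_source hd (by simp)⟩
  have hY0 : Y (a₀, 0) = a₀ := h0 a₀ hz₀.1
  have n1 : ∀ᶠ z in 𝓝 (a₀, (0 : E)), fderiv ℝ (fun z : E × E => (z.1, Y z)) z ∈
      range ((↑) : ((E × E) ≃L[ℝ] E × E) → E × E →L[ℝ] E × E) :=
    ((hΦ _ hz₀).continuousAt_fderiv (by simp)).eventually_mem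
      (ContinuousLinearEquiv.isOpen.mem_nhds ⟨_, hd.fderiv.symm⟩)
  have n2 : ∀ᶠ z in 𝓝 (a₀, (0 : E)), Y z ∈ U :=
    (hYa _ hz₀).continuousAt.eventually_mem (hY0.symm ▸ hU)
  obtain ⟨ε, ε0, hε⟩ := Metric.eventually_nhds_iff_ball.1
    (n1.and (n2.and ((hW.eventually_mem hz₀).and (Φ.open_source.eventually_mem hΦs))))
  rw [← ball_prod_same] at hε
  have hΦ0 : Φ (a₀, 0) = (a₀, a₀) := by rw [hΦc]; exact Prod.ext rfl hY0
  have n3 : ∀ᶠ z in 𝓝 (a₀, a₀), z ∈ Φ.target :=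
    Φ.open_target.eventually_mem (hΦ0 ▸ Φ.map_source hΦs)
  have n4 : ∀ᶠ z in 𝓝 (a₀, a₀), Φ.symm z ∈ ball a₀ ε ×ˢ ball (0 : E) ε := by
    rw [← hΦ0]
    exact (Φ.tendsto_symm hΦs).eventually_mem
      ((isOpen_ball.prod isOpen_ball).mem_nhds ⟨mem_ball_self ε0, mem_ball_self ε0⟩)
  have n5 : ∀ᶠ z in 𝓝 (a₀, a₀), z.1 ∈ U ∩ (ball a₀ 1 ∩ ball a₀ ε) :=
    continuousAt_fst.eventually_mem
      (inter_mem hU (inter_mem (ball_mem_nhds _ one_pos) (ball_mem_nhds _ ε0)))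
  obtain ⟨δ, δ0, hδ⟩ := Metric.eventually_nhds_iff_ball.1 (n3.and (n4.and n5))
  rw [← ball_prod_same] at hδ
  have k1 : ∀ a ∈ ball a₀ δ, a ∈ U ∩ (ball a₀ 1 ∩ ball a₀ ε) := fun a ha =>
    (hδ (a, a) ⟨ha, ha⟩).2.2
  have k2 : ∀ a ∈ ball a₀ δ, ∀ v, G a v v < (√c * ε) ^ 2 → ‖v‖ < ε := fun a ha v hv => by
    have h2 := (hc a (k1 a ha).2.1 v).trans_lt hv
    rw [mul_pow, Real.sq_sqrt c0.le] at h2
    exact lt_of_pow_lt_pow_left₀ 2 ε0.le (lt_of_mul_lt_mul_left h2 c0.le)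
  have k3 : ∀ a ∈ ball a₀ δ, ∀ v : E, ‖v‖ < ε → (a, v) ∈ ball a₀ ε ×ˢ ball (0 : E) ε :=
    fun a ha v hv => ⟨(k1 a ha).2.2, mem_ball_zero_iff.2 hv⟩
  have k4 : ∀ a ∈ ball a₀ δ, a ∈ ball a₀ δ₀ := fun a ha =>
    (hε _ (k3 a ha 0 (by simpa using ε0))).2.2.1.1
  have k5 : ∀ a ∈ ball a₀ δ, ∀ v : E, ‖v‖ < ε → DifferentiableAt ℝ (fun u => Y (a, u)) v :=
    fun a ha v hv => ((hYa _ (hε _ (k3 a ha v hv)).2.2.1).differentiableAt (by simp)).comp v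
      (hasFDerivAt_prodMk_right a v).differentiableAt
  have k6 : ∀ a ∈ ball a₀ δ, ∀ b ∈ ball a₀ δ, Y (a, (Φ.symm (a, b)).2) = b := fun a ha b hb => by
    have h2 := Φ.right_inv (hδ (a, b) ⟨ha, hb⟩).1
    rw [hΦc] at h2
    have h3 : (Φ.symm (a, b)).1 = a := congrArg Prod.fst h2
    have h4 : Y (Φ.symm (a, b)) = b := congrArg Prod.snd h2
    have h5 : (a, (Φ.symm (a, b)).2) = Φ.symm (a, b) := Prod.ext h3.symm rfl
    rw [h5, h4]
  have k7 : ∀ a ∈ ball a₀ δ, ∀ b ∈ ball a₀ δ,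
      ContDiffAt ℝ ∞ (fun z => (Φ.symm z).2) (a, b) := fun a ha b hb => by
    obtain ⟨h2, h3, -⟩ := hδ (a, b) ⟨ha, hb⟩
    obtain ⟨⟨e, he⟩, -, h4, -⟩ := hε _ h3
    refine (Φ.contDiffAt_symm (f₀' := e) h2 ?_ ?_).snd
    · rw [he, hΦc]
      exact ((hΦ _ h4).differentiableAt (by simp)).hasFDerivAt
    · rw [hΦc]
      exact hΦ _ h4
  refine ⟨Y, fun z => (Φ.symm z).2, δ, √c * ε, δ0, by positivity, fun a ha => (k1 a ha).1,
    fun a ha => h0 a (k4 a ha), fun a ha => h1 a (k4 a ha),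
    fun a ha v hv => hYa _ (hε _ (k3 a ha v (k2 a ha v hv))).2.2.1,
    fun a ha v hv => (hε _ (k3 a ha v (k2 a ha v hv))).2.1, fun a ha v hv => ?_,
    fun a ha v hv θ θ0 θ1 => ?_, k7, k6, fun a ha b hb w => ?_⟩
  · have h2 := Φ.left_inv (hε _ (k3 a ha v (k2 a ha v hv))).2.2.2
    rw [hΦc] at h2
    exact congrArg Prod.snd h2
  · have h2 : ‖θ • v‖ < ε := by
      rw [norm_smul, Real.norm_of_nonneg θ0]
      exact (mul_le_of_le_one_left (norm_nonneg v) θ1).trans_lt (k2 a ha v hv)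
    have h3 : deriv (fun s : ℝ => Y (a, s • v)) θ = fderiv ℝ (fun u => Y (a, u)) (θ • v) v := by
      have h4 := (k5 a ha _ h2).hasFDerivAt.comp_hasDerivAt θ ((hasDerivAt_id θ).smul_const v)
      rw [one_smul] at h4
      exact h4.deriv
    rw [h3]
    rcases θ0.eq_or_lt with rfl | θ0
    · rw [zero_smul, (h1 a (k4 a ha)).fderiv, h0 a (k4 a ha)]
      rfl
    · have h4 := hg a (k4 a ha) _ (hε _ (k3 a ha _ h2)).2.2.1.2 v
      simp only [map_smul, smul_apply, smul_eq_mul] at h4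
      exact mul_left_cancel₀ θ0.ne' h4
  · have h2 := (hδ (a, b) ⟨ha, hb⟩).2.1.2
    have h3 := (hε _ (k3 a ha _ (mem_ball_zero_iff.1 h2))).2.2.1.2
    have h4 : DifferentiableAt ℝ (fun b' => (Φ.symm (a, b')).2) b :=
      ((k7 a ha b hb).differentiableAt (by simp)).comp b
        (hasFDerivAt_prodMk_right a b).differentiableAt
    have h7 := (k5 a ha _ (mem_ball_zero_iff.1 h2)).hasFDerivAt.comp b h4.hasFDerivAt
    have h5 := h7.unique ((hasFDerivAt_id b).congr_of_eventuallyEq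
      (Filter.eventually_of_mem (isOpen_ball.mem_nhds hb) (k6 a ha)))
    have h6 : fderiv ℝ (fun u => Y (a, u)) (Φ.symm (a, b)).2
        (fderiv ℝ (fun b' => (Φ.symm (a, b')).2) b w) = w :=
      congrArg (fun f : E →L[ℝ] E => f w) h5
    rw [← hg a (k4 a ha) _ h3, ← hg a (k4 a ha) _ h3, h6, k6 a ha b hb]
    exact normal_cs hG b _ w

end Vale.Agent.P234
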