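import Vale.Agent.P234.Chart
import Vale.Agent.P234.Normal

/-! The local exponential map of a compact Riemannian manifold. -/

open scoped ContDiff Topology Bundle Manifold
open Filter Set Metric

noncomputable section

namespace Vale.Agent.P234

variable {E : Type*} [NormedAddCommGroup E] [NormedSpace ℝ E] [FiniteDimensional ℝ E]
  {M : Type*} [MetricSpace M] [ChartedSpace E M]
  [Bundle.RiemannianBundle fun x : M => TangentSpace 𝓘(ℝ, E) x] [IsManifold 𝓘(ℝ, E) ∞ M]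
  [IsContMDiffRiemannianBundle 𝓘(ℝ, E) ∞ E fun x : M => TangentSpace 𝓘(ℝ, E) x]
  [IsRiemannianManifold 𝓘(ℝ, E) M]

/-- `t ↦ l x (t • v)` has velocity `v` at time zero -/
def HasVel (l : ∀ x : M, TangentSpace 𝓘(ℝ, E) x → M) (x : M) : Prop :=
  ∀ v : TangentSpace 𝓘(ℝ, E) x, HasMFDerivAt 𝓘(ℝ, ℝ) 𝓘(ℝ, E) (fun t : ℝ => l x (t • v)) 0
    (ContinuousLinearMap.toSpanSingleton ℝ (show E from v))

section Aux

variable {p₀ : M} {W : Set M} {U : Set E} {φ : M → E} {ι : E → M}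
  {θ : ∀ x : M, E →L[ℝ] TangentSpace 𝓘(ℝ, E) x} {G : E → E →L[ℝ] E →L[ℝ] ℝ}
  {a₀ : E} {Y L : E × E → E} {δ ρ : ℝ}

omit [FiniteDimensional ℝ E] in
theorem Local_nonneg (hG : IsMetric G) (a u : E) : 0 ≤ G a u u := by
  rcases eq_or_ne u 0 with rfl | hu
  · simp
  · exact (hG.pos a u hu).le

omit [FiniteDimensional ℝ E] in
theorem Local_smul (hG : IsMetric G) {a u : E} (hu : G a u u < ρ ^ 2) {s : ℝ} (h0 : 0 ≤ s)
    (h1 : s ≤ 1) : G a (s • u) (s • u) < ρ ^ 2 := by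
  simp only [map_smul, smul_apply, smul_eq_mul]
  have k := Local_nonneg hG a u
  exact ((mul_le_of_le_one_left (mul_nonneg h0 k) h1).trans
    (mul_le_of_le_one_left k h1)).trans_lt hu

omit [FiniteDimensional ℝ E] in
theorem Local_zero (hN : Normal G a₀ U Y L δ ρ) {a : E} (ha : a ∈ ball a₀ δ) :
    L (a, a) = 0 := by
  have k := hN.left a ha 0 (by simpa using pow_pos hN.rpos 2)
  rwa [hN.zero a ha] at k

omit [FiniteDimensional ℝ E] in
theorem Local_grad (hG : IsMetric G) (hN : Normal G a₀ U Y L δ ρ) {a b : E} (ha : a ∈ ball a₀ δ)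
    (hb : b ∈ ball a₀ δ) {ε : ℝ} (hε : 0 < ε) :
    ContDiffAt ℝ 1 (fun b => √(G a (L (a, b)) (L (a, b)) + ε ^ 2)) b ∧
      ∀ w, (fderiv ℝ (fun b => √(G a (L (a, b)) (L (a, b)) + ε ^ 2)) b w) ^ 2 ≤ G b w w := by
  have h1 : ContDiffAt ℝ 1 (fun b => L (a, b)) b :=
    ((hN.smoothL a ha b hb).of_le (by simp)).comp b (contDiffAt_const.prodMk contDiffAt_id)
  have h2 := Local_nonneg hG a (L (a, b))
  have h3 : 0 < G a (L (a, b)) (L (a, b)) + ε ^ 2 := by positivity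
  refine ⟨(((contDiffAt_const.clm_apply h1).clm_apply h1).add contDiffAt_const).sqrt h3.ne',
    fun w => ?_⟩
  have d1 := (h1.differentiableAt one_ne_zero).hasFDerivAt
  have d2 : HasFDerivAt (fun b => √(G a (L (a, b)) (L (a, b)) + ε ^ 2)) _ b :=
    (((((G a).hasFDerivAt.comp b d1).clm_apply d1)).add_const (ε ^ 2)).sqrt h3.ne'
  have k1 := hN.grad a ha b hb w
  have k2 := Local_nonneg hG b w
  have k3 := Real.sqrt_pos.2 h3
  rw [d2.fderiv]
  simp only [smul_apply, add_apply, ContinuousLinearMap.comp_apply, ContinuousLinearMap.flip_apply,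
    Function.comp_apply, smul_eq_mul, hG.symm a _ (L (a, b))]
  have k4 : ∀ X : ℝ, (1 / (2 * √(G a (L (a, b)) (L (a, b)) + ε ^ 2)) * (X + X)) ^ 2 =
      X ^ 2 / (G a (L (a, b)) (L (a, b)) + ε ^ 2) := fun X => by
    conv_rhs => rw [← Real.sq_sqrt h3.le]
    field_simp
    ring
  rw [k4, div_le_iff₀ h3]
  nlinarith [mul_nonneg k2 (sq_nonneg ε)]

omit [FiniteDimensional ℝ E]
  [IsContMDiffRiemannianBundle 𝓘(ℝ, E) ∞ E fun x : M => TangentSpace 𝓘(ℝ, E) x] in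
theorem Local_upper (h : Chart p₀ W U φ ι θ G) (hN : Normal G a₀ U Y L δ ρ) {a u : E}
    (ha : a ∈ ball a₀ δ) (hu : G a u u < ρ ^ 2) {s t : ℝ} (h0 : 0 ≤ s) (hst : s ≤ t)
    (h1 : t ≤ 1) : dist (ι (Y (a, s • u))) (ι (Y (a, t • u))) ≤ (t - s) * √(G a u u) := by
  refine h.upper (β := fun s : ℝ => Y (a, s • u)) hst (Real.sqrt_nonneg _) fun σ hσ => ?_
  have k := Local_smul h.metric hu (h0.trans hσ.1) (hσ.2.trans h1)
  refine ⟨((hN.smoothY a ha _ k).of_le (by simp)).comp σ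
    (contDiffAt_const.prodMk (contDiffAt_id.smul contDiffAt_const)), hN.memY a ha _ k, ?_⟩
  rw [Real.sq_sqrt (Local_nonneg h.metric a u)]
  exact (hN.speed a ha u hu σ (h0.trans hσ.1) (hσ.2.trans h1)).le

omit [FiniteDimensional ℝ E]
  [IsContMDiffRiemannianBundle 𝓘(ℝ, E) ∞ E fun x : M => TangentSpace 𝓘(ℝ, E) x] in
theorem Local_dist (h : Chart p₀ W U φ ι θ G) (hN : Normal G (φ p₀) U Y L δ ρ) :
    ∃ R : ℝ, 0 < R ∧ (∀ x ∈ ball p₀ R, x ∈ W ∧ φ x ∈ ball (φ p₀) δ) ∧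
      (∀ x ∈ ball p₀ R, ∀ y ∈ ball p₀ R,
        √(G (φ x) (L (φ x, φ y)) (L (φ x, φ y))) ≤ dist x y) ∧
      ∀ x ∈ ball p₀ R, ∀ y ∈ ball p₀ R,
        dist x y = √(G (φ x) (L (φ x, φ y)) (L (φ x, φ y))) := by
  have c0 : ContinuousAt φ p₀ := (h.smoothφ.contMDiffAt (h.openW.mem_nhds h.mem)).continuousAt
  have m0 := mem_ball_self (x := φ p₀) hN.dpos
  obtain ⟨R₀, hR₀, hB⟩ := Metric.eventually_nhds_iff_ball.1
    ((h.openW.eventually_mem h.mem).and (c0.eventually_mem (ball_mem_nhds _ hN.dpos)))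
  have c1 : ContinuousAt (fun z : E × E => G z.1 (L z) (L z)) (φ p₀, φ p₀) :=
    (((h.metric.smooth.contDiffAt.comp _ contDiffAt_fst).clm_apply
      (hN.smoothL _ m0 _ m0)).clm_apply (hN.smoothL _ m0 _ m0)).continuousAt
  have c2 : ContinuousAt (fun z : M × M => G (φ z.1) (L (φ z.1, φ z.2)) (L (φ z.1, φ z.2)))
      (p₀, p₀) :=
    ContinuousAt.comp (f := fun z : M × M => (φ z.1, φ z.2)) (x := (p₀, p₀)) c1
      (c0.fst'.prodMk c0.snd')
  obtain ⟨R₁, hR₁, hC⟩ := Metric.eventually_nhds_iff_ball.1 (c2.eventually_lt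
    (continuousAt_const (y := ρ ^ 2)) (by simpa [Local_zero hN m0] using pow_pos hN.rpos 2))
  have s0 : ball p₀ (min (R₀ / 3) R₁) ⊆ ball p₀ R₀ :=
    ball_subset_ball ((min_le_left _ _).trans (by linarith))
  have s1 : ball p₀ (min (R₀ / 3) R₁) ⊆ ball p₀ R₁ := ball_subset_ball (min_le_right _ _)
  have low : ∀ x ∈ ball p₀ (min (R₀ / 3) R₁), ∀ y ∈ ball p₀ (min (R₀ / 3) R₁),
      √(G (φ x) (L (φ x, φ y)) (L (φ x, φ y))) ≤ dist x y := fun x hx y hy => by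
    refine le_of_forall_pos_le_add fun ε hε => ?_
    have k1 := (mem_ball.1 hx).trans_le (min_le_left _ _)
    have k2 := (mem_ball.1 hy).trans_le (min_le_left _ _)
    have k3 := dist_triangle_right x y p₀
    have k := h.lower (f := fun b => √(G (φ x) (L (φ x, b)) (L (φ x, b)) + ε ^ 2)) (x := x) (y := y)
      (R := 2 * R₀ / 3) (fun z hz => by
        have k4 : z ∈ ball p₀ R₀ := by
          have k5 := dist_triangle z x p₀
          rw [mem_ball] at hz ⊢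
          linarith
        exact ⟨(hB z k4).1, Local_grad h.metric hN (hB x (s0 hx)).2 (hB z k4).2 hε⟩)
      (by linarith)
    simp only [Local_zero hN (hB x (s0 hx)).2, map_zero, zero_add, Real.sqrt_sq hε.le] at k
    have k6 := Real.sqrt_le_sqrt (le_add_of_nonneg_right (sq_nonneg ε) :
      G (φ x) (L (φ x, φ y)) (L (φ x, φ y)) ≤ _)
    linarith
  refine ⟨min (R₀ / 3) R₁, lt_min (by linarith) hR₁, fun x hx => hB x (s0 hx), low,
    fun x hx y hy => le_antisymm ?_ (low x hx y hy)⟩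
  have k := Local_upper h hN (hB x (s0 hx)).2
    (hC (x, y) (by rw [← ball_prod_same]; exact ⟨s1 hx, s1 hy⟩)) le_rfl zero_le_one le_rfl
  rwa [zero_smul, one_smul, hN.zero _ (hB x (s0 hx)).2, h.left x (hB x (s0 hx)).1,
    hN.right _ (hB x (s0 hx)).2 _ (hB y (s0 hy)).2, h.left y (hB y (s0 hy)).1, sub_zero,
    one_mul] at k

end Aux


/-- Local statement near `p₀`. With a `Chart` and `Normal` coordinates at `φ p₀`, put
`l x v = ι (Y (φ x, (θ x)⁻¹ v))`. Lower bound `dist x y ≥ √(G a (L (a, b)) (L (a, b)))` for `x, y` near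
`p₀` from `Chart.lower` with `f b = √(G a (L (a, b)) (L (a, b)) + ε)` and `Normal.grad`; upper bound
from `Chart.upper` and `Normal.speed`. So `cost x y = G a (L (a, b)) (L (a, b)) / 2` near `p₀`. -/
theorem exists_local (p₀ : M) : ∃ (l : ∀ x : M, TangentSpace 𝓘(ℝ, E) x → M) (R : ℝ), 0 < R ∧
    (∀ x ∈ ball p₀ R, l x 0 = x) ∧ (∀ x ∈ ball p₀ R, HasVel l x) ∧
    (∀ x ∈ ball p₀ R, ∀ v : TangentSpace 𝓘(ℝ, E) x, ‖v‖ < R → ∀ s t : ℝ, 0 ≤ s → s ≤ t → t ≤ 1 →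
      dist (l x (s • v)) (l x (t • v)) = (t - s) * ‖v‖) ∧
    (∀ x ∈ ball p₀ R, ∀ y ∈ ball p₀ R, dist x y < R →
      ∃ v : TangentSpace 𝓘(ℝ, E) x, ‖v‖ = dist x y ∧ l x v = y) ∧
    (∀ x ∈ ball p₀ R, ∀ v : TangentSpace 𝓘(ℝ, E) x, ‖v‖ < R →
      ContMDiffAt 𝓘(ℝ, TangentSpace 𝓘(ℝ, E) x) 𝓘(ℝ, E) ∞ (l x) v) ∧
    ∀ x ∈ ball p₀ R, ∀ y ∈ ball p₀ R,
      ContMDiffAt (𝓘(ℝ, E).prod 𝓘(ℝ, E)) 𝓘(ℝ, ℝ) ∞ (fun z : M × M => cost z.1 z.2) (x, y) := by
  obtain ⟨W, U, φ, ι, θ, G, h⟩ := exists_chart (E := E) p₀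
  obtain ⟨Y, L, δ, ρ, hN⟩ := h.metric.exists_normal (φ p₀) (h.openU.mem_nhds (h.mapsφ h.mem))
  have hη : ∀ x : M, ∃ η : TangentSpace 𝓘(ℝ, E) x →L[ℝ] E, x ∈ W →
      (∀ u, η (θ x u) = u) ∧ ∀ v, θ x (η v) = v := fun x => by
    by_cases hx : x ∈ W
    · let e := (LinearEquiv.ofBijective (θ x).toLinearMap (h.bij x hx)).toContinuousLinearEquiv
      exact ⟨e.symm, fun _ => ⟨e.symm_apply_apply, e.apply_symm_apply⟩⟩
    · exact ⟨0, fun h => absurd h hx⟩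
  choose η hη using hη
  have hn : ∀ x ∈ W, ∀ v, G (φ x) (η x v) (η x v) = ‖v‖ ^ 2 := fun x hx v => by
    rw [← h.inner x hx, (hη x hx).2, real_inner_self_eq_norm_sq]
  obtain ⟨R, hR, hB, hlow, hd⟩ := Local_dist h hN
  have hr : 0 < min (R / 2) ρ := lt_min (by linarith) hN.rpos
  have hs : ball p₀ (min (R / 2) ρ) ⊆ ball p₀ R :=
    ball_subset_ball ((min_le_left _ _).trans (by linarith))
  have hv : ∀ x ∈ W, ∀ v : TangentSpace 𝓘(ℝ, E) x, ‖v‖ < min (R / 2) ρ →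
      G (φ x) (η x v) (η x v) < ρ ^ 2 := fun x hx v hv => by
    rw [hn x hx]
    exact pow_lt_pow_left₀ (hv.trans_le (min_le_right _ _)) (norm_nonneg _) two_ne_zero
  refine ⟨fun x v => ι (Y (φ x, η x v)), min (R / 2) ρ, hr, fun x hx => ?_, fun x hx v => ?_,
    fun x hx v hvr s t h0 hst h1 => ?_, fun x hx y hy _ => ?_, fun x hx v hvr => ?_,
    fun x hx y hy => ?_⟩
  · simp only [map_zero, hN.zero _ (hB x (hs hx)).2, h.left x (hB x (hs hx)).1]
  · obtain ⟨hW, hb⟩ := hB x (hs hx)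
    have k0 : ∀ (a : E) (x' : M), a ∈ U → ι a = x' →
        HasMFDerivAt 𝓘(ℝ, E) 𝓘(ℝ, E) ι a (show E →L[ℝ] E from θ x') := by
      rintro a _ ha rfl
      exact h.deriv a ha
    have k1 : Y (φ x, η x ((0 : ℝ) • v)) = φ x := by rw [zero_smul, map_zero, hN.zero _ hb]
    have k2 : HasDerivAt (fun t : ℝ => η x (t • v)) (η x v) 0 := by
      simpa using (hasDerivAt_id (0 : ℝ)).smul_const (η x v)
    have k3 : HasDerivAt (fun t : ℝ => Y (φ x, η x (t • v))) (η x v) 0 := by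
      have k := HasFDerivAt.comp_hasDerivAt_of_eq 0 (hN.deriv _ hb) k2 (by simp)
      exact k
    have k4 := (k0 _ x (k1.symm ▸ h.mapsφ hW) (by rw [k1, h.left x hW])).comp
      (f := fun t : ℝ => Y (φ x, η x (t • v))) 0 k3.hasFDerivAt.hasMFDerivAt
    refine k4.congr_mfderiv (ContinuousLinearMap.ext fun c : ℝ => ?_)
    change θ x (c • η x v) = c • v
    rw [map_smul, (hη x hW).2]
  · obtain ⟨hW, hb⟩ := hB x (hs hx)
    have k0 := hv x hW v hvr
    have k1 := Local_upper h hN hb k0 h0 hst h1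
    have k2 := Local_upper h hN hb k0 le_rfl h0 (hst.trans h1)
    have k3 := Local_upper h hN hb k0 le_rfl (h0.trans hst) h1
    have k4 := Local_smul h.metric k0 (h0.trans hst) h1
    rw [hn x hW, Real.sqrt_sq (norm_nonneg _)] at k1 k2 k3
    rw [zero_smul, hN.zero _ hb, h.left x hW, sub_zero] at k2 k3
    have k5 : ι (Y (φ x, t • η x v)) ∈ ball p₀ R := by
      have k6 := dist_triangle_left (ι (Y (φ x, t • η x v))) p₀ x
      have k7 := mul_le_of_le_one_left (norm_nonneg v) h1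
      have k8 := hvr.trans_le (min_le_left _ _)
      have k9 := (mem_ball.1 hx).trans_le (min_le_left _ _)
      rw [mem_ball]
      linarith
    have k6 := hlow x (hs hx) _ k5
    rw [h.right _ (hN.memY _ hb _ k4), hN.left _ hb _ k4, ← map_smul, hn x hW,
      Real.sqrt_sq (norm_nonneg _), norm_smul, Real.norm_of_nonneg (h0.trans hst), map_smul] at k6
    have k7 := dist_triangle x (ι (Y (φ x, s • η x v))) (ι (Y (φ x, t • η x v)))
    simp only [map_smul]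
    linarith
  · obtain ⟨hW, hb⟩ := hB x (hs hx)
    obtain ⟨hW', hb'⟩ := hB y (hs hy)
    refine ⟨θ x (L (φ x, φ y)), ?_, ?_⟩
    · rw [hd x (hs hx) y (hs hy), ← h.inner x hW, real_inner_self_eq_norm_sq,
        Real.sqrt_sq (norm_nonneg _)]
    · simp only [(hη x hW).1, hN.right _ hb _ hb', h.left y hW']
  · obtain ⟨hW, hb⟩ := hB x (hs hx)
    have k0 := hv x hW v hvr
    have k1 : ContDiffAt ℝ ∞ (fun v : TangentSpace 𝓘(ℝ, E) x => Y (φ x, η x v)) v :=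
      (hN.smoothY _ hb _ k0).comp v (contDiffAt_const.prodMk (η x).contDiff.contDiffAt)
    exact (h.smoothι.contMDiffAt (h.openU.mem_nhds (hN.memY _ hb _ k0))).comp v k1.contMDiffAt
  · obtain ⟨hW, hb⟩ := hB x (hs hx)
    obtain ⟨hW', hb'⟩ := hB y (hs hy)
    have k1 : ContDiffAt ℝ ∞ (fun z : E × E => G z.1 (L z) (L z) / 2) (φ x, φ y) :=
      (((h.metric.smooth.contDiffAt.comp _ contDiffAt_fst).clm_apply
        (hN.smoothL _ hb _ hb')).clm_apply (hN.smoothL _ hb _ hb')).div_const 2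
    have k2 : ContMDiffAt (𝓘(ℝ, E).prod 𝓘(ℝ, E)) 𝓘(ℝ, E × E) ∞
        (fun z : M × M => (φ z.1, φ z.2)) (x, y) :=
      ((h.smoothφ.contMDiffAt (h.openW.mem_nhds hW)).comp (x, y) contMDiffAt_fst).prodMk_space
        ((h.smoothφ.contMDiffAt (h.openW.mem_nhds hW')).comp (x, y) contMDiffAt_snd)
    refine (k1.contMDiffAt.comp (x, y) k2).congr_of_eventuallyEq ?_
    filter_upwards [prod_mem_nhds (isOpen_ball.mem_nhds (hs hx)) (isOpen_ball.mem_nhds (hs hy))]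
      with z hz
    rw [cost, hd _ hz.1 _ hz.2, Real.sq_sqrt (Local_nonneg h.metric _ _)]
    rfl

omit [FiniteDimensional ℝ E] [Bundle.RiemannianBundle fun x : M => TangentSpace 𝓘(ℝ, E) x]
  [IsManifold 𝓘(ℝ, E) ∞ M]
  [IsContMDiffRiemannianBundle 𝓘(ℝ, E) ∞ E fun x : M => TangentSpace 𝓘(ℝ, E) x]
  [IsRiemannianManifold 𝓘(ℝ, E) M] in
theorem Local_comp {A B : Type*} [NormedAddCommGroup A] [NormedSpace ℝ A] [NormedAddCommGroup B]
    [NormedSpace ℝ B] {f : A → M} {g : B → M} {a : A} {b : B} {c : M × M → ℝ}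
    (hf : ContMDiffAt 𝓘(ℝ, A) 𝓘(ℝ, E) ∞ f a) (hg : ContMDiffAt 𝓘(ℝ, B) 𝓘(ℝ, E) ∞ g b)
    (hc : ContMDiffAt (𝓘(ℝ, E).prod 𝓘(ℝ, E)) 𝓘(ℝ, ℝ) ∞ c (f a, g b)) :
    ContDiffAt ℝ ∞ (fun z : A × B => c (f z.1, g z.2)) (a, b) :=
  (hc.comp (a, b) ((hf.comp (a, b) contDiffAt_fst.contMDiffAt).prodMk
    (hg.comp (a, b) contDiffAt_snd.contMDiffAt))).contDiffAt


/-- finite subcover by the balls `ball p₀ (R p₀ / 2)`, `r` the least `R p₀ / 2` -/
theorem exists_loc [CompactSpace M] : ∃ (l : ∀ x : M, TangentSpace 𝓘(ℝ, E) x → M) (r : ℝ),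
    Loc l r ∧ ∀ x, HasVel l x := by
  choose l R hR h0 hvel hray hsurj hsm hcost using fun p₀ : M => exists_local (E := E) p₀
  obtain ⟨t, -, ht⟩ := isCompact_univ.elim_nhds_subcover (fun p : M => ball p (R p / 2))
    fun p _ => ball_mem_nhds p (half_pos (hR p))
  have hp : ∀ x : M, ∃ p ∈ t, x ∈ ball p (R p / 2) := fun x => by
    simpa only [mem_iUnion, exists_prop] using ht (mem_univ x)
  choose p hpt hp using hp
  obtain ⟨r, hr, r0⟩ := (((eventually_all_finset t).2 fun q _ =>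
    (eventually_lt_nhds (half_pos (hR q))).filter_mono (nhdsWithin_le_nhds (s := Ioi 0))).and
      self_mem_nhdsWithin).exists
  have h1 : ∀ x, r < R (p x) := fun x => (hr _ (hpt x)).trans (half_lt_self (hR _))
  have h2 : ∀ x, x ∈ ball (p x) (R (p x)) := fun x =>
    ball_subset_ball (half_le_self (hR _).le) (hp x)
  have h3 : ∀ x y, dist x y < r → y ∈ ball (p x) (R (p x)) := fun x y hxy => by
    have k1 := dist_triangle_left y (p x) x
    have k2 := mem_ball.1 (hp x)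
    have k3 := hr _ (hpt x)
    rw [mem_ball]
    linarith
  refine ⟨fun x => l (p x) x, r, ⟨r0, fun x => h0 _ x (h2 x),
    fun x v hv => hray _ x (h2 x) v (hv.trans (h1 x)),
    fun x y hxy => hsurj _ x (h2 x) y (h3 x y hxy) (hxy.trans (h1 x)),
    fun x y a b ha hb hab => ?_, exists_mid (E := E), fun _ _ => rfl⟩, fun x => hvel _ x (h2 x)⟩
  exact Local_comp (hsm _ x (h2 x) a (ha.trans (h1 x))) (hsm _ y (h2 y) b (hb.trans (h1 y)))
    (hcost _ _ (h2 _) _ (h3 _ _ hab))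

end Vale.Agent.P234
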