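import Vale.Agent.P234.Local
import Vale.Agent.P234.Ext
import Vale.Agent.P234.Cross

/-! Assembly. -/

open scoped ContDiff Topology Bundle Manifold
open Filter Set Metric

noncomputable section

namespace Vale.Agent.P234

variable {E : Type*} [NormedAddCommGroup E] [NormedSpace ℝ E] [FiniteDimensional ℝ E]
  {M : Type*} [MetricSpace M] [ChartedSpace E M]

omit [FiniteDimensional ℝ E] in
theorem main_mk_eq {x y : M} (h : y = x) (u : TangentSpace 𝓘(ℝ, E) y)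
    (v : TangentSpace 𝓘(ℝ, E) x) :
    (⟨y, u⟩ : TangentBundle 𝓘(ℝ, E) M) = ⟨x, v⟩ ↔ (show E from u) = (show E from v) := by
  subst h
  simp only [Bundle.TotalSpace.mk_inj]
  exact Iff.rfl

variable [Bundle.RiemannianBundle fun x : M => TangentSpace 𝓘(ℝ, E) x] [IsManifold 𝓘(ℝ, E) ∞ M]
  [IsContMDiffRiemannianBundle 𝓘(ℝ, E) ∞ E fun x : M => TangentSpace 𝓘(ℝ, E) x]
  [IsRiemannianManifold 𝓘(ℝ, E) M] [CompactSpace M]

theorem exists_geo_vel : ∃ (e : ∀ x : M, TangentSpace 𝓘(ℝ, E) x → M) (r : ℝ),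
    Geo e r ∧ ∀ x v (γ : ℝ → M), IsGeodesicFrom E x v γ ↔ γ = fun t : ℝ => e x (t • v) := by
  obtain ⟨l, r₀, hl, hvel⟩ := exists_loc (E := E) (M := M)
  obtain ⟨e, r, he, hel⟩ := hl.exists_geo
  have hv : ∀ x, HasVel e x := fun x v => by
    refine (hvel x v).congr_of_eventuallyEq ?_
    have : Tendsto (fun t : ℝ => ‖t • v‖) (𝓝 0) (𝓝 ‖(0 : ℝ) • v‖) :=
      (continuous_id.smul continuous_const).norm.tendsto 0
    rw [zero_smul, norm_zero] at this
    filter_upwards [this.eventually (gt_mem_nhds he.pos)] with t ht using hel x _ ht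
  have key : ∀ (x : M) (v ρ : TangentSpace 𝓘(ℝ, E) x),
      (⟨e x ((0 : ℝ) • ρ), mfderiv 𝓘(ℝ, ℝ) 𝓘(ℝ, E) (fun t : ℝ => e x (t • ρ)) 0 1⟩ :
        TangentBundle 𝓘(ℝ, E) M) = ⟨x, v⟩ ↔ ρ = v := fun x v ρ => by
    rw [main_mk_eq (by rw [zero_smul, he.zero]), (hv x ρ).mfderiv]
    change (1 : ℝ) • (show E from ρ) = (show E from v) ↔ _
    rw [one_smul]
    exact Iff.rfl
  refine ⟨e, r, he, fun x v γ => ⟨?_, ?_⟩⟩
  · rintro ⟨⟨k, hk⟩, -, hγ⟩
    have h0 : γ 0 = x := congrArg Bundle.TotalSpace.proj hγ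
    obtain ⟨ρ, -, hρ⟩ := he.exists_eq_of_locGeo (γ := γ) (k := k) hk h0
    have e1 : γ = fun t : ℝ => e x (t • ρ) := funext fun t => by simpa using hρ t
    subst e1
    rw [(key x v ρ).1 hγ]
  · rintro rfl
    exact ⟨⟨‖v‖, he.locGeo x v⟩, (hv x v).mdifferentiableAt, (key x v v).2 rfl⟩

theorem villani : (∀ (x : M) (v : TangentSpace 𝓘(ℝ, E) x), ∃! γ : ℝ → M, IsGeodesicFrom E x v γ) ∧
    (WeakMTW E M → ∀ x : M, Convex ℝ (injDomain E x)) := by
  obtain ⟨e, r, he, hγ⟩ := exists_geo_vel (E := E) (M := M)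
  have hexp : expMap E = e := by
    funext x v
    have h : ∃ γ : ℝ → M, IsGeodesicFrom E x v γ := ⟨_, (hγ x v _).2 rfl⟩
    rw [expMap, dif_pos h, (hγ x v _).1 h.choose_spec]
    simp
  refine ⟨fun x v => ⟨_, (hγ x v _).2 rfl, fun γ h => (hγ x v γ).1 h⟩, fun hm x => ?_⟩
  have : ∀ x : M, FiniteDimensional ℝ (TangentSpace 𝓘(ℝ, E) x) := fun _ =>
    inferInstanceAs (FiniteDimensional ℝ E)
  have hI : ∀ x : M, injDomain E x = Inj e x := fun x => by
    rw [injDomain, hexp]; rfl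
  rw [hI]
  refine he.convex_inj (fun x v hv ξ η hξη => ?_) x
  have := hm x v (hI x ▸ hv) ξ η hξη
  rw [mtw, hexp] at this
  linarith

end Vale.Agent.P234
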