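import Vale.Agent.P234.Smooth

/-! The Hessian of the broken geodesic functional, and strict monotonicity. -/

open scoped ContDiff Topology
open Filter Set

noncomputable section

namespace Vale.Agent.P234

variable {M : Type*} [MetricSpace M] [CompactSpace M] {T : M → Type*}
  [∀ x, NormedAddCommGroup (T x)] [∀ x, InnerProductSpace ℝ (T x)]
  [∀ x, FiniteDimensional ℝ (T x)] {e : ∀ x, T x → M} {r : ℝ}

namespace Geo

omit [CompactSpace M] [∀ x, FiniteDimensional ℝ (T x)] in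
/-- `cost (e x a) x = ‖a‖ ^ 2 / 2` for short `a` -/
theorem Aq_zero (h : Geo e r) (x : M) (ξ : T x) : Aq e x 0 ξ = ‖ξ‖ ^ 2 := by
  have h1 : (fun a : T x => cost (e x a) (e x 0)) =ᶠ[𝓝 0] fun a : T x => ‖a‖ ^ 2 / 2 := by
    filter_upwards [Metric.ball_mem_nhds (0 : T x) h.pos] with a ha
    rw [h.zero, cost_comm, cost, h.toLoc.dist_exp (mem_ball_zero_iff.1 ha)]
  rw [Aq, D2_congr h1, D2_normsq, real_inner_self_eq_norm_sq]

theorem ff_smooth (h : Geo e r) {x y : M} {θ : ℝ} {a v : T x}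
    (h1 : SP e (e x a) (e x (θ • v))) (h2 : SP e (e x (θ • v)) y) :
    ContDiffAt ℝ ∞ (Ff e x θ y) (a, v) := by
  have a1 := h.contDiffAt_cost (x := x) (y := x) (a := a) (b := θ • v) h1 rfl rfl
  have a2 := h.contDiffAt_cost_left (x := x) (a := θ • v) h2 rfl
  have b1 : ContDiffAt ℝ ∞ (fun z : T x × T x => (z.1, θ • z.2)) (a, v) :=
    contDiffAt_fst.prodMk (contDiffAt_snd.const_smul θ)
  have b2 : ContDiffAt ℝ ∞ (fun z : T x × T x => θ • z.2) (a, v) := contDiffAt_snd.const_smul θ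
  have c1 : ContDiffAt ℝ ∞ (fun z : T x × T x => cost (e x z.1) (e x (θ • z.2))) (a, v) :=
    ContDiffAt.comp (g := fun z : T x × T x => cost (e x z.1) (e x z.2)) (a, v) a1 b1
  have c2 : ContDiffAt ℝ ∞ (fun z : T x × T x => cost (e x (θ • z.2)) y) (a, v) :=
    ContDiffAt.comp (g := fun a' : T x => cost (e x a') y) (a, v) a2 b2
  exact (c1.div_const θ).add (c2.div_const (1 - θ))

theorem Mono_two : (2 : WithTop ℕ∞) ≤ ∞ :=
  WithTop.coe_le_coe.2 (le_top : (2 : ℕ∞) ≤ ⊤)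

theorem Mono_smooth (h : Geo e r) {x y : M} {θ : ℝ} {v : T x}
    (h1 : SP e x (e x (θ • v))) (h2 : SP e (e x (θ • v)) y) :
    ContDiffAt ℝ 2 (Ff e x θ y) (0, v) :=
  (h.ff_smooth (a := 0) (by rwa [h.zero]) h2).of_le Mono_two

theorem ff_fst (h : Geo e r) {x y : M} {θ : ℝ} {v : T x}
    (h1 : SP e x (e x (θ • v))) (h2 : SP e (e x (θ • v)) y) (ξ : T x) :
    D2 (Ff e x θ y) (0, v) (ξ, 0) (ξ, 0) = Aq e x (θ • v) ξ / θ := by
  have hF := h.Mono_smooth h1 h2
  have a1 : ContDiffAt ℝ 2 (fun a : T x => cost (e x a) (e x (θ • v))) 0 :=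
    (h.contDiffAt_cost_left (x := x) (a := 0) h1 (h.zero x)).of_le Mono_two
  have e1 : (ContinuousLinearMap.inl ℝ (T x) (T x)) 0 + ((0 : T x), v) = (0, v) := by simp
  have a2 := D2_comp_clm (f := Ff e x θ y) (ContinuousLinearMap.inl ℝ (T x) (T x)) ((0 : T x), v)
    (b := 0) (by rwa [e1]) ξ ξ
  rw [e1] at a2
  have e2 : (fun z : T x => Ff e x θ y ((ContinuousLinearMap.inl ℝ (T x) (T x)) z + (0, v))) =
      fun z : T x => cost (e x z) (e x (θ • v)) / θ + cost (e x (θ • v)) y / (1 - θ) := by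
    funext z
    simp [Ff]
  rw [e2, D2_add_const, D2_div_const a1] at a2
  simp only [ContinuousLinearMap.inl_apply, smul_apply, smul_eq_mul] at a2
  rw [← a2, Aq, div_eq_inv_mul]

/-- For `u` near `v` one has `θ • u ∈ MinSet e x` (`min_nhds`), so by `fv_min`
`fderiv (Ff e x θ y) (0, u) (ξ, 0) = - inner u ξ`; differentiate with `D2_dir`. -/
theorem ff_mixed (h : Geo e r) {x y : M} {θ : ℝ} (hθ : θ ≠ 0) {v : T x}
    (hv : θ • v ∈ MinSet e x) (h1 : SP e x (e x (θ • v))) (h2 : SP e (e x (θ • v)) y)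
    (ξ μ : T x) : D2 (Ff e x θ y) (0, v) (0, μ) (ξ, 0) = - inner ℝ μ ξ := by
  have hF := h.Mono_smooth h1 h2
  have hG : ContDiffAt ℝ 1 (fun z : T x × T x => cost (e x z.1) (e x z.2)) (0, θ • v) :=
    (h.contDiffAt_cost (x := x) (y := x) (a := 0) (b := θ • v) h1 (h.zero x) rfl).of_le (by simp)
  have hu : Tendsto (fun s : ℝ => v + s • μ) (𝓝 0) (𝓝 v) := by
    have : Continuous fun s : ℝ => v + s • μ := by fun_prop
    simpa using this.tendsto 0
  have t1 : Tendsto (fun s : ℝ => ((0 : T x), v + s • μ)) (𝓝 0) (𝓝 (0, v)) :=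
    tendsto_const_nhds.prodMk_nhds hu
  have t2 : Tendsto (fun s : ℝ => ((0 : T x), θ • (v + s • μ))) (𝓝 0) (𝓝 (0, θ • v)) :=
    tendsto_const_nhds.prodMk_nhds (hu.const_smul θ)
  have key : (fun s : ℝ => fderiv ℝ (Ff e x θ y) (((0 : T x), v) + s • ((0 : T x), μ)) (ξ, 0))
      =ᶠ[𝓝 0] fun s : ℝ => - inner ℝ (v + s • μ) ξ := by
    filter_upwards [t1.eventually (hF.eventually (by simp)), t2.eventually (hG.eventually (by simp)),
      (hu.const_smul θ).eventually (h.min_nhds hv h1)] with s s1 s2 s3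
    have e1 : ((0 : T x), v) + s • ((0 : T x), μ) = (0, v + s • μ) := by simp
    rw [e1]
    set u := v + s • μ
    have d0 : HasFDerivAt (fun a : T x => (a, u)) (ContinuousLinearMap.inl ℝ (T x) (T x)) 0 :=
      hasFDerivAt_prodMk_left 0 u
    have d1 : HasFDerivAt (fun a : T x => Ff e x θ y (a, u))
        ((fderiv ℝ (Ff e x θ y) (0, u)).comp (ContinuousLinearMap.inl ℝ (T x) (T x))) 0 :=
      HasFDerivAt.comp (g := Ff e x θ y) 0 (s1.differentiableAt (by simp)).hasFDerivAt d0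
    have d2 : DifferentiableAt ℝ (fun a : T x => cost (e x a) (e x (θ • u))) 0 :=
      DifferentiableAt.comp (g := fun z : T x × T x => cost (e x z.1) (e x z.2)) (0 : T x)
        (s2.differentiableAt (by simp)) (hasFDerivAt_prodMk_left (𝕜 := ℝ) (0 : T x) (θ • u)).differentiableAt
    have d3 := ((h.fv_min s3 d2).const_mul θ⁻¹).add_const (cost (e x (θ • u)) y / (1 - θ))
    have d4 : (fun a : T x => Ff e x θ y (a, u)) = fun a : T x =>
        θ⁻¹ * cost (e x a) (e x (θ • u)) + cost (e x (θ • u)) y / (1 - θ) := by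
      funext a
      simp only [Ff, div_eq_inv_mul]
    rw [d4] at d1
    have d5 := congrArg (fun L : T x →L[ℝ] ℝ => L ξ) (d1.unique d3)
    simp only [ContinuousLinearMap.comp_apply, ContinuousLinearMap.inl_apply,
      smul_apply, neg_apply, innerSL_apply_apply,
      smul_eq_mul, real_inner_smul_left] at d5
    rw [d5]
    field_simp
  have k1 := (D2_dir hF ((0 : T x), μ) (ξ, 0)).congr_of_eventuallyEq key.symm
  have k2 : HasDerivAt (fun s : ℝ => - inner ℝ (v + s • μ) ξ) (- inner ℝ μ ξ) 0 := by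
    have : (fun s : ℝ => - inner ℝ (v + s • μ) ξ) =
        fun s : ℝ => - (inner ℝ v ξ + s * inner ℝ μ ξ) := by
      funext s
      rw [inner_add_left, real_inner_smul_left]
    rw [this]
    have := (((hasDerivAt_id (0 : ℝ)).mul_const (inner ℝ μ ξ : ℝ)).const_add
      (inner ℝ v ξ : ℝ)).fun_neg
    rwa [one_mul] at this
  exact k1.unique k2

theorem ff_split (h : Geo e r) {x y : M} {θ : ℝ} (hθ : θ ≠ 0) {v : T x}
    (hv : θ • v ∈ MinSet e x) (h1 : SP e x (e x (θ • v))) (h2 : SP e (e x (θ • v)) y)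
    (ξ μ : T x) : D2 (Ff e x θ y) (0, v) (ξ, μ) (ξ, μ) =
      Aq e x (θ • v) ξ / θ - 2 * inner ℝ ξ μ + D2 (Ff e x θ y) (0, v) (0, μ) (0, μ) := by
  have hF := h.Mono_smooth h1 h2
  have e1 : ((ξ, μ) : T x × T x) = (ξ, 0) + (0, μ) := by simp
  have a1 := h.ff_fst h1 h2 ξ
  have a2 := h.ff_mixed hθ hv h1 h2 ξ μ
  have a3 := D2_symm hF ((0 : T x), μ) (ξ, 0)
  rw [e1]
  simp only [map_add, add_apply]
  rw [a1, ← a3, a2, real_inner_comm]
  ring

omit [CompactSpace M] [∀ x, FiniteDimensional ℝ (T x)] in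
theorem cost_le_ff {x y : M} {θ : ℝ} (h0 : 0 < θ) (h1 : θ < 1) (z : T x × T x) :
    cost (e x z.1) y ≤ Ff e x θ y z := by
  have := cost_le_split (e x z.1) (e x (θ • z.2)) y h0 (sub_pos.2 h1)
  rwa [add_sub_cancel, div_one] at this

omit [CompactSpace M] [∀ x, FiniteDimensional ℝ (T x)] in
theorem ff_min (h : Geo e r) {x : M} {θ : ℝ} (h0 : 0 < θ) (h1 : θ < 1) {v : T x}
    (hv : v ∈ MinSet e x) : Ff e x θ (e x v) (0, v) = ‖v‖ ^ 2 / 2 := by
  have a1 := h.dist_of_min hv le_rfl h0.le h1.le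
  have a2 := h.dist_of_min hv h0.le h1.le le_rfl
  rw [zero_smul] at a1
  rw [one_smul] at a2
  have : (1 : ℝ) - θ ≠ 0 := (sub_pos.2 h1).ne'
  simp only [Ff, cost]
  rw [a1, a2]
  field_simp
  ring

/-- Strict monotonicity. For `θ > 0` the function `Ff e x θ (e x v) z - cost (e x z.1) (e x v)` has
a minimum at ` (0, v)`, so its Hessian is nonnegative; test with ` (ξ, ε • ξ)`, `ε > 0` small.
For `θ = 0` use `Aq_zero`. -/
theorem mono (h : Geo e r) {x : M} {v : T x} (hv : v ∈ MinSet e x) (hs : SP e x (e x v)) {θ : ℝ}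
    (h0 : 0 ≤ θ) (h1 : θ < 1) (hs1 : SP e x (e x (θ • v))) (hs2 : SP e (e x (θ • v)) (e x v))
    {ξ : T x} (hξ : ξ ≠ 0) : θ * Aq e x v ξ < Aq e x (θ • v) ξ := by
  have hξ' : 0 < ‖ξ‖ ^ 2 := by positivity
  rcases h0.eq_or_lt with rfl | h0
  · rwa [zero_mul, zero_smul, h.Aq_zero]
  have hF := h.Mono_smooth hs1 hs2
  have a1 : ContDiffAt ℝ 2 (fun a : T x => cost (e x a) (e x v)) 0 :=
    (h.contDiffAt_cost_left (x := x) (a := 0) hs (h.zero x)).of_le Mono_two
  have a2 : ContDiffAt ℝ 2 (fun z : T x × T x => cost (e x z.1) (e x v)) (0, v) :=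
    ContDiffAt.comp (g := fun a : T x => cost (e x a) (e x v)) ((0 : T x), v) a1 contDiffAt_fst
  have hm : IsLocalMin (fun z : T x × T x => Ff e x θ (e x v) z - cost (e x z.1) (e x v)) (0, v) := by
    refine Eventually.of_forall fun z => ?_
    have b1 := cost_le_ff (e := e) (x := x) (y := e x v) h0 h1 z
    have b2 := h.ff_min h0 h1 hv
    have b3 := cost_of_min hv
    simp only [h.zero]
    linarith
  have a3 : ∀ μ : T x, D2 (fun z : T x × T x => cost (e x z.1) (e x v)) (0, v) (ξ, μ) (ξ, μ) =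
      Aq e x v ξ := by
    intro μ
    have := D2_comp_clm (f := fun a : T x => cost (e x a) (e x v))
      (ContinuousLinearMap.fst ℝ (T x) (T x)) (0 : T x) (b := ((0 : T x), v)) (by simpa using a1)
      (ξ, μ) (ξ, μ)
    simpa [Aq] using this
  have a4 : ∀ ε : ℝ, Aq e x v ξ + 2 * ε * ‖ξ‖ ^ 2 ≤ Aq e x (θ • v) ξ / θ +
      ε ^ 2 * D2 (Ff e x θ (e x v)) (0, v) (0, ξ) (0, ξ) := by
    intro ε
    have b1 := D2_nonneg (hF.sub a2) hm (ξ, ε • ξ)
    rw [D2_sub hF a2] at b1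
    simp only [sub_apply] at b1
    rw [a3, h.ff_split h0.ne' (h.smul_mem_min hv h0.le h1.le) hs1 hs2] at b1
    have e1 : (((0 : T x), ε • ξ) : T x × T x) = ε • ((0 : T x), ξ) := by simp
    rw [e1, real_inner_smul_right, real_inner_self_eq_norm_sq] at b1
    simp only [map_smul, smul_apply, smul_eq_mul] at b1
    linarith
  set C := D2 (Ff e x θ (e x v)) (0, v) (0, ξ) (0, ξ)
  have hC : 0 < |C| + 1 := by positivity
  set ε := ‖ξ‖ ^ 2 / (|C| + 1) with hε
  have hε0 : 0 < ε := by positivity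
  have b1 : ε * C ≤ ‖ξ‖ ^ 2 := by
    rw [hε, div_mul_eq_mul_div, div_le_iff₀ hC]
    have := le_abs_self C
    nlinarith
  have b2 := a4 ε
  have b3 : Aq e x v ξ < Aq e x (θ • v) ξ / θ := by nlinarith
  rwa [lt_div_iff₀ h0, mul_comm] at b3

end Geo

end Vale.Agent.P234
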