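import Vale.Agent.P234.Lim
import Vale.Agent.P234.Calc
import Vale.Agent.P234.CalcB

/-! Smoothness of the exponential map at long vectors. -/

open scoped ContDiff Topology
open Filter Set

noncomputable section

namespace Vale.Agent.P234

variable {M : Type*} [MetricSpace M] [CompactSpace M] {T : M → Type*}
  [∀ x, NormedAddCommGroup (T x)] [∀ x, InnerProductSpace ℝ (T x)]
  [∀ x, FiniteDimensional ℝ (T x)] {e : ∀ x, T x → M} {r : ℝ}

/-- the inverse of the map which sends a vector to its inner product functional -/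
theorem smooth_sharp (V : Type*) [NormedAddCommGroup V] [InnerProductSpace ℝ V]
    [FiniteDimensional ℝ V] : ∃ sh : (V →L[ℝ] ℝ) →L[ℝ] V,
      (∀ (l : V →L[ℝ] ℝ) (w : V), inner ℝ (sh l) w = l w) ∧ ∀ u : V, sh (innerSL ℝ u) = u := by
  let b := stdOrthonormalBasis ℝ V
  have key : ∀ (l : V →L[ℝ] ℝ) (w : V),
      inner ℝ ((∑ i, (ContinuousLinearMap.apply ℝ ℝ (b i)).smulRight (b i)) l) w = l w := by
    intro l w
    conv_rhs => rw [← b.sum_repr' w]
    simp [sum_inner, real_inner_smul_left, mul_comm]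
  exact ⟨_, key, fun u => ext_inner_right ℝ fun w => by rw [key]; rfl⟩

theorem smooth_innerSL_inj {V : Type*} [NormedAddCommGroup V] [InnerProductSpace ℝ V] {u v : V}
    (h : innerSL ℝ u = innerSL ℝ v) : u = v :=
  ext_inner_right ℝ fun w => congrArg (fun l : V →L[ℝ] ℝ => l w) h

theorem smooth_comp {V W Z : Type*} [NormedAddCommGroup V] [NormedSpace ℝ V]
    [NormedAddCommGroup W] [NormedSpace ℝ W] [NormedAddCommGroup Z] [NormedSpace ℝ Z]
    {g : W → Z} {b : W} (hg : ContDiffAt ℝ ∞ g b) (f : V → W) (a : V) (hf : ContDiffAt ℝ ∞ f a)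
    (h : f a = b) : ContDiffAt ℝ ∞ (fun z => g (f z)) a := by
  subst h
  exact hg.comp a hf

theorem smooth_dcomp {V W Z : Type*} [NormedAddCommGroup V] [NormedSpace ℝ V]
    [NormedAddCommGroup W] [NormedSpace ℝ W] [NormedAddCommGroup Z] [NormedSpace ℝ Z]
    {g : W → Z} {b : W} (hg : DifferentiableAt ℝ g b) (f : V → W) (a : V)
    (hf : DifferentiableAt ℝ f a) (h : f a = b) : DifferentiableAt ℝ (fun z => g (f z)) a := by
  subst h
  exact hg.comp a hf

theorem smooth_ev_diff {V W : Type*} [NormedAddCommGroup V] [NormedSpace ℝ V]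
    [NormedAddCommGroup W] [NormedSpace ℝ W] {F : V → W} {a : V} (h : ContDiffAt ℝ ∞ F a) :
    ∀ᶠ z in 𝓝 a, DifferentiableAt ℝ F z :=
  ((h.of_le (m := 1) (by simp)).eventually (by simp)).mono fun _ hz => hz.differentiableAt (by simp)

omit [CompactSpace M] [∀ x, FiniteDimensional ℝ (T x)] in
theorem SP.symm {p q : M} (h : SP e p q) : SP e q p := by
  have h2 := smooth_comp h (fun z : T q × T p => (z.2, z.1)) (0, 0) (by fun_prop) rfl
  refine h2.congr_of_eventuallyEq (Eventually.of_forall fun z => ?_)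
  exact cost_comm _ _

namespace Geo

omit [CompactSpace M] [∀ x, FiniteDimensional ℝ (T x)] in
theorem sp_short (h : Geo e r) {p q : M} (hd : dist p q < r) : SP e p q :=   h.smooth p q 0 0 (by simpa using h.pos) (by simpa using h.pos) (by rwa [h.zero, h.zero])

omit [CompactSpace M] [∀ x, FiniteDimensional ℝ (T x)] in
theorem smooth_ev_lg (h : Geo e r) (x : M) : ∀ᶠ a : T x in 𝓝 0, lg e x (e x a) = a := by
  filter_upwards [Metric.ball_mem_nhds (0 : T x) h.pos] with a ha
  exact h.lg_exp (h.short_mem_inj (by simpa using ha))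

omit [CompactSpace M] [∀ x, FiniteDimensional ℝ (T x)] in
theorem smooth_fderiv_eq (h : Geo e r) {p q : M}
    (hd : DifferentiableAt ℝ (fun a : T p => cost (e p a) q) 0) :
    fderiv ℝ (fun a : T p => cost (e p a) q) 0 = -(innerSL ℝ (lg e p q)) := by
  have h1 := h.fv_min (h.lg_mem_min p q) (by rwa [h.exp_lg])
  rw [h.exp_lg] at h1
  exact h1.fderiv

omit [CompactSpace M] in
/-- If ` (a, z) ↦ cost (e p a) (f z)` is smooth at ` (0, z₀)`, then `innerSL (lg e p (f z))` is minus
the derivative in `a` at zero for `z` near `z₀` (`fv_min`), so `lg e p ∘ f` is smooth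
(`contDiffAt_fderiv_fst`; invert `innerSL` with an orthonormal basis or `toDual`). -/
theorem contDiffAt_lg_of (h : Geo e r) {Z : Type*} [NormedAddCommGroup Z] [NormedSpace ℝ Z]
    {p : M} {f : Z → M} {z₀ : Z}
    (hf : ContDiffAt ℝ ∞ (fun w : T p × Z => cost (e p w.1) (f w.2)) (0, z₀)) :
    ContDiffAt ℝ ∞ (fun z => lg e p (f z)) z₀ := by
  obtain ⟨sh, -, hsh⟩ := smooth_sharp (T p)
  have h0 : ContDiffAt ℝ ∞ (fun z : Z => ((0 : T p), z)) z₀ := contDiffAt_const.prodMk contDiffAt_id
  have h1 := ContDiffAt.comp z₀ (contDiffAt_fderiv_fst hf) h0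
  refine (sh.contDiff.contDiffAt.comp z₀ h1).neg.congr_of_eventuallyEq ?_
  filter_upwards [h0.continuousAt.eventually (smooth_ev_diff hf)] with z hz
  have h2 : DifferentiableAt ℝ (fun a : T p => cost (e p a) (f z)) 0 :=
    DifferentiableAt.comp (g := fun w : T p × Z => cost (e p w.1) (f w.2))
      (f := fun a : T p => (a, z)) 0 hz (by fun_prop)
  simp only [Function.comp]
  rw [h.smooth_fderiv_eq h2, map_neg, hsh, neg_neg]

/-- The midpoint step. Let `o = f z₀`, `p = g z₀`, `q = k z₀` and
`Ψ ((α, β), γ) = fderiv (fun β => cost (e o α) (e p β) + cost (e p β) (e q γ)) β`. It vanishes at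
` (lg o (f z), lg p (g z), lg q (k z))` for `z` near `z₀` (global minimum in `β`). Its derivative in
`γ` at the origin is `- innerSL ∘ D (lg p ∘ e q) 0`, which is bijective
(`map_nhds_of_leftInverse` with left inverse `lg q ∘ e p`). Apply `contDiffAt_of_implicit` to
`Ψ' (z, γ) = Ψ ((lg o (f z), lg p (g z)), γ)`. -/
theorem contDiffAt_lg_step (h : Geo e r) {Z : Type*} [NormedAddCommGroup Z] [NormedSpace ℝ Z]
    [FiniteDimensional ℝ Z] {f g k : Z → M} {z₀ : Z}
    (hf : ContDiffAt ℝ ∞ (fun z => lg e (f z₀) (f z)) z₀)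
    (hg : ContDiffAt ℝ ∞ (fun z => lg e (g z₀) (g z)) z₀) (hk : ContinuousAt k z₀)
    (hfg : dist (f z₀) (g z₀) < r) (hgk : dist (g z₀) (k z₀) < r)
    (hm : ∀ᶠ z in 𝓝 z₀, dist (f z) (g z) = dist (f z) (k z) / 2 ∧
      dist (g z) (k z) = dist (f z) (k z) / 2) :
    ContDiffAt ℝ ∞ (fun z => lg e (k z₀) (k z)) z₀ := by
  set o := f z₀ with ho
  set p := g z₀ with hp
  set q := k z₀ with hq
  have s1 : SP e o p := h.sp_short hfg
  have s2 : SP e p q := h.sp_short hgk
  have hF : ContDiffAt ℝ ∞ (fun w : T p × (T o × T q) =>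
      cost (e o w.2.1) (e p w.1) + cost (e p w.1) (e q w.2.2)) (0, (0, 0)) :=
    (smooth_comp s1 (fun w : T p × (T o × T q) => (w.2.1, w.1)) (0, (0, 0)) (by fun_prop) rfl).add
    (smooth_comp s2 (fun w : T p × (T o × T q) => (w.1, w.2.2)) (0, (0, 0)) (by fun_prop) rfl)
  have hΦ := contDiffAt_fderiv_fst hF
  have y0 : lg e q (k z₀) = 0 := h.lg_self q
  have hin : ContDiffAt ℝ ∞ (fun w : Z × T q => (lg e p (g w.1), (lg e o (f w.1), w.2)))
      (z₀, lg e q (k z₀)) :=
    (ContDiffAt.comp (g := fun z => lg e p (g z)) _ hg contDiffAt_fst).prodMk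
      ((ContDiffAt.comp (g := fun z => lg e o (f z)) _ hf contDiffAt_fst).prodMk contDiffAt_snd)
  have hΨ : ContDiffAt ℝ ∞ (fun w : Z × T q => fderiv ℝ (fun b : T p =>
      cost (f w.1) (e p b) + cost (e p b) (e q w.2)) (lg e p (g w.1))) (z₀, lg e q (k z₀)) := by
    have := ContDiffAt.comp (z₀, lg e q (k z₀)) (by
      simp only [y0, ← ho, ← hp, h.lg_self]
      exact hΦ) hin
    simpa only [Function.comp_def, h.exp_lg] using this
  have hzero : ∀ᶠ z in 𝓝 z₀, fderiv ℝ (fun b : T p =>
      cost (f z) (e p b) + cost (e p b) (e q (lg e q (k z)))) (lg e p (g z)) = 0 := by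
    filter_upwards [hm] with z hz
    refine IsLocalMin.fderiv_eq_zero (Eventually.of_forall fun b => ?_)
    simp only [h.exp_lg]
    have c1 := cost_le_split (f z) (e p b) (k z) one_pos one_pos
    rw [div_one, div_one] at c1
    refine le_trans (le_of_eq ?_) c1
    unfold cost
    rw [hz.1, hz.2]
    ring
  refine contDiffAt_of_implicit (y := fun z => lg e q (k z)) hΨ ?_ ?_ ?_
  · have hΛ : ContDiffAt ℝ ∞ (fun γ : T q => lg e p (e q γ)) 0 := h.contDiffAt_lg_of s2
    have hβ : ContDiffAt ℝ ∞ (fun μ : T p => lg e q (e p μ)) (lg e p (e q 0)) :=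
      h.contDiffAt_lg_of (h.smooth q p 0 _ (by simpa using h.pos)
        (by rwa [h.norm_lg, h.zero]) (by rw [h.exp_lg, dist_self]; exact h.pos))
    obtain ⟨hb, -⟩ := map_nhds_of_leftInverse (h.rank q p) (hΛ.of_le (by simp))
      (hβ.differentiableAt (by simp)) (by simpa only [h.exp_lg] using h.smooth_ev_lg q)
    have d1 : DifferentiableAt ℝ (fun b : T p => cost o (e p b)) 0 := by
      have := DifferentiableAt.comp (g := fun z : T o × T p => cost (e o z.1) (e p z.2))
        (f := fun b : T p => ((0 : T o), b)) 0 (s1.differentiableAt (by simp)) (by fun_prop)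
      simpa only [Function.comp_def, h.zero] using this
    have h0 : ContinuousAt (fun γ : T q => ((0 : T p), γ)) 0 := by fun_prop
    have hev : (fun γ : T q => fderiv ℝ (fun b : T p => cost o (e p b) + cost (e p b) (e q γ))
        (lg e p p)) =ᶠ[𝓝 0] fun γ => fderiv ℝ (fun b : T p => cost o (e p b)) 0 -
          (innerSL ℝ : T p →L[ℝ] T p →L[ℝ] ℝ) (lg e p (e q γ)) := by
      filter_upwards [h0.eventually (smooth_ev_diff s2)] with γ hγ
      have d2 : DifferentiableAt ℝ (fun b : T p => cost (e p b) (e q γ)) 0 :=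
        DifferentiableAt.comp (g := fun z : T p × T q => cost (e p z.1) (e q z.2))
          (f := fun b : T p => (b, γ)) 0 hγ (by fun_prop)
      rw [h.lg_self, fderiv_fun_add d1 d2, h.smooth_fderiv_eq d2, sub_eq_add_neg]
    have hd := ((innerSL ℝ : T p →L[ℝ] T p →L[ℝ] ℝ).hasFDerivAt.comp 0
      (hΛ.differentiableAt (by simp)).hasFDerivAt).const_sub
      (fderiv ℝ (fun b : T p => cost o (e p b)) 0)
    simp only [y0]
    simp only [Function.comp_def] at hd
    rw [hev.fderiv_eq, hd.fderiv]
    obtain ⟨sh, hsh, -⟩ := smooth_sharp (T p)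
    have hi : Function.Bijective (innerSL ℝ : T p →L[ℝ] T p →L[ℝ] ℝ) :=
      ⟨fun u v huv => smooth_innerSL_inj huv, fun l => ⟨sh l, by ext w; exact hsh l w⟩⟩
    exact (neg_involutive.bijective.comp hi).comp hb
  · have := h.continuousAt_lg (h.short_mem_inj (x := q) (v := 0) (by simpa using h.pos))
    rw [h.zero] at this
    exact ContinuousAt.comp (g := lg e q) this hk
  · filter_upwards [hzero] with z hz
    rw [hz, hzero.self_of_nhds]

/-- Strong induction on `j` for the maps `a' ↦ e x ((j / N) • a')` with `2 ‖a‖ / N < r`, using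
`contDiffAt_lg_step`. -/
theorem contDiffAt_lg_self (h : Geo e r) (x : M) (a : T x) :
    ContDiffAt ℝ ∞ (fun a' => lg e (e x a) (e x a')) a := by
  obtain ⟨N, hN⟩ := exists_nat_gt (2 * ‖a‖ / r)
  have hr := h.pos
  have hN0 : (0 : ℝ) < N := lt_of_le_of_lt (by positivity) hN
  set t : ℝ := 1 / N with ht
  have ht0 : 0 < t := by positivity
  have hta : 2 * t * ‖a‖ < r := by
    rw [div_lt_iff₀ hr] at hN
    rw [ht, mul_one_div, div_mul_eq_mul_div, div_lt_iff₀ hN0]
    linarith
  have hna := norm_nonneg a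
  have base : ∀ τ : ℝ, |τ| * ‖a‖ < r →
      ContDiffAt ℝ ∞ (fun a' => lg e (e x (τ • a)) (e x (τ • a'))) a := by
    intro τ hτ
    have c1 := h.smooth (e x (τ • a)) x 0 (τ • a) (by simpa using hr)
      (by rwa [norm_smul, Real.norm_eq_abs]) (by rw [h.zero, dist_self]; exact hr)
    exact h.contDiffAt_lg_of (smooth_comp c1
      (fun w : T (e x (τ • a)) × T x => (w.1, τ • w.2)) (0, a) (by fun_prop) rfl)
  have key : ∀ j : ℕ, ContDiffAt ℝ ∞ (fun a' => lg e (e x ((j * t) • a)) (e x ((j * t) • a'))) a ∧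
      ContDiffAt ℝ ∞ (fun a' => lg e (e x (((j + 1) * t) • a)) (e x (((j + 1) * t) • a'))) a := by
    intro j
    induction j with
    | zero =>
      refine ⟨base _ ?_, base _ ?_⟩
      · simpa using hr
      · rw [Nat.cast_zero, zero_add, one_mul, abs_of_pos ht0]
        nlinarith
    | succ j ih =>
      rw [Nat.cast_succ]
      refine ⟨ih.2, h.contDiffAt_lg_step (f := fun a' => e x ((j * t) • a'))
        (g := fun a' => e x (((j + 1) * t) • a')) (k := fun a' => e x (((j + 1 + 1) * t) • a'))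
        ih.1 ih.2 ((h.continuous_exp x).comp (by fun_prop)).continuousAt ?_ ?_ ?_⟩
      · refine lt_of_le_of_lt (h.dist_le x a _ _) ?_
        rw [show j * t - (j + 1) * t = -t by ring, abs_neg, abs_of_pos ht0]
        nlinarith
      · refine lt_of_le_of_lt (h.dist_le x a _ _) ?_
        rw [show (j + 1) * t - (j + 1 + 1) * t = -t by ring, abs_neg, abs_of_pos ht0]
        nlinarith
      · have hc : ContinuousAt (fun a' : T x => 2 * t * ‖a'‖) a := by fun_prop
        filter_upwards [hc.eventually (gt_mem_nhds hta)] with a' ha'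
        have hn := norm_nonneg a'
        have e1 : |j * t - (j + 1) * t| = t := by
          rw [show j * t - (j + 1) * t = -t by ring, abs_neg, abs_of_pos ht0]
        have e2 : |(j + 1) * t - (j + 1 + 1) * t| = t := by
          rw [show (j + 1) * t - (j + 1 + 1) * t = -t by ring, abs_neg, abs_of_pos ht0]
        have e3 : |j * t - (j + 1 + 1) * t| = 2 * t := by
          rw [show j * t - (j + 1 + 1) * t = -(2 * t) by ring, abs_neg, abs_of_pos (by linarith)]
        have c1 := h.ugeo x a' (j * t) ((j + 1) * t) (by rw [e1]; nlinarith)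
        have c2 := h.ugeo x a' ((j + 1) * t) ((j + 1 + 1) * t) (by rw [e2]; nlinarith)
        have c3 := h.ugeo x a' (j * t) ((j + 1 + 1) * t) (by rw [e3]; exact ha')
        rw [e1] at c1
        rw [e2] at c2
        rw [e3] at c3
        rw [c1, c2, c3]
        constructor <;> ring
  have := (key N).1
  rw [ht, mul_one_div_cancel hN0.ne', one_smul] at this
  simpa only [one_smul] using this

/-- `cost (e x a') (e y b') = cost (e p (lg p (e x a'))) (e q (lg q (e y b')))` -/
theorem contDiffAt_cost (h : Geo e r) {x y p q : M} {a : T x} {b : T y} (hs : SP e p q)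
    (ha : e x a = p) (hb : e y b = q) :
    ContDiffAt ℝ ∞ (fun z : T x × T y => cost (e x z.1) (e y z.2)) (a, b) := by
  subst ha hb
  have h1 : ContDiffAt ℝ ∞ (fun z : T x × T y =>
      (lg e (e x a) (e x z.1), lg e (e y b) (e y z.2))) (a, b) :=
    (ContDiffAt.comp (g := fun a' => lg e (e x a) (e x a')) (a, b) (h.contDiffAt_lg_self x a)
      contDiffAt_fst).prodMk
    (ContDiffAt.comp (g := fun b' => lg e (e y b) (e y b')) (a, b) (h.contDiffAt_lg_self y b)
      contDiffAt_snd)
  have := ContDiffAt.comp (a, b) (by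
    simp only [h.lg_self]
    exact hs) h1
  simpa only [Function.comp_def, h.exp_lg] using this

theorem contDiffAt_cost_left (h : Geo e r) {x p q : M} {a : T x} (hs : SP e p q)
    (ha : e x a = p) : ContDiffAt ℝ ∞ (fun a' : T x => cost (e x a') q) a := by
  have := ContDiffAt.comp (f := fun a' : T x => (a', (0 : T q))) a
    (h.contDiffAt_cost hs ha (h.zero q)) (by fun_prop)
  simpa only [Function.comp_def, h.zero] using this

theorem contDiffAt_lg (h : Geo e r) {y p q : M} {b : T y} (hs : SP e p q) (hb : e y b = q) :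
    ContDiffAt ℝ ∞ (fun b' => lg e p (e y b')) b :=   h.contDiffAt_lg_of (h.contDiffAt_cost hs (h.zero p) hb)

omit [CompactSpace M] [∀ x, FiniteDimensional ℝ (T x)] in
theorem Lmap_zero (h : Geo e r) (x : M) : Lmap e x 0 x = ContinuousLinearMap.id ℝ (T x) := by
  unfold Lmap
  rw [Filter.EventuallyEq.fderiv_eq (f := id) (h.smooth_ev_lg x), fderiv_id]

/-- first variation at a moving base point: chain rule with `fv_min` at `p` -/
theorem fv_move (h : Geo e r) {x p : M} {a : T x} (ha : e x a = p) {u : T p}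
    (hu : u ∈ MinSet e p) (hs : SP e p (e p u)) :
    HasFDerivAt (fun a' : T x => cost (e x a') (e p u))
      (-((innerSL ℝ u).comp (Lmap e x a p))) a := by
  subst ha
  have h1 := h.fv_min hu ((h.contDiffAt_cost_left hs (h.zero _)).differentiableAt (by simp))
  have h2 := ((h.contDiffAt_lg_self x a).differentiableAt (by simp)).hasFDerivAt
  rw [← h.lg_self (e x a)] at h1
  have h3 := h1.comp a h2
  rw [ContinuousLinearMap.neg_comp] at h3
  simp only [Function.comp_def, h.exp_lg] at h3
  exact h3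

/-- With `z = e x v`, the map `Λ b = lg e x (e z b)` is smooth at zero, `Λ 0 = v` (`fv_min` gives
`innerSL (Λ 0) = innerSL v`), it takes values in `MinSet`, and has the left inverse
`lg e z ∘ e x`; apply `map_nhds_of_leftInverse`. -/
theorem min_nhds (h : Geo e r) {x : M} {v : T x} (hv : v ∈ MinSet e x) (hs : SP e x (e x v)) :
    ∀ᶠ u in 𝓝 v, u ∈ MinSet e x := by
  have hΛ : ContDiffAt ℝ ∞ (fun b : T (e x v) => lg e x (e (e x v) b)) 0 :=
    h.contDiffAt_lg hs (h.zero _)
  have hd := (h.contDiffAt_cost_left hs (h.zero x)).differentiableAt (by simp)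
  have h0 : lg e x (e (e x v) 0) = v := by
    rw [h.zero]
    exact smooth_innerSL_inj (neg_injective ((h.smooth_fderiv_eq hd).symm.trans
      (h.fv_min hv hd).fderiv))
  obtain ⟨-, hm⟩ := map_nhds_of_leftInverse (β := fun a' => lg e (e x v) (e x a'))
    (h.rank (e x v) x) (hΛ.of_le (by simp))
    (by rw [h0]; exact (h.contDiffAt_lg_self x v).differentiableAt (by simp))
    (by simpa only [h.exp_lg] using h.smooth_ev_lg (e x v))
  rw [h0] at hm
  rw [← hm, eventually_map]
  exact Eventually.of_forall fun b => h.lg_mem_min _ _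

end Geo

end Vale.Agent.P234
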