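import Vale.Agent.P234.Abs
import Vale.Agent.P234.Flow

/-! The exponential map in a chart and the Gauss lemma. -/

open scoped ContDiff Topology
open Filter Set Metric

noncomputable section

namespace Vale.Agent.P234

variable {E : Type*} [NormedAddCommGroup E] [NormedSpace ℝ E] [FiniteDimensional ℝ E]
  {G : E → E →L[ℝ] E →L[ℝ] ℝ}

theorem spray_fderiv {A B D : Type*} [NormedAddCommGroup A] [NormedSpace ℝ A] [NormedAddCommGroup B]
    [NormedSpace ℝ B] [NormedAddCommGroup D] [NormedSpace ℝ D] {f : A → B} (hf : ContDiff ℝ ∞ f)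
    {x y : D → A} (hx : ContDiff ℝ ∞ x) (hy : ContDiff ℝ ∞ y) :
    ContDiff ℝ ∞ fun z => fderiv ℝ f (x z) (y z) :=
  ((hf.fderiv_right (m := ∞) le_rfl).comp hx).clm_apply hy

theorem spray_d2 {A B : Type*} [NormedAddCommGroup A] [NormedSpace ℝ A] [NormedAddCommGroup B]
    [NormedSpace ℝ B] {f : A → B} {q x : A} (h : ContDiffAt ℝ ∞ f q) {γ : ℝ → A} {t : ℝ}
    (hγ : HasDerivAt γ x t) (e : q = γ t) (y : A) :
    HasDerivAt (fun s => fderiv ℝ f (γ s) y) (fderiv ℝ (fderiv ℝ f) q x y) t := by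
  simpa using ((((h.fderiv_right (m := ∞) le_rfl).differentiableAt
    (by simp)).hasFDerivAt.comp_hasDerivAt_of_eq t hγ e).clm_apply (hasDerivAt_const t y))

theorem spray_fst {A B : Type*} [NormedAddCommGroup A] [NormedSpace ℝ A] [NormedAddCommGroup B]
    [NormedSpace ℝ B] {f : ℝ → A × B} {x : A × B} {t : ℝ} (h : HasDerivAt f x t) :
    HasDerivAt (fun s => (f s).1) x.1 t :=
  (ContinuousLinearMap.fst ℝ A B).hasFDerivAt.comp_hasDerivAt t h

theorem spray_snd {A B : Type*} [NormedAddCommGroup A] [NormedSpace ℝ A] [NormedAddCommGroup B]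
    [NormedSpace ℝ B] {f : ℝ → A × B} {x : A × B} {t : ℝ} (h : HasDerivAt f x t) :
    HasDerivAt (fun s => (f s).2) x.2 t :=
  (ContinuousLinearMap.snd ℝ A B).hasFDerivAt.comp_hasDerivAt t h

/-- The geodesic spray `V (a, p) = (p, - Γ (a, p))`, with
`G a (Γ (a, p)) w = fderiv G a p p w - fderiv G a w p p / 2`; `G a` is invertible as a map to the
dual, and the inverse is smooth (`contDiffAt_map_inverse`). -/
theorem IsMetric.exists_christoffel (hG : IsMetric G) : ∃ Γ : E × E → E, ContDiff ℝ ∞ Γ ∧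
    (∀ a p (c : ℝ), Γ (a, c • p) = c ^ 2 • Γ (a, p)) ∧
    ∀ a p w, G a (Γ (a, p)) w = fderiv ℝ G a p p w - fderiv ℝ G a w p p / 2 := by
  have h1 : ∀ a, (G a).IsInvertible := fun a =>
    ⟨((G a).toLinearMap.linearEquivOfInjective
      ((injective_iff_map_eq_zero _).2 fun u (hu : G a u = 0) => by_contra fun h =>
        (hG.pos a u h).ne' (by rw [hu]; rfl))
      (Subspace.dual_finrank_eq.symm.trans
        LinearMap.toContinuousLinearMap.finrank_eq)).toContinuousLinearEquiv, rfl⟩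
  have h2 : ContDiff ℝ ∞ fun a => (G a).inverse := contDiff_iff_contDiffAt.2 fun a =>
    (h1 a).contDiffAt_map_inverse.comp a hG.smooth.contDiffAt
  refine ⟨fun z => (G z.1).inverse (fderiv ℝ G z.1 z.2 z.2 -
    (1 / 2 : ℝ) • ((fderiv ℝ G z.1).flip z.2).flip z.2), (h2.comp contDiff_fst).clm_apply
      (((spray_fderiv hG.smooth contDiff_fst contDiff_snd).clm_apply contDiff_snd).sub
        (ContDiff.const_smul _ ?_)),
    fun a p c => ?_, fun a p w => ?_⟩
  · exact contDiff_clm_apply_iff.2 fun w =>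
      ((spray_fderiv hG.smooth contDiff_fst contDiff_const).clm_apply contDiff_snd).clm_apply
        contDiff_snd
  · rw [← map_smul]
    refine congrArg (G a).inverse ?_
    ext w
    simp
    ring
  · rw [(h1 a).self_apply_inverse]
    simp
    ring

theorem spray_unique {F : Type*} [NormedAddCommGroup F] [NormedSpace ℝ F] {V : F → F}
    (hV : ContDiff ℝ 1 V) {r : ℝ} (hr : 0 < r) {f g : ℝ → F}
    (hf : ∀ t ∈ Icc (-r) r, HasDerivAt f (V (f t)) t)
    (hg : ∀ t ∈ Icc (-r) r, HasDerivAt g (V (g t)) t) (h : f 0 = g 0) : f r = g r := by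
  have cf := HasDerivAt.continuousOn hf
  have cg := HasDerivAt.continuousOn hg
  obtain ⟨K, hK⟩ := hV.locallyLipschitz.locallyLipschitzOn.exists_lipschitzOnWith_of_compact
    ((isCompact_Icc.image_of_continuousOn cf).union (isCompact_Icc.image_of_continuousOn cg))
  exact ODE_solution_unique_of_mem_Icc (v := fun _ => V) (fun _ _ => hK) ⟨neg_neg_of_pos hr, hr⟩
    cf (fun t ht => hf t (Ioo_subset_Icc_self ht))
    (fun t ht => Or.inl ⟨t, Ioo_subset_Icc_self ht, rfl⟩)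
    cg (fun t ht => hg t (Ioo_subset_Icc_self ht))
    (fun t ht => Or.inr ⟨t, Ioo_subset_Icc_self ht, rfl⟩) h ⟨by linarith, le_rfl⟩

theorem spray_eq {f : ℝ → ℝ} {c δ t : ℝ} (hf : ∀ s ∈ ball (0 : ℝ) δ, HasDerivAt f c s)
    (ht : t ∈ ball (0 : ℝ) δ) : f t = f 0 + t * c := by
  have h : ∀ s, HasDerivAt (fun s => f 0 + s * c) c s := fun s =>
    (hasDerivAt_mul_const c).const_add _
  exact isOpen_ball.eqOn_of_deriv_eq (convex_ball _ _).isPreconnected
    (fun s hs => (hf s hs).differentiableAt.differentiableWithinAt)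
    (fun s _ => (h s).differentiableAt.differentiableWithinAt)
    (fun s hs => (hf s hs).deriv.trans (h s).deriv.symm) (mem_ball_self (pos_of_mem_ball ht))
    (by simp) ht

omit [FiniteDimensional ℝ E] in
theorem IsMetric.spray_deriv (hG : IsMetric G) {X P Q : ℝ → E} {X' P' Q' : E} {t : ℝ}
    (hX : HasDerivAt X X' t) (hP : HasDerivAt P P' t) (hQ : HasDerivAt Q Q' t) :
    HasDerivAt (fun s => G (X s) (P s) (Q s))
      (fderiv ℝ G (X t) X' (P t) (Q t) + G (X t) P' (Q t) + G (X t) (P t) Q') t :=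
  (((hG.smooth.differentiable (by simp) _).hasFDerivAt.comp_hasDerivAt t hX).clm_apply hP).clm_apply
    hQ

omit [FiniteDimensional ℝ E] in
theorem IsMetric.spray_gauss (hG : IsMetric G) {Γ : E × E → E}
    (hΓ : ∀ a p w, G a (Γ (a, p)) w = fderiv ℝ G a p p w - fderiv ℝ G a w p p / 2)
    {φ : ℝ × E × E → E × E} {δ : ℝ} {O : Set (E × E)} (hO : IsOpen O)
    (hφ : ContDiffOn ℝ ∞ φ (ball 0 δ ×ˢ O)) (h0 : ∀ z ∈ O, φ (0, z) = z)
    (hd : ∀ z ∈ O, ∀ t ∈ ball (0 : ℝ) δ,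
      HasDerivAt (fun s => φ (s, z)) ((φ (t, z)).2, -Γ (φ (t, z))) t)
    {z : E × E} (hz : z ∈ O) {t : ℝ} (ht : t ∈ ball (0 : ℝ) δ) (w : E) :
    G (φ (t, z)).1 (φ (t, z)).2 (fderiv ℝ φ (t, z) (0, 0, w)).1 = t * G z.1 z.2 w := by
  have c1 : ∀ z ∈ O, ∀ t ∈ ball (0 : ℝ) δ, ContDiffAt ℝ ∞ φ (t, z) := fun z hz t ht =>
    hφ.contDiffAt ((isOpen_ball.prod hO).mem_nhds ⟨ht, hz⟩)
  have c2 : ∀ z ∈ O, ∀ t ∈ ball (0 : ℝ) δ, HasFDerivAt φ (fderiv ℝ φ (t, z)) (t, z) :=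
    fun z hz t ht => ((c1 z hz t ht).differentiableAt (by simp)).hasFDerivAt
  have l1 : ∀ (z : E × E) (t : ℝ), HasDerivAt (fun s : ℝ => (s, z)) (1, 0) t := fun z t =>
    (hasDerivAt_id t).prodMk (hasDerivAt_const t z)
  have l2 : HasDerivAt (fun s : ℝ => z + s • ((0 : E), w)) (0, w) 0 := by
    simpa using ((hasDerivAt_id (0 : ℝ)).smul_const ((0 : E), w)).const_add z
  have l3 : ∀ t : ℝ, HasDerivAt (fun s : ℝ => (t, z + s • ((0 : E), w))) (0, 0, w) 0 := fun t =>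
    (hasDerivAt_const 0 t).prodMk l2
  have l4 : ∀ᶠ s : ℝ in 𝓝 0, z + s • ((0 : E), w) ∈ O :=
    l2.continuousAt.eventually_mem (hO.mem_nhds (by simpa using hz))
  have d1 : ∀ t ∈ ball (0 : ℝ) δ, HasDerivAt (fun s : ℝ => φ (t, z + s • ((0 : E), w)))
      (fderiv ℝ φ (t, z) (0, 0, w)) 0 := fun t ht =>
    (c2 z hz t ht).comp_hasDerivAt_of_eq 0 (l3 t) (by simp)
  have d2 : ∀ t ∈ ball (0 : ℝ) δ, HasDerivAt (fun s => (fderiv ℝ φ (s, z) (0, 0, w)).1)
      (fderiv ℝ φ (t, z) (0, 0, w)).2 t := fun t ht => by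
    have a1 := spray_fst (spray_d2 (c1 z hz t ht) (l1 z t) rfl (0, 0, w))
    have a2 := spray_fst (spray_d2 (c1 z hz t ht) (l3 t) (by simp) (1, 0))
    rw [(c1 z hz t ht).isSymmSndFDerivAt (by simp; exact WithTop.coe_le_coe.2 le_top) _ _,
      a2.unique ((spray_snd (d1 t ht)).congr_of_eventuallyEq (l4.mono fun s hs => congrArg Prod.fst
        (((c2 _ hs t ht).comp_hasDerivAt t (l1 _ t)).unique (hd _ hs t ht))))] at a1
    exact a1
  have en : ∀ z ∈ O, ∀ t ∈ ball (0 : ℝ) δ,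
      G (φ (t, z)).1 (φ (t, z)).2 (φ (t, z)).2 = G z.1 z.2 z.2 := fun z hz t ht => by
    have := spray_eq (c := 0) (fun s hs => (hG.spray_deriv (spray_fst (hd z hz s hs))
      (spray_snd (hd z hz s hs)) (spray_snd (hd z hz s hs))).congr_deriv (by
        rw [hG.symm _ _ (-_)]
        simp only [map_neg, neg_apply, hΓ _ _ _]
        ring)) ht
    rwa [h0 z hz, mul_zero, add_zero] at this
  have := spray_eq (c := G z.1 z.2 w) (fun s hs => (hG.spray_deriv (spray_fst (hd z hz s hs))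
    (spray_snd (hd z hz s hs)) (d2 s hs)).congr_deriv (by
      have a1 := (hG.spray_deriv (spray_fst (d1 s hs)) (spray_snd (d1 s hs))
        (spray_snd (d1 s hs))).unique
        ((hG.spray_deriv (spray_fst l2) (spray_snd l2) (spray_snd l2)).congr_of_eventuallyEq
          (l4.mono fun _ h => en _ h s hs))
      simp only [zero_smul, add_zero, map_zero, zero_apply, zero_add] at a1
      rw [hG.symm _ w, hG.symm _ (_ : E × E).2 (φ (s, z)).2] at a1
      simp only [map_neg, neg_apply, hΓ _ _ _]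
      linarith)) ht
  have h1 := mem_ball_self (x := (0 : ℝ)) (pos_of_mem_ball ht)
  rwa [(d1 0 h1).unique (l2.congr_of_eventuallyEq (l4.mono fun _ h => h0 _ h)), map_zero,
    zero_add] at this

/-- Let `φ = (X, P)` be the flow of the spray near ` (a₀, 0)`. Uniqueness for the equation gives
`φ (t, (a, c • u)) = (X (c t, (a, u)), c • P (c t, (a, u)))` for `|c| ≤ 1`. Put
`Y (a, v) = X (t₀, (a, t₀⁻¹ • v))` with `t₀ = δ / 2`. Gauss lemma: the energy `G X P P` is constant in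
time; with `J t = D_u X (t, (a, u)) w` one has `J' = D_u P w` (symmetry of second derivatives) and
` (G X P J)' = fderiv G X J P P / 2 + G X P J' = D_u (G X P P) w / 2 = G a u w`. -/
theorem IsMetric.exists_exp (hG : IsMetric G) (a₀ : E) : ∃ (Y : E × E → E) (δ : ℝ), 0 < δ ∧
    ContDiffOn ℝ ∞ Y (ball a₀ δ ×ˢ ball 0 δ) ∧ (∀ a ∈ ball a₀ δ, Y (a, 0) = a) ∧
    (∀ a ∈ ball a₀ δ, HasFDerivAt (fun v => Y (a, v)) (ContinuousLinearMap.id ℝ E) 0) ∧
    ∀ a ∈ ball a₀ δ, ∀ v ∈ ball (0 : E) δ, ∀ w : E,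
      G (Y (a, v)) (fderiv ℝ (fun u => Y (a, u)) v v) (fderiv ℝ (fun u => Y (a, u)) v w) =
        G a v w := by
  obtain ⟨Γ, h1, h2, h3⟩ := hG.exists_christoffel
  have hV : ContDiff ℝ ∞ fun z : E × E => (z.2, -Γ z) := contDiff_snd.prodMk h1.neg
  obtain ⟨φ, δ, hδ, hφ, h0, hd⟩ := exists_smooth_flow hV (a₀, 0)
  obtain ⟨r, rfl⟩ : ∃ r, δ = 2 * r := ⟨δ / 2, by ring⟩
  have hr : 0 < r := by linarith
  have m1 : ∀ a ∈ ball a₀ (2 * r), ∀ u ∈ ball (0 : E) r, ∀ c ∈ ball (0 : ℝ) 2,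
      (a, c • u) ∈ ball (a₀, (0 : E)) (2 * r) := fun a ha u hu c hc => by
    rw [← ball_prod_same]
    refine ⟨ha, mem_ball_zero_iff.2 ((norm_smul_le c u).trans_lt ?_)⟩
    exact mul_lt_mul'' (mem_ball_zero_iff.1 hc) (mem_ball_zero_iff.1 hu) (norm_nonneg _)
      (norm_nonneg _)
  have m2 : ∀ c ∈ ball (0 : ℝ) 2, ∀ t ∈ Icc (-r) r, c * t ∈ ball (0 : ℝ) (2 * r) :=
    fun c hc t ht => mem_ball_zero_iff.2 ((norm_mul_le c t).trans_lt
      ((mul_le_mul_of_nonneg_left (abs_le.2 ht) (norm_nonneg c)).trans_lt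
        (mul_lt_mul_of_pos_right (mem_ball_zero_iff.1 hc) hr)))
  have one : (1 : ℝ) ∈ ball (0 : ℝ) 2 := by simp
  have rr : r ∈ Icc (-r) r := ⟨by linarith, le_rfl⟩
  have m3 : ∀ a ∈ ball a₀ (2 * r), ∀ u ∈ ball (0 : E) r, (a, u) ∈ ball (a₀, (0 : E)) (2 * r) :=
    fun a ha u hu => by simpa only [one_smul] using m1 a ha u hu 1 one
  have m4 : r ∈ ball (0 : ℝ) (2 * r) := by simpa only [one_mul] using m2 1 one r rr
  have hom : ∀ a ∈ ball a₀ (2 * r), ∀ u ∈ ball (0 : E) r, ∀ c ∈ ball (0 : ℝ) 2,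
      (φ (r, a, c • u)).1 = (φ (c * r, a, u)).1 := fun a ha u hu c hc => by
    refine (congrArg Prod.fst (spray_unique (hV.of_le (by simp)) hr (f := fun t => φ (t, a, c • u))
      (g := fun t => ((φ (c * t, a, u)).1, c • (φ (c * t, a, u)).2))
      (fun t ht => hd _ (m1 a ha u hu c hc) t (one_mul t ▸ m2 1 one t ht)) (fun t ht => ?_) ?_) :)
    · have a1 := (hd _ (m3 a ha u hu) _ (m2 c hc t ht)).scomp t ((hasDerivAt_id t).const_mul c)
      refine ((spray_fst a1).prodMk ((spray_snd a1).const_smul c)).congr_deriv ?_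
      rw [h2]
      simp [sq, smul_smul]
    · simp only [mul_zero, h0 _ (m1 a ha u hu c hc), h0 _ (m3 a ha u hu)]
  have c2 : ∀ a ∈ ball a₀ (2 * r), ∀ u ∈ ball (0 : E) r, HasFDerivAt
      (fun v => (φ (r, a, r⁻¹ • v)).1) ((ContinuousLinearMap.fst ℝ E E).comp
        ((fderiv ℝ φ (r, a, u)).comp ((0 : E →L[ℝ] ℝ).prod ((0 : E →L[ℝ] E).prod
          (r⁻¹ • ContinuousLinearMap.id ℝ E))))) (r • u) := fun a ha u hu =>
    (HasFDerivAt.comp (r • u) (f := fun v => (r, a, r⁻¹ • v)) (by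
      rw [inv_smul_smul₀ hr.ne']
      exact ((hφ.contDiffAt ((isOpen_ball.prod isOpen_ball).mem_nhds
        (mk_mem_prod m4 (m3 a ha u hu)))).differentiableAt (by simp)).hasFDerivAt)
      ((hasFDerivAt_const r _).prodMk ((hasFDerivAt_const a _).prodMk
        ((hasFDerivAt_id _).const_smul r⁻¹)))).fst
  have rad : ∀ a ∈ ball a₀ (2 * r), ∀ u ∈ ball (0 : E) r, ∀ c ∈ ball (0 : ℝ) 2, c • u ∈ ball 0 r →
      (fderiv ℝ φ (r, a, c • u) (0, 0, u)).1 = r • (φ (c * r, a, u)).2 := fun a ha u hu c hc h => by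
    have a1 := (c2 a ha _ h).comp_hasDerivAt_of_eq c
      (((hasDerivAt_id c).smul_const u).const_smul r) rfl
    have a2 := spray_fst ((hd _ (m3 a ha u hu) _ (m2 c hc r rr)).scomp c
      ((hasDerivAt_id c).mul_const r))
    have a3 := a1.unique (a2.congr_of_eventuallyEq
      ((isOpen_ball.eventually_mem hc).mono fun s hs => by
        simpa [hr.ne'] using hom a ha u hu s hs))
    simp only [one_smul, one_mul] at a3
    change (fderiv ℝ φ (r, a, c • u) (0, 0, r⁻¹ • r • u)).1 = _ at a3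
    rwa [inv_smul_smul₀ hr.ne'] at a3
  have m5 : ∀ v ∈ ball (0 : E) (min (2 * r) (r * r)), r⁻¹ • v ∈ ball (0 : E) r := fun v hv => by
    rw [mem_ball_zero_iff, norm_smul, norm_inv, Real.norm_of_nonneg hr.le, inv_mul_lt_iff₀ hr]
    exact (mem_ball_zero_iff.1 hv).trans_le (min_le_right _ _)
  have m6 := ball_subset_ball (x := a₀) (min_le_left (2 * r) (r * r))
  have z1 : (0 : E) ∈ ball (0 : E) r := mem_ball_self hr
  have z2 : (0 : ℝ) ∈ ball (0 : ℝ) 2 := mem_ball_self two_pos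
  refine ⟨fun z => (φ (r, z.1, r⁻¹ • z.2)).1, min (2 * r) (r * r), by positivity,
    (hφ.comp (by fun_prop) fun z hz => ⟨m4, m3 _ (m6 hz.1) _ (m5 _ hz.2)⟩).fst,
    fun a ha => ?_, fun a ha => ?_, fun a ha v hv w => ?_⟩
  · have := hom a (m6 ha) 0 z1 0 z2
    rw [zero_mul, h0 _ (m3 a (m6 ha) 0 z1)] at this
    simpa using this
  · have a1 := c2 a (m6 ha) 0 z1
    rw [smul_zero] at a1
    refine a1.congr_fderiv ((ContinuousLinearMap.hasFDerivAt _ (x := 0)).unique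
      ((hasFDerivAt_id (0 : E)).congr_of_eventuallyEq ?_))
    filter_upwards [isOpen_ball.mem_nhds (mem_ball_self (show 0 < min (2 * r) (r * r) by positivity))]
      with v hv
    have a2 := rad a (m6 ha) _ (m5 v hv) 0 z2 (by rwa [zero_smul])
    rw [zero_smul, zero_mul, h0 _ (m3 a (m6 ha) _ (m5 v hv)), smul_inv_smul₀ hr.ne'] at a2
    exact a2
  · have a1 := (c2 a (m6 ha) _ (m5 v hv)).fderiv
    have a2 := rad a (m6 ha) _ (m5 v hv) 1 one (by rw [one_smul]; exact m5 v hv)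
    have a3 := hG.spray_gauss h3 isOpen_ball hφ h0 hd (m3 a (m6 ha) _ (m5 v hv)) m4 (r⁻¹ • w)
    rw [smul_inv_smul₀ hr.ne'] at a1
    rw [one_smul, one_mul] at a2
    rw [a1]
    refine (congrArg (fun x => G _ x _) a2).trans ?_
    rw [map_smul, smul_apply]
    refine (congrArg _ a3).trans ?_
    simp only [map_smul, smul_apply, smul_eq_mul]
    field_simp

end Vale.Agent.P234
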